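import Mathlib

/-! # P007, number theory half: invertible ideals of an order.  Blueprint: `notes/P007N.md`. -/

namespace Vale.Agent.P007

/-- invertible integral ideal -/
def Inv {R : Type} [CommRing R] (A : Ideal R) : Prop :=
  ∃ (B : Ideal R) (c : R), c ≠ 0 ∧ A * B = Ideal.span {c}

/-- the index `[R : A]` -/
noncomputable def idx {R : Type} [CommRing R] (A : Ideal R) : ℕ := A.toAddSubgroup.index

/-- the number of invertible ideals of index `m` -/
noncomputable def cnt (R : Type) [CommRing R] (m : ℕ) : ℕ :=
  {A : Ideal R | Inv A ∧ idx A = m}.ncard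

end Vale.Agent.P007
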