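import Mathlib

/-! # P007, number theory half: counting functions.  Blueprint: `notes/P007N.md`. -/

namespace Vale.Agent.P007

open Finset

/-- a multiplicative function with the local bound `a(p^k) ≤ C p^(k - ⌈k/n⌉)` -/
structure Mult (n : ℕ) (C : ℝ) (a : ℕ → ℝ) : Prop where
  nonneg : ∀ m, 0 ≤ a m
  mul : ∀ m q : ℕ, m ≠ 0 → q ≠ 0 → m.Coprime q → a (m * q) = a m * a q
  loc : ∀ p k r : ℕ, p.Prime → 1 ≤ k → n * r < k + n → a (p ^ k) * (p : ℝ) ^ r ≤ C * (p : ℝ) ^ k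

/-- `A(z) = ∑_{1 ≤ m ≤ z} a(m)` -/
noncomputable def sumA (a : ℕ → ℝ) (z : ℝ) : ℝ := ∑ m ∈ Icc 1 ⌊z⌋₊, a m

/-- `H(z) = ∑_{1 ≤ m ≤ z} a(m) / m` -/
noncomputable def sumH (a : ℕ → ℝ) (z : ℝ) : ℝ := ∑ m ∈ Icc 1 ⌊z⌋₊, a m / m

end Vale.Agent.P007
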