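import Vale.Agent.P007.N.HT

/-! # P007 N: assembly of the real-variable argument

Notation `W = Δ^(n+1)`, `L = log Δ`, `A = sumA a`, `H = sumH a`.

`asm_H`: `c H(W) ≤ ∑_{m' ≤ W} ∑_p a(m') a(p) / (m' p) = ∑ a(m' p) / (m' p)` (primes `p > W ≥ m'`
are coprime to `m'`; `(m', p) ↦ m' p` is injective because a prime `> W` dividing `m' p` is `p`),
which is at most `∑_{W < m ≤ W Δ^b} a(m)/m ≤ ∑_{j < J} A(2^(j+1) W) / (2^j W) ≤ 2 M J` with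
`2^J ≥ Δ^b`, `J ≤ 2 b L + 1` (dyadic blocks, or induction on `J`).

`asm`: take `Δ₀` so large that `3 * 2^n Δ ≤ W`.  By `ht_le` and `asm_H`, `A(z) ≤ C M z` for
`Δ^(1/4) ≤ z ≤ W`, and `A(z) ≤ E := Δ^(1/4) H(W) ≤ C Δ^(1/4) M L` for `z ≤ Δ^(1/4)`.
* `t ≤ 2η`: all `m` in the sum have `m ≤ y := 3ηΔ ≤ W`.  For `1 ≤ m ≤ y`,
  `m^(-1/2) ≤ ∑_{j : m ≤ y/4^j} 2^(j+1) / √y` (take the largest such `j`), so
  `∑_{m ≤ y} a(m)/√m ≤ ∑_{j : 4^j ≤ y} 2^(j+1) A(y/4^j)/√y ≤ 4 C M √y + 4 E`.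
  Multiply by `√Δ`; `4 E √Δ ≤ C Δ^(3/4) L M ≤ √η M Δ` for `Δ ≥ Δ₀(η)`.
  (Abel summation, or induction on dyadic blocks, are equally good.)
* `t > 2η`: `y := (t - η) Δ > ηΔ`; if `y ≥ 2^n Δ` the sum is empty.  Otherwise
  `ρ := 2ηΔ/y ∈ [ρ₀, 2]`, `ρ₀ := 2η/2^n`, all `m` lie in `(y, y(1+ρ)]`, `√(Δ/m) ≤ √(Δ/y)`, and
  `ht_short` with `H(3y) ≤ H(W) ≤ C M L`, `log y ≥ L/2` gives
  `≤ √(Δ/y) * C √ρ y M = C √(2η) M Δ`. -/

namespace Vale.Agent.P007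

open Finset

theorem asm_Icc (N : ℕ) : Icc 1 N = Ioc 0 N := rfl

theorem asm_block {a : ℕ → ℝ} (h0 : ∀ m, 0 ≤ a m) (k : ℕ) (z : ℝ) :
    ∑ m ∈ Ioc k ⌊z⌋₊, a m ≤ sumA a z := by
  unfold sumA
  rw [asm_Icc]
  exact sum_le_sum_of_subset_of_nonneg (Ioc_subset_Ioc_left (Nat.zero_le k)) fun m _ _ => h0 m

theorem asm_H_mono {a : ℕ → ℝ} (h0 : ∀ m, 0 ≤ a m) {z w : ℝ} (h : z ≤ w) :
    sumH a z ≤ sumH a w :=
  sum_le_sum_of_subset_of_nonneg (Icc_subset_Icc_right (Nat.floor_le_floor h))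
    fun m _ _ => div_nonneg (h0 m) (Nat.cast_nonneg m)

theorem asm_H_nonneg {a : ℕ → ℝ} (h0 : ∀ m, 0 ≤ a m) (z : ℝ) : 0 ≤ sumH a z :=
  sum_nonneg fun m _ => div_nonneg (h0 m) (Nat.cast_nonneg m)

theorem asm_A_le {a : ℕ → ℝ} (h0 : ∀ m, 0 ≤ a m) {z : ℝ} (hz : 0 ≤ z) :
    sumA a z ≤ z * sumH a z := by
  unfold sumA sumH
  rw [mul_sum]
  refine sum_le_sum fun m hm => ?_
  obtain ⟨h1, h2⟩ := mem_Icc.1 hm
  have h3 : (0 : ℝ) < m := by exact_mod_cast h1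
  have h4 : (m : ℝ) ≤ z := (Nat.le_floor_iff hz).1 h2
  calc a m = m * (a m / m) := by field_simp
    _ ≤ z * (a m / m) := mul_le_mul_of_nonneg_right h4 (div_nonneg (h0 m) h3.le)

theorem asm_dy {a : ℕ → ℝ} (h0 : ∀ m, 0 ≤ a m) {W M : ℝ} (hW : 0 < W)
    (hA : ∀ Y : ℝ, W ≤ Y → sumA a Y ≤ M * Y) (J : ℕ) :
    ∑ m ∈ Ioc ⌊W⌋₊ ⌊2 ^ J * W⌋₊, a m / m ≤ 2 * M * J := by
  induction J with
  | zero => simp
  | succ J ih =>
    have h1 : (1 : ℝ) ≤ 2 ^ J := one_le_pow₀ (by norm_num)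
    have h2 : W ≤ 2 ^ J * W := le_mul_of_one_le_left hW.le h1
    have h3 : 2 ^ J * W ≤ 2 ^ (J + 1) * W := by rw [pow_succ]; nlinarith
    have h4 : 0 < 2 ^ J * W := by positivity
    rw [← sum_Ioc_consecutive _ (Nat.floor_le_floor h2) (Nat.floor_le_floor h3)]
    have h5 : ∑ m ∈ Ioc ⌊2 ^ J * W⌋₊ ⌊2 ^ (J + 1) * W⌋₊, a m / m ≤ 2 * M := by
      calc _ ≤ ∑ m ∈ Ioc ⌊2 ^ J * W⌋₊ ⌊2 ^ (J + 1) * W⌋₊, a m / (2 ^ J * W) :=
            sum_le_sum fun m hm => div_le_div_of_nonneg_left (h0 m) h4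
              (Nat.lt_of_floor_lt (mem_Ioc.1 hm).1).le
        _ ≤ M * (2 ^ (J + 1) * W) / (2 ^ J * W) := by
            rw [← sum_div]
            exact div_le_div_of_nonneg_right ((asm_block h0 _ _).trans (hA _ (h2.trans h3))) h4.le
        _ = 2 * M := by rw [pow_succ]; field_simp
    push_cast
    linarith

theorem asm_pow {Δ : ℝ} (h : 2 ≤ Δ) : ∃ J : ℕ, Δ ≤ 2 ^ J ∧ (J : ℝ) ≤ 4 * Real.log Δ := by
  have h1 := Real.log_two_gt_d9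
  have h2 : Real.log 2 ≤ Real.log Δ := Real.log_le_log (by norm_num) h
  have h3 : 0 < Real.log 2 := by linarith
  refine ⟨⌈Real.log Δ / Real.log 2⌉₊, ?_, ?_⟩
  · have h4 := Nat.le_ceil (Real.log Δ / Real.log 2)
    rw [div_le_iff₀ h3, ← Real.log_pow] at h4
    exact (Real.log_le_log_iff (by linarith) (by positivity)).1 h4
  · have h4 := Nat.ceil_lt_add_one (div_nonneg (h3.le.trans h2) h3.le)
    have h5 : Real.log Δ / Real.log 2 ≤ 2 * Real.log Δ := by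
      rw [div_le_iff₀ h3]
      nlinarith
    linarith

open Classical in
theorem asm_H (n : ℕ) (C c : ℝ) (b : ℕ) (hc : 0 < c) : ∃ C' : ℝ, 0 < C' ∧
    ∀ (a : ℕ → ℝ) (Δ M : ℝ), Mult n C a → 2 ≤ Δ → 0 ≤ M →
      (∀ Y : ℝ, Δ ^ (n + 1) ≤ Y → sumA a Y ≤ M * Y) →
      c ≤ ∑ p ∈ (Ioc ⌊Δ ^ (n + 1)⌋₊ ⌊Δ ^ b⌋₊).filter (fun p => p.Prime ∧ 1 ≤ a p), (1 : ℝ) / p →
      sumH a (Δ ^ (n + 1)) ≤ C' * M * Real.log Δ := by
  refine ⟨(8 * b + 1) / c, by positivity, fun a Δ M ha hΔ hM hA hP => ?_⟩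
  obtain ⟨J, hJ1, hJ2⟩ := asm_pow hΔ
  have hΔ0 : 0 < Δ := by linarith
  have hL : 0 ≤ Real.log Δ := Real.log_nonneg (by linarith)
  generalize hWd : Δ ^ (n + 1) = W at *
  have hW : 0 < W := hWd ▸ pow_pos hΔ0 _
  generalize hPd : (Ioc ⌊W⌋₊ ⌊Δ ^ b⌋₊).filter (fun p => p.Prime ∧ 1 ≤ a p) = P at *
  have hmem : ∀ p ∈ P, ⌊W⌋₊ < p ∧ (p : ℝ) ≤ 2 ^ (J * b) ∧ p.Prime ∧ 1 ≤ a p := fun p hp => by
    rw [← hPd, mem_filter, mem_Ioc] at hp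
    refine ⟨hp.1.1, ((Nat.le_floor_iff (by positivity)).1 hp.1.2).trans ?_, hp.2⟩
    rw [pow_mul]
    exact pow_le_pow_left₀ hΔ0.le hJ1 b
  have hnd : ∀ m ∈ Icc 1 ⌊W⌋₊, ∀ p ∈ P, ¬ p ∣ m := fun m hm p hp h => by
    have h1 := Nat.le_of_dvd (mem_Icc.1 hm).1 h
    have h2 := (hmem p hp).1
    have h3 := (mem_Icc.1 hm).2
    omega
  have hinj : Set.InjOn (fun z : ℕ × ℕ => z.1 * z.2) ↑(Icc 1 ⌊W⌋₊ ×ˢ P) := by
    rintro ⟨m, p⟩ h1 ⟨m', p'⟩ h2 h3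
    obtain ⟨h4, h5⟩ := mem_product.1 (mem_coe.1 h1)
    obtain ⟨h6, h7⟩ := mem_product.1 (mem_coe.1 h2)
    have h8 : m * p = m' * p' := h3
    have hp := (hmem p h5).2.2.1
    have h9 : p ∣ m' * p' := h8 ▸ Dvd.intro_left m rfl
    have h10 : p = p' := ((Nat.prime_dvd_prime_iff_eq hp (hmem p' h7).2.2.1).1
      ((hp.dvd_mul.1 h9).resolve_left (hnd m' h6 p h5)))
    subst h10
    rw [Nat.eq_of_mul_eq_mul_right hp.pos h8]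
  have h1 : sumH a W * c ≤ ∑ z ∈ Icc 1 ⌊W⌋₊ ×ˢ P, a (z.1 * z.2) / ((z.1 * z.2 : ℕ) : ℝ) := by
    refine (mul_le_mul_of_nonneg_left hP (asm_H_nonneg ha.nonneg W)).trans ?_
    rw [sumH, sum_mul_sum, sum_product]
    refine sum_le_sum fun m hm => sum_le_sum fun p hp => ?_
    have hp' := (hmem p hp).2.2
    have hm0 : m ≠ 0 := by have := (mem_Icc.1 hm).1; omega
    rw [ha.mul m p hm0 hp'.1.ne_zero ((hp'.1.coprime_iff_not_dvd.2 (hnd m hm p hp)).symm),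
      Nat.cast_mul, ← div_mul_div_comm]
    exact mul_le_mul_of_nonneg_left (div_le_div_of_nonneg_right hp'.2 (Nat.cast_nonneg p))
      (div_nonneg (ha.nonneg m) (Nat.cast_nonneg m))
  have h2 : ∑ z ∈ Icc 1 ⌊W⌋₊ ×ˢ P, a (z.1 * z.2) / ((z.1 * z.2 : ℕ) : ℝ) ≤
      ∑ m ∈ Ioc ⌊W⌋₊ ⌊2 ^ (J * b) * W⌋₊, a m / m := by
    rw [← sum_image (f := fun m : ℕ => a m / (m : ℝ)) hinj]
    refine sum_le_sum_of_subset_of_nonneg (fun q hq => ?_)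
      fun m _ _ => div_nonneg (ha.nonneg m) (Nat.cast_nonneg m)
    obtain ⟨⟨m, p⟩, hz, rfl⟩ := mem_image.1 hq
    obtain ⟨h4, h5⟩ := mem_product.1 hz
    obtain ⟨h6, h7⟩ := mem_Icc.1 h4
    obtain ⟨h8, h9, -⟩ := hmem p h5
    refine mem_Ioc.2 ⟨lt_of_lt_of_le h8 (Nat.le_mul_of_pos_left p h6), Nat.le_floor ?_⟩
    have h10 : (m : ℝ) ≤ W := (Nat.le_floor_iff hW.le).1 h7
    rw [Nat.cast_mul, mul_comm]
    exact mul_le_mul h9 h10 (Nat.cast_nonneg m) (by positivity)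
  have h3 := asm_dy ha.nonneg hW hA (J * b)
  have h4 : 2 * M * ((J * b : ℕ) : ℝ) ≤ (8 * b + 1) * M * Real.log Δ := by
    push_cast
    have h5 := mul_le_mul_of_nonneg_left hJ2 (mul_nonneg hM (Nat.cast_nonneg b))
    have h6 := mul_nonneg hM hL
    nlinarith
  rw [div_mul_eq_mul_div, div_mul_eq_mul_div, le_div_iff₀ hc]
  linarith

theorem asm_sq {a : ℕ → ℝ} (h0 : ∀ m, 0 ≤ a m) {W K E : ℝ} (hK : 0 ≤ K) (hE : 0 ≤ E)
    (hA : ∀ z : ℝ, 1 ≤ z → z ≤ W → sumA a z ≤ K * z + E) (J : ℕ) :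
    ∀ y : ℝ, 1 ≤ y → y < 4 ^ J → y ≤ W →
      ∑ m ∈ Ioc 0 ⌊y⌋₊, a m / √(m : ℝ) ≤ 4 * K * √y + 4 * E - 2 * (E / √y) := by
  induction J with
  | zero => intro y h1 h2; simp at h2; linarith
  | succ J ih =>
    intro y h1 h2 h3
    have hs : 1 ≤ √y := Real.one_le_sqrt.2 h1
    have hs0 : 0 < √y := by linarith
    have h4 : √(y / 4) = √y / 2 := by
      rw [Real.sqrt_div' _ (by norm_num), show (4 : ℝ) = 2 ^ 2 by norm_num,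
        Real.sqrt_sq (by norm_num)]
    have h5 : y / 4 ≤ y := by linarith
    rw [← sum_Ioc_consecutive _ (Nat.zero_le ⌊y / 4⌋₊) (Nat.floor_le_floor h5)]
    have h6 : ∑ m ∈ Ioc ⌊y / 4⌋₊ ⌊y⌋₊, a m / √(m : ℝ) ≤ 2 * K * √y + 2 * (E / √y) := by
      calc _ ≤ ∑ m ∈ Ioc ⌊y / 4⌋₊ ⌊y⌋₊, a m / (√y / 2) :=
            sum_le_sum fun m hm => div_le_div_of_nonneg_left (h0 m) (by linarith)
              (h4 ▸ Real.sqrt_le_sqrt (Nat.lt_of_floor_lt (mem_Ioc.1 hm).1).le)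
        _ ≤ (K * (√y * √y) + E) / (√y / 2) := by
            rw [← sum_div, Real.mul_self_sqrt (by linarith)]
            exact div_le_div_of_nonneg_right ((asm_block h0 _ _).trans (hA y h1 h3)) (by linarith)
        _ = _ := by field_simp
    have h7 : E / √y ≤ E := div_le_self hE hs
    have h8 := mul_nonneg hK hs0.le
    rcases lt_or_ge (y / 4) 1 with h | h
    · rw [Nat.floor_eq_zero.2 h, Ioc_self, sum_empty] at *
      linarith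
    · have h9 := ih (y / 4) h (by rw [pow_succ] at h2; linarith) (h5.trans h3)
      have h10 : E / (√y / 2) = 2 * (E / √y) := by field_simp
      rw [h4, h10] at h9
      linarith

theorem asm_A {a : ℕ → ℝ} (h0 : ∀ m, 0 ≤ a m) {C1 B Q W : ℝ} (hC1 : 0 < C1) (hB : 0 ≤ B)
    (hQ : 1 < Q) (h1 : ∀ z : ℝ, 1 ≤ z → sumA a z * Real.log z ≤ C1 * z * sumH a z)
    (h2 : sumH a W ≤ B * Real.log Q) (z : ℝ) (hz : 1 ≤ z) (hzW : z ≤ W) :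
    sumA a z ≤ C1 * B * z + Q * (B * Real.log Q) := by
  have hL : 0 < Real.log Q := Real.log_pos hQ
  have h3 := (asm_H_mono h0 hzW).trans h2
  have h4 : 0 ≤ sumA a z := sum_nonneg fun m _ => h0 m
  rcases le_total z Q with h | h
  · have h5 := asm_A_le h0 (by linarith : 0 ≤ z)
    have h6 := mul_le_mul h h3 (asm_H_nonneg h0 z) (by linarith)
    have h7 : 0 ≤ C1 * B * z := by positivity
    linarith
  · have h5 : sumA a z * Real.log Q ≤ C1 * B * z * Real.log Q := by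
      calc _ ≤ sumA a z * Real.log z :=
            mul_le_mul_of_nonneg_left (Real.log_le_log (by linarith) h) h4
        _ ≤ C1 * z * sumH a z := h1 z hz
        _ ≤ C1 * z * (B * Real.log Q) := mul_le_mul_of_nonneg_left h3 (by positivity)
        _ = _ := by ring
    have h6 := le_of_mul_le_mul_right h5 hL
    have h7 : 0 ≤ Q * (B * Real.log Q) := by positivity
    linarith

theorem asm_near {a : ℕ → ℝ} (h0 : ∀ m, 0 ≤ a m) {C1 B Q W η : ℝ} (hC1 : 0 < C1) (hB : 0 ≤ B)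
    (hQ : 1 < Q) (hη : 0 < η) (h1 : ∀ z : ℝ, 1 ≤ z → sumA a z * Real.log z ≤ C1 * z * sumH a z)
    (h2 : sumH a W ≤ B * Real.log Q) (h3 : Real.log Q ≤ √η * Q) (h4 : 1 ≤ 3 * η * Q ^ 4)
    (h5 : 3 * η * Q ^ 4 ≤ W) :
    ∑ m ∈ Ioc 0 ⌊3 * η * Q ^ 4⌋₊, a m * √(Q ^ 4 / m) ≤ (8 * C1 + 4) * B * √η * Q ^ 4 := by
  have hL : 0 < Real.log Q := Real.log_pos hQ
  have hQ0 : 0 < Q := by linarith
  obtain ⟨J, hJ⟩ := pow_unbounded_of_one_lt (3 * η * Q ^ 4) (by norm_num : (1 : ℝ) < 4)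
  have hE : 0 ≤ Q * (B * Real.log Q) := by positivity
  have h6 := asm_sq h0 (by positivity) hE (asm_A h0 hC1 hB hQ h1 h2) J _ h4 hJ h5
  have h7 : √(Q ^ 4) = Q ^ 2 := by
    rw [show Q ^ 4 = (Q ^ 2) ^ 2 by ring, Real.sqrt_sq (by positivity)]
  have h8 : √(3 * η * Q ^ 4) ≤ 2 * √η * Q ^ 2 := by
    refine Real.sqrt_le_iff.2 ⟨by positivity, ?_⟩
    rw [mul_pow, mul_pow, Real.sq_sqrt hη.le]
    have : 0 ≤ η * Q ^ 4 := by positivity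
    nlinarith
  have h9 : ∑ m ∈ Ioc 0 ⌊3 * η * Q ^ 4⌋₊, a m * √(Q ^ 4 / m) =
      Q ^ 2 * ∑ m ∈ Ioc 0 ⌊3 * η * Q ^ 4⌋₊, a m / √(m : ℝ) := by
    rw [mul_sum]
    refine sum_congr rfl fun m _ => ?_
    rw [Real.sqrt_div' _ (Nat.cast_nonneg m), h7]
    ring
  have h10 : 0 ≤ Q * (B * Real.log Q) / √(3 * η * Q ^ 4) := by positivity
  have h11 : ∑ m ∈ Ioc 0 ⌊3 * η * Q ^ 4⌋₊, a m / √(m : ℝ) ≤ (8 * C1 + 4) * B * √η * Q ^ 2 := by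
    have h12 := mul_le_mul_of_nonneg_left h8 (by positivity : 0 ≤ 4 * (C1 * B))
    have h13 := mul_le_mul_of_nonneg_left h3 (by positivity : 0 ≤ Q * B)
    nlinarith
  rw [h9]
  calc _ ≤ Q ^ 2 * ((8 * C1 + 4) * B * √η * Q ^ 2) := mul_le_mul_of_nonneg_left h11 (by positivity)
    _ = _ := by ring

theorem asm_far {a : ℕ → ℝ} (h0 : ∀ m, 0 ≤ a m) {C3 B Δ y η L : ℝ} (hC3 : 0 < C3) (hB : 0 ≤ B)
    (hΔ : 0 < Δ) (hy : 0 < y) (hη : 0 < η) (hL : 0 < L) (h1 : L ≤ Real.log y)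
    (h2 : sumH a (3 * y) ≤ B * L)
    (h3 : (∑ m ∈ Ioc ⌊y⌋₊ ⌊y * (1 + 2 * η * Δ / y)⌋₊, a m) * Real.log y ≤
      C3 * √(2 * η * Δ / y) * y * sumH a (3 * y)) :
    ∑ m ∈ Ioc ⌊y⌋₊ ⌊y * (1 + 2 * η * Δ / y)⌋₊, a m * √(Δ / m) ≤ 2 * C3 * B * √η * Δ := by
  have h4 : 0 ≤ ∑ m ∈ Ioc ⌊y⌋₊ ⌊y * (1 + 2 * η * Δ / y)⌋₊, a m := sum_nonneg fun m _ => h0 m
  have h5 : ∑ m ∈ Ioc ⌊y⌋₊ ⌊y * (1 + 2 * η * Δ / y)⌋₊, a m ≤ C3 * √(2 * η * Δ / y) * y * B := by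
    refine le_of_mul_le_mul_right ?_ hL
    calc _ ≤ _ := mul_le_mul_of_nonneg_left h1 h4
      _ ≤ _ := h3
      _ ≤ C3 * √(2 * η * Δ / y) * y * (B * L) := mul_le_mul_of_nonneg_left h2 (by positivity)
      _ = _ := by ring
  have h6 : √(2 * η * Δ / y) * √(Δ / y) ≤ 2 * √η * (Δ / y) := by
    rw [← Real.sqrt_mul (by positivity)]
    refine Real.sqrt_le_iff.2 ⟨by positivity, ?_⟩
    rw [mul_pow, mul_pow, Real.sq_sqrt hη.le, mul_div_assoc]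
    have : 0 ≤ η * (Δ / y) ^ 2 := by positivity
    nlinarith
  calc _ ≤ ∑ m ∈ Ioc ⌊y⌋₊ ⌊y * (1 + 2 * η * Δ / y)⌋₊, a m * √(Δ / y) :=
        sum_le_sum fun m hm => mul_le_mul_of_nonneg_left (Real.sqrt_le_sqrt
          (div_le_div_of_nonneg_left hΔ.le hy (Nat.lt_of_floor_lt (mem_Ioc.1 hm).1).le)) (h0 m)
    _ ≤ C3 * √(2 * η * Δ / y) * y * B * √(Δ / y) := by
        rw [← sum_mul]
        exact mul_le_mul_of_nonneg_right h5 (Real.sqrt_nonneg _)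
    _ = C3 * y * B * (√(2 * η * Δ / y) * √(Δ / y)) := by ring
    _ ≤ C3 * y * B * (2 * √η * (Δ / y)) := mul_le_mul_of_nonneg_left h6 (by positivity)
    _ = _ := by field_simp

open Classical in
theorem asm (n : ℕ) (hn : 1 ≤ n) (C c : ℝ) (b : ℕ) (hc : 0 < c) : ∃ C' : ℝ, 0 < C' ∧
    ∀ η : ℝ, 0 < η → η ≤ 1 → ∃ Δ₀ : ℝ, ∀ (a : ℕ → ℝ) (Δ M t : ℝ), Mult n C a → Δ₀ ≤ Δ → 0 ≤ M →
      (∀ Y : ℝ, Δ ^ (n + 1) ≤ Y → sumA a Y ≤ M * Y) →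
      c ≤ ∑ p ∈ (Ioc ⌊Δ ^ (n + 1)⌋₊ ⌊Δ ^ b⌋₊).filter (fun p => p.Prime ∧ 1 ≤ a p), (1 : ℝ) / p →
      ∑ m ∈ (Icc 1 ⌊2 ^ n * Δ⌋₊).filter (fun m : ℕ => |(m : ℝ) / Δ - t| < η),
        a m * √(Δ / m) ≤ C' * √η * M * Δ := by
  obtain ⟨C1, hC1, h1⟩ := ht_le n hn C
  obtain ⟨C3, hC3, h3⟩ := ht_short n hn C
  obtain ⟨C2, hC2, h2⟩ := asm_H n C c b hc
  refine ⟨(8 * C1 + 4) * (4 * C2) + 2 * C3 * (2 * C2), by positivity, fun η hη hη1 => ?_⟩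
  obtain ⟨y₀, hy₀, h3⟩ := h3 (2 * η / 2 ^ n) (by positivity)
  obtain ⟨Q₀, hQ₀⟩ := Filter.eventually_atTop.1
    ((Real.isLittleO_log_id_atTop.bound (Real.sqrt_pos.2 hη)).and (Filter.eventually_gt_atTop 1))
  refine ⟨max (max (|Q₀| ^ 4) (3 * 2 ^ n)) (max (y₀ / η) (1 / η ^ 2)),
    fun a Δ M t ha hΔ hM hA hP => ?_⟩
  simp only [max_le_iff] at hΔ
  obtain ⟨⟨hΔ1, hΔ2⟩, hΔ3, hΔ4⟩ := hΔ
  have h2n : (1 : ℝ) ≤ 2 ^ n := one_le_pow₀ (by norm_num)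
  have hΔ0 : 0 < Δ := by linarith
  have hL : 0 < Real.log Δ := Real.log_pos (by linarith)
  have hH := h2 a Δ M ha (by linarith) hM hA hP
  have hW : 3 * 2 ^ n * Δ ≤ Δ ^ (n + 1) := by
    rw [pow_succ]
    exact mul_le_mul_of_nonneg_right (hΔ2.trans (le_self_pow₀ (by linarith) (by omega))) hΔ0.le
  rw [div_le_iff₀ hη] at hΔ3
  rw [div_le_iff₀ (by positivity)] at hΔ4
  have hnn : ∀ m : ℕ, 0 ≤ a m * √(Δ / m) := fun m => mul_nonneg (ha.nonneg m) (Real.sqrt_nonneg _)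
  have hp1 : 0 ≤ (8 * C1 + 4) * (4 * C2) * √η * M * Δ := by positivity
  have hp2 : 0 ≤ 2 * C3 * (2 * C2) * √η * M * Δ := by positivity
  rcases le_or_gt t (2 * η) with ht | ht
  · obtain ⟨Q, hQ0, rfl⟩ : ∃ Q : ℝ, 0 ≤ Q ∧ Δ = Q ^ 4 := ⟨√√Δ, Real.sqrt_nonneg _, by
      rw [show √√Δ ^ 4 = (√√Δ ^ 2) ^ 2 by ring, Real.sq_sqrt (Real.sqrt_nonneg _),
        Real.sq_sqrt hΔ0.le]⟩
    obtain ⟨h4, h5⟩ := hQ₀ Q ((le_abs_self _).trans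
      ((pow_le_pow_iff_left₀ (abs_nonneg _) hQ0 (by norm_num)).1 hΔ1))
    rw [id, Real.norm_of_nonneg hQ0, Real.norm_of_nonneg (Real.log_pos h5).le] at h4
    have h6 : sumH a ((Q ^ 4) ^ (n + 1)) ≤ 4 * C2 * M * Real.log Q := by
      rw [Real.log_pow] at hH
      push_cast at hH
      linarith
    have h7 : η * Q ^ 4 ≤ 2 ^ n * Q ^ 4 := mul_le_mul_of_nonneg_right (by linarith) hΔ0.le
    have h8 := asm_near ha.nonneg hC1 (by positivity) h5 hη (h1 a ha) h6 h4 (by linarith)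
      (by linarith)
    refine (sum_le_sum_of_subset_of_nonneg (fun m hm => ?_) fun m _ _ => hnn m).trans
      (h8.trans (by linarith))
    obtain ⟨h9, h10⟩ := mem_filter.1 hm
    have h11 := (abs_lt.1 h10).2
    rw [sub_lt_iff_lt_add, div_lt_iff₀ hΔ0] at h11
    refine mem_Ioc.2 ⟨(mem_Icc.1 h9).1, Nat.le_floor ?_⟩
    have h12 := mul_le_mul_of_nonneg_right ht hΔ0.le
    linarith
  · have hy1 : η * Δ < (t - η) * Δ := mul_lt_mul_of_pos_right (by linarith) hΔ0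
    have hmem : ∀ m ∈ (Icc 1 ⌊2 ^ n * Δ⌋₊).filter (fun m : ℕ => |(m : ℝ) / Δ - t| < η),
        (m : ℝ) ≤ 2 ^ n * Δ ∧ (t - η) * Δ < m ∧ (m : ℝ) < (t - η) * Δ + 2 * η * Δ := fun m hm => by
      obtain ⟨h9, h10⟩ := mem_filter.1 hm
      obtain ⟨h11, h12⟩ := abs_lt.1 h10
      rw [sub_lt_iff_lt_add, div_lt_iff₀ hΔ0] at h12
      rw [lt_sub_iff_add_lt, lt_div_iff₀ hΔ0] at h11
      exact ⟨(Nat.le_floor_iff (by positivity)).1 (mem_Icc.1 h9).2, by linarith, by linarith⟩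
    generalize (t - η) * Δ = y at hy1 hmem
    have hy0 : 0 < y := lt_trans (mul_pos hη hΔ0) hy1
    rcases le_or_gt (2 ^ n * Δ) y with h | h
    · rw [sum_eq_zero fun m hm => absurd (hmem m hm).2.1 (by linarith [(hmem m hm).1])]
      linarith
    · have h4 : 2 * η / 2 ^ n ≤ 2 * η * Δ / y := by
        rw [div_le_div_iff₀ (by positivity) hy0]
        nlinarith
      have h5 : 2 * η * Δ / y ≤ 2 := by
        rw [div_le_iff₀ hy0]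
        linarith
      have h6 : Real.log Δ / 2 ≤ Real.log y := by
        have h7 : Δ ≤ y ^ 2 := by
          calc Δ ≤ Δ * (Δ * η ^ 2) := le_mul_of_one_le_right hΔ0.le hΔ4
            _ = (η * Δ) ^ 2 := by ring
            _ ≤ y ^ 2 := pow_le_pow_left₀ (by positivity) hy1.le 2
        have h8 := Real.log_le_log hΔ0 h7
        rw [Real.log_pow] at h8
        push_cast at h8
        linarith
      have h7 : sumH a (3 * y) ≤ 2 * C2 * M * (Real.log Δ / 2) :=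
        (asm_H_mono ha.nonneg (by linarith)).trans (hH.trans (le_of_eq (by ring)))
      have h8 := asm_far ha.nonneg hC3 (by positivity) hΔ0 hy0 hη (half_pos hL) h6 h7
        (h3 a ha _ y h4 h5 (by linarith))
      refine (sum_le_sum_of_subset_of_nonneg (fun m hm => ?_) fun m _ _ => hnn m).trans
        (h8.trans (by linarith))
      obtain ⟨-, h9, h10⟩ := hmem m hm
      refine mem_Ioc.2 ⟨(Nat.floor_lt hy0.le).2 h9, Nat.le_floor ?_⟩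
      rw [mul_add, mul_one, mul_div_cancel₀ _ hy0.ne']
      exact h10.le

end Vale.Agent.P007
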