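import Vale.Agent.P007.E.Defs

open Matrix MeasureTheory

namespace Vale.Agent.P007

/-- The element `diag(e^{u_1}, …, e^{u_d}, e^{-(u_1 + … + u_d)})` of `A_{d+1}`; the coordinates
`u_1, …, u_d` carry the Haar measure `du_1 ⋯ du_d`. -/
noncomputable def torus {d : ℕ} (u : Fin d → ℝ) : SpecialLinearGroup (Fin (d + 1)) ℝ :=
  diagA (Fin.snoc u (-∑ i, u i)) (by simp [Fin.sum_univ_castSucc])

/-- The orbit `x A_{d+1}`. -/
def orb {d : ℕ} (x : X (d + 1)) : Set (X (d + 1)) := {y | ∃ u : Fin d → ℝ, y = act x (torus u)}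

/-- `μ = (∑ vol(Y) ν_Y) / ∑ vol(Y)`, the sums running over the finite set `S` of distinct
`A`-orbits `Y` of points of `P`.  Here `ν_Y` is an `A`-invariant probability measure carried by
`Y`, and `vol(Y)` is the Haar measure of a Borel set `F ⊆ A` that `a ↦ x a` maps bijectively
onto `Y`. -/
def IsPacketMeasure {d : ℕ} (P : Set (X (d + 1))) (μ : Measure (X (d + 1))) : Prop :=
  ∃ (S : Finset (Set (X (d + 1)))) (ν : Set (X (d + 1)) → Measure (X (d + 1)))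
    (vol : Set (X (d + 1)) → ENNReal),
    (∀ Y, Y ∈ S ↔ ∃ x ∈ P, Y = orb x) ∧
    (∀ Y ∈ S, IsProbabilityMeasure (ν Y) ∧ ν Y Yᶜ = 0 ∧
      (∀ u : Fin d → ℝ, (ν Y).map (fun y => act y (torus u)) = ν Y) ∧
      ∃ x ∈ Y, ∃ F : Set (Fin d → ℝ), MeasurableSet F ∧
        Set.BijOn (fun u => act x (torus u)) F Y ∧ vol Y = volume F) ∧
    μ = (∑ Y ∈ S, vol Y)⁻¹ • ∑ Y ∈ S, vol Y • ν Y

end Vale.Agent.P007
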