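import Vale.Agent.P007.N.Defs
import Vale.Agent.P007.E.Core

/-! # P007 N: the torus action, lattices of points of `X`, and the abstract parametrisation -/

open Matrix MeasureTheory

namespace Vale.Agent.P007

variable {n d : ℕ}

theorem g_act_coset (g h : SL n) : act (coset g) h = coset (g * h) := rfl

theorem g_exists_coset (x : X n) : ∃ g : SL n, x = coset g := by
  obtain ⟨g, rfl⟩ := (isOpenQuotientMap_mk n).surjective x
  exact ⟨g, rfl⟩

theorem g_act_act (x : X n) (g h : SL n) : act (act x g) h = act x (g * h) := by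
  obtain ⟨k, rfl⟩ := g_exists_coset x
  simp only [g_act_coset, mul_assoc]

theorem g_act_one (x : X n) : act x 1 = x := by
  obtain ⟨k, rfl⟩ := g_exists_coset x
  simp only [g_act_coset, mul_one]

/-- the exponent vector `(u_1, …, u_d, -∑ u)` -/
def ex (u : Fin d → ℝ) : Fin (d + 1) → ℝ := Fin.snoc u (-∑ i, u i)

theorem sum_ex (u : Fin d → ℝ) : ∑ j, ex u j = 0 := by
  simp [ex, Fin.sum_univ_castSucc]

@[simp] theorem ex_castSucc (u : Fin d → ℝ) (i : Fin d) : ex u i.castSucc = u i := by simp [ex]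

@[simp] theorem ex_last (u : Fin d → ℝ) : ex u (Fin.last d) = -∑ i, u i := by simp [ex]

theorem ex_add (u v : Fin d → ℝ) : ex (u + v) = ex u + ex v := by
  funext j
  refine Fin.lastCases ?_ (fun i => ?_) j
  · simp [Finset.sum_add_distrib, add_comm]
  · simp

theorem ex_zero : ex (0 : Fin d → ℝ) = 0 := by
  funext j
  refine Fin.lastCases ?_ (fun i => ?_) j <;> simp

theorem ex_init (v : Fin (d + 1) → ℝ) (hv : ∑ j, v j = 0) : ex (Fin.init v) = v := by
  funext j
  refine Fin.lastCases ?_ (fun i => ?_) j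
  · rw [Fin.sum_univ_castSucc] at hv
    rw [ex_last]
    simp only [Fin.init]
    linarith
  · simp [Fin.init]

theorem continuous_ex : Continuous (ex : (Fin d → ℝ) → Fin (d + 1) → ℝ) := by
  refine continuous_pi fun j => ?_
  refine Fin.lastCases ?_ (fun i => ?_) j
  · simp only [ex_last]; fun_prop
  · simp only [ex_castSucc]; fun_prop

theorem mat_torus (u : Fin d → ℝ) : mat (torus u) = diagonal fun j => Real.exp (ex u j) := rfl

theorem torus_add (u v : Fin d → ℝ) : torus (u + v) = torus u * torus v := by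
  apply mat_inj
  rw [mat_mul, mat_torus, mat_torus, mat_torus, diagonal_mul_diagonal, ex_add]
  simp only [Pi.add_apply, Real.exp_add]

theorem torus_zero : torus (0 : Fin d → ℝ) = 1 := by
  apply mat_inj
  rw [mat_torus, ex_zero, mat_one]
  simp

theorem diagA_eq_torus (v : Fin (d + 1) → ℝ) (hv : ∑ j, v j = 0) :
    diagA v hv = torus (Fin.init v) := by
  apply mat_inj
  rw [mat_torus, ex_init v hv]
  rfl

theorem continuous_torus : Continuous (torus : (Fin d → ℝ) → SL (d + 1)) := by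
  refine Continuous.subtype_mk ?_ _
  refine Continuous.matrix_diagonal (continuous_pi fun j => ?_)
  exact Real.continuous_exp.comp ((continuous_apply j).comp continuous_ex)

theorem g_continuous_act : Continuous fun p : X n × SL n => act p.1 p.2 := by
  have h := (isOpenQuotientMap_mk n).prodMap (IsOpenQuotientMap.id (X := SL n))
  rw [← h.continuous_comp_iff]
  exact (isOpenQuotientMap_mk n).continuous.comp continuous_mul

/-- the flow `x ↦ x a_u` -/
noncomputable def fl (x : X (d + 1)) (u : Fin d → ℝ) : X (d + 1) := act x (torus u)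

theorem fl_fl (x : X (d + 1)) (u v : Fin d → ℝ) : fl (fl x u) v = fl x (u + v) := by
  simp only [fl, g_act_act, torus_add]

theorem fl_zero (x : X (d + 1)) : fl x 0 = x := by
  simp only [fl, torus_zero, g_act_one]

theorem continuous_fl : Continuous fun p : X (d + 1) × (Fin d → ℝ) => fl p.1 p.2 :=
  g_continuous_act.comp (continuous_fst.prodMk (continuous_torus.comp continuous_snd))

theorem mem_orb {x y : X (d + 1)} : y ∈ orb x ↔ ∃ u, y = fl x u := Iff.rfl

theorem self_mem_orb (x : X (d + 1)) : x ∈ orb x := ⟨0, (fl_zero x).symm⟩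

theorem orb_eq_of_mem {x y : X (d + 1)} (h : y ∈ orb x) : orb y = orb x := by
  obtain ⟨u, rfl⟩ := mem_orb.1 h
  ext z
  simp only [mem_orb]
  constructor
  · rintro ⟨v, rfl⟩
    exact ⟨u + v, fl_fl _ _ _⟩
  · rintro ⟨v, rfl⟩
    exact ⟨v - u, by rw [fl_fl, add_sub_cancel]⟩

/-- the action of `a_u` on row vectors -/
noncomputable def scal (u : Fin d → ℝ) (w : Fin (d + 1) → ℝ) : Fin (d + 1) → ℝ :=
  fun j => w j * Real.exp (ex u j)

theorem scal_scal (u v : Fin d → ℝ) (w : Fin (d + 1) → ℝ) :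
    scal v (scal u w) = scal (u + v) w := by
  funext j
  simp only [scal, ex_add, Pi.add_apply, Real.exp_add, mul_assoc]

theorem scal_zero (w : Fin (d + 1) → ℝ) : scal 0 w = w := by
  funext j
  simp [scal, ex_zero]

theorem scal_injective (u : Fin d → ℝ) : Function.Injective (scal u) := fun w w' h => by
  rw [← scal_zero w, ← scal_zero w', ← add_neg_cancel u, ← scal_scal, ← scal_scal, h]

theorem scal_eq_zero {u : Fin d → ℝ} {w : Fin (d + 1) → ℝ} : scal u w = 0 ↔ w = 0 := by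
  have h0 : scal u 0 = 0 := by funext j; simp [scal]
  exact ⟨fun h => scal_injective u (h.trans h0.symm), fun h => h ▸ h0⟩

theorem prod_scal (u : Fin d → ℝ) (w : Fin (d + 1) → ℝ) : ∏ j, scal u w j = ∏ j, w j := by
  simp only [scal, Finset.prod_mul_distrib, ← Real.exp_sum, sum_ex, Real.exp_zero, mul_one]

theorem continuous_scal : Continuous fun p : (Fin d → ℝ) × (Fin (d + 1) → ℝ) => scal p.1 p.2 := by
  refine continuous_pi fun j => ?_
  exact ((continuous_apply j).comp continuous_snd).mul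
    (Real.continuous_exp.comp ((continuous_apply j).comp (continuous_ex.comp continuous_fst)))

theorem rowLattice_subset {g g' : SL n} (h : coset g = coset g') :
    rowLattice g ⊆ rowLattice g' := by
  obtain ⟨γ, ⟨δ, rfl⟩, rfl⟩ := mk_eq_iff.1 h
  rintro _ ⟨v, rfl⟩
  refine ⟨v ᵥ* (δ : Matrix (Fin n) (Fin n) ℤ), ?_⟩
  change _ ᵥ* (mat _ * mat g') = _ ᵥ* mat g'
  rw [← vecMul_vecMul]
  congr 1
  funext i
  simp [mat, vecMul, dotProduct]

theorem g_lat_coset (g : SL n) : lat (coset g) = rowLattice g :=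
  Set.Subset.antisymm (fun _ ⟨_, h, hw⟩ => rowLattice_subset h.symm hw) fun _ hw => ⟨g, rfl, hw⟩

theorem lat_countable (x : X n) : (lat x).Countable := by
  obtain ⟨g, rfl⟩ := g_exists_coset x
  have : lat (coset g) = Set.range fun v : Fin n → ℤ =>
      Matrix.vecMul (fun i => (v i : ℝ)) (mat g) := by
    rw [g_lat_coset]
    ext y
    exact ⟨fun ⟨v, h⟩ => ⟨v, h.symm⟩, fun ⟨v, h⟩ => ⟨v, h.symm⟩⟩
  rw [this]
  exact Set.countable_range _

theorem lat_fl (x : X (d + 1)) (u : Fin d → ℝ) : lat (fl x u) = scal u '' lat x := by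
  obtain ⟨g, rfl⟩ := g_exists_coset x
  rw [fl, g_act_coset, g_lat_coset, g_lat_coset]
  have key : ∀ w : Fin (d + 1) → ℝ, w ᵥ* mat (torus u) = scal u w := fun w => by
    funext j
    rw [mat_torus, vecMul_diagonal]
    rfl
  ext y
  constructor
  · rintro ⟨v, rfl⟩
    exact ⟨_, ⟨v, rfl⟩, by rw [← key, vecMul_vecMul]; rfl⟩
  · rintro ⟨_, ⟨v, rfl⟩, rfl⟩
    exact ⟨v, by rw [← key, vecMul_vecMul]; rfl⟩

theorem mem_thin {t η : ℝ} {x : X n} :
    x ∈ thin n t η ↔ ∃ w ∈ lat x, w ≠ 0 ∧ (∀ j, |w j| < 2) ∧ |∏ j, w j - t| < η := by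
  constructor
  · rintro ⟨g, rfl, h⟩
    rwa [g_lat_coset]
  · obtain ⟨g, rfl⟩ := g_exists_coset x
    rw [g_lat_coset]
    exact fun h => ⟨g, rfl, h⟩

theorem g_isOpen_thin (n : ℕ) (t η : ℝ) : IsOpen (thin n t η) := by
  rw [← (isOpenQuotientMap_mk n).isQuotientMap.isOpen_preimage]
  have : coset ⁻¹' thin n t η = ⋃ v : Fin n → ℤ,
      (fun g : SL n => (fun i => (v i : ℝ)) ᵥ* mat g) ⁻¹'
        {w | w ≠ 0 ∧ (∀ j, |w j| < 2) ∧ |∏ j, w j - t| < η} := by
    ext g
    simp only [Set.mem_preimage, mem_thin, g_lat_coset, Set.mem_iUnion, Set.mem_ofPred_eq]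
    exact ⟨fun ⟨_, ⟨v, h⟩, h'⟩ => ⟨v, h ▸ h'⟩, fun ⟨v, h⟩ => ⟨_, ⟨v, rfl⟩, h⟩⟩
  rw [this]
  refine isOpen_iUnion fun v => IsOpen.preimage (continuous_const.matrix_vecMul continuous_mat) ?_
  have h1 : IsOpen (⋂ j, {w : Fin n → ℝ | |w j| < 2}) :=
    isOpen_iInter_of_finite fun j => isOpen_lt (by fun_prop) continuous_const
  have h2 : IsOpen {w : Fin n → ℝ | |∏ j, w j - t| < η} := isOpen_lt (by fun_prop) continuous_const
  have h3 : IsOpen {w : Fin n → ℝ | w ≠ 0} := isOpen_ne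
  convert h3.inter (h1.inter h2) using 1
  ext w
  simp

/-- The pairs `(x, w)`, `x ∈ P`, `w` a nonzero vector of the lattice `x`, are parametrised
bijectively by `(t, u) ↦ (pt t, vec t) a_u`. -/
structure Param (P : Set (X (d + 1))) (Δ : ℝ) {T : Type} (pt : T → X (d + 1))
    (vec : T → Fin (d + 1) → ℝ) (nrm : T → ℕ) : Prop where
  one_le : 1 ≤ Δ
  pos : ∀ t, 1 ≤ nrm t
  fin : ∀ m, {t | nrm t = m}.Finite
  abs : ∀ t j, |vec t j| = ((nrm t : ℝ) / Δ) ^ (1 / (d + 1) : ℝ)
  mem : ∀ t, pt t ∈ P ∧ vec t ∈ lat (pt t)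
  inv : ∀ x ∈ P, ∀ u, fl x u ∈ P
  surj : ∀ x ∈ P, ∀ w ∈ lat x, w ≠ 0 → ∃ t u, x = fl (pt t) u ∧ w = scal u (vec t)
  inj : ∀ t t' u, pt t' = fl (pt t) u → vec t' = scal u (vec t) → t = t'
  ne : P.Nonempty

end Vale.Agent.P007
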