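import Vale.Agent.P007.N.OrdK

/-! # P007 N: the inverse of an invertible ideal of an order

Plan.  Let `A * B = span {c}` in `O`, `c ≠ 0`.  Then `jinv A = c⁻¹ B`, and
`1 = ∑ a_i b_i` with `a_i ∈ A`, `b_i ∈ jinv A` (`jinv_one`; `Submodule.mul_induction_on` or
`Submodule.mem_mul_iff_exists_sum`-type lemmas).
* `jinv_inj`: `a ∈ A` iff `a * jinv A ⊆ O` (write `a = ∑ a_i' (b_i' a)`).
* `jinv_frac`: `I = ⟨jinv A, c⟩`, `J = (A : FractionalIdeal)` given as the submodule
  `A.map (Algebra.linearMap O K)`; `I * J = 1` by `FractionalIdeal.coeToSubmodule_injective`,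
  `coe_mul`, `coe_one`.  Properness: if `a I ⊆ I` then `a = a * 1 ∈ a I J ⊆ I J = O`.
* `frac_jinv`: `A = {a ∈ O | a ∈ b₀ J}`; with `e ≠ 0` in `O` such that `e I ⊆ O` and
  `B = {b ∈ O | b ∈ e I}`, `A * B = span {b₀ e}`.
* `jinv_basis`: `[jinv A : O] = idx A`.  Take `N ≠ 0` with `N ∈ A` (`natCast_idx_mem`), so that
  `N * jinv A ⊆ O`, and `x` from `exists_gen`; then `x * jinv A + N O = O`, and
  `b ↦ x b mod A` is an additive surjection `jinv A → O ⧸ A` with kernel `O`.  `jinv A` is a free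
  `ℤ`-module of rank `n` (isomorphic to the ideal `B` by multiplication by `c`; or use
  `Ideal.selfBasis`/`Submodule.basisOfPid`), with basis `β`; a basis `b` of `O` is `P β` with `P`
  integral, `|det P| = [jinv A : O]` (`AddSubgroup.index_eq_natAbs_det`,
  `AddSubgroup.relIndex_eq_natAbs_det`), and `ord_det`. -/

namespace Vale.Agent.P007

open NumberField Module

variable {K : Type} [Field K] {O : Subring K}

/-- the inverse `(O : A)` of an ideal of `O` -/
def jinv (A : Ideal O) : Set K := {b | ∀ a ∈ A, b * (a : K) ∈ O}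

theorem one_mem_jinv (A : Ideal O) : (1 : K) ∈ jinv A := fun a _ => by simp

theorem jinv_add {A : Ideal O} {b b' : K} (h : b ∈ jinv A) (h' : b' ∈ jinv A) :
    b + b' ∈ jinv A := fun a ha => by
  rw [add_mul]
  exact add_mem (h a ha) (h' a ha)

theorem jinv_mul {A : Ideal O} {b : K} (h : b ∈ jinv A) (r : O) : (r : K) * b ∈ jinv A :=
  fun a ha => by
    rw [mul_assoc]
    exact mul_mem r.2 (h a ha)

theorem jinv_coe (A : Ideal O) (r : O) : (r : K) ∈ jinv A := fun a _ => mul_mem r.2 a.2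

/-- `jinv A` as an `O`-module -/
def jsub (A : Ideal O) : Submodule O K where
  carrier := jinv A
  add_mem' := jinv_add
  zero_mem' := jinv_coe A 0
  smul_mem' r _ h := jinv_mul h r

theorem jinv_char {A B : Ideal O} {c : O} (hc : c ≠ 0) (h : A * B = Ideal.span {c}) (b : K) :
    b ∈ jinv A ↔ ∃ b' ∈ B, (b' : K) = c * b := by
  have hc' : (c : K) ≠ 0 := fun e => hc (Subtype.ext e)
  constructor
  · intro hb
    have key : ∀ t ∈ A * B, ∃ b' ∈ B, (b' : K) = t * b := by
      intro t ht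
      refine Submodule.mul_induction_on ht ?_ ?_
      · intro x hx y hy
        refine ⟨⟨b * x, hb x hx⟩ * y, B.mul_mem_left _ hy, ?_⟩
        simp only [Subring.coe_mul]
        ring
      · rintro x y ⟨s, hs, hx⟩ ⟨t, ht, hy⟩
        exact ⟨s + t, add_mem hs ht, by rw [Subring.coe_add, hx, hy, Subring.coe_add, add_mul]⟩
    exact key c (h ▸ Ideal.mem_span_singleton_self c)
  · rintro ⟨b', hb', e⟩ a ha
    have h1 : a * b' ∈ Ideal.span {c} := h ▸ Ideal.mul_mem_mul ha hb'
    obtain ⟨r, hr⟩ := Ideal.mem_span_singleton'.1 h1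
    have h2 : (r : K) * c = a * b' := by rw [← Subring.coe_mul, hr, Subring.coe_mul]
    have h3 : b * a = r := by
      apply mul_left_cancel₀ hc'
      rw [e] at h2
      linear_combination -h2
    rw [h3]
    exact r.2

/-- `1` is a sum of products `a b`, `a ∈ A`, `b ∈ jinv A` -/
theorem jinv_one {A : Ideal O} (hA : Inv A) (H : AddSubmonoid K) (x : K)
    (h : ∀ a ∈ A, ∀ b ∈ jinv A, x * ((a : K) * b) ∈ H) : x ∈ H := by
  obtain ⟨B, c, hc, hAB⟩ := hA
  have hc' : (c : K) ≠ 0 := fun e => hc (Subtype.ext e)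
  have key : ∀ t ∈ A * B, x * ((t : K) * (c : K)⁻¹) ∈ H := by
    intro t ht
    refine Submodule.mul_induction_on ht ?_ ?_
    · intro a ha y hy
      have h1 : (y : K) * (c : K)⁻¹ ∈ jinv A :=
        (jinv_char hc hAB _).2 ⟨y, hy, by field_simp⟩
      rw [Subring.coe_mul, mul_assoc]
      exact h a ha _ h1
    · intro s t hs ht
      rw [Subring.coe_add, add_mul, mul_add]
      exact add_mem hs ht
  have h1 := key c (hAB ▸ Ideal.mem_span_singleton_self c)
  rwa [mul_inv_cancel₀ hc', mul_one] at h1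

theorem jinv_le {A A' : Ideal O} (hA' : Inv A') (h : jinv A' ⊆ jinv A) : A ≤ A' := by
  intro a ha
  have h1 := jinv_one hA' (A'.toAddSubmonoid.map O.subtype.toAddMonoidHom) (a : K) (by
    intro a' ha' b hb
    refine ⟨⟨b * a, h hb a ha⟩ * a', A'.mul_mem_left _ ha', ?_⟩
    change b * (a : K) * (a' : K) = _
    ring)
  obtain ⟨a', ha', e⟩ := h1
  have e' : a' = a := Subtype.ext e
  exact e' ▸ ha'

theorem jinv_inj {A A' : Ideal O} (hA : Inv A) (hA' : Inv A') (h : jinv A = jinv A') :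
    A = A' :=
  le_antisymm (jinv_le hA' h.ge) (jinv_le hA h.le)

theorem jinv_frac {A : Ideal O} (hA : Inv A) :
    ∃ I : FractionalIdeal (nonZeroDivisors O) K, (∀ b, b ∈ I ↔ b ∈ jinv A) ∧
      {a : K | ∀ b ∈ I, a * b ∈ I} = (O : Set K) ∧ ∃ J, I * J = 1 := by
  have hfr : IsFractional (nonZeroDivisors O) (jsub A) := by
    obtain ⟨B, c, hc, hAB⟩ := hA
    refine ⟨c, mem_nonZeroDivisors_of_ne_zero hc, fun b hb => ?_⟩
    obtain ⟨b', -, e⟩ := (jinv_char hc hAB b).1 hb
    exact ⟨b', e⟩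
  let I : FractionalIdeal (nonZeroDivisors O) K := ⟨jsub A, hfr⟩
  have hI : ∀ b, b ∈ I ↔ b ∈ jinv A := fun _ => Iff.rfl
  refine ⟨I, hI, ?_, (A : FractionalIdeal (nonZeroDivisors O) K), ?_⟩
  · ext a
    constructor
    · intro ha
      refine jinv_one hA O.toAddSubmonoid a fun a' ha' b hb => ?_
      have h1 : a * b * (a' : K) ∈ O := ha b hb a' ha'
      rw [mul_comm (a' : K) b, ← mul_assoc]
      exact h1
    · intro ha b hb
      exact jinv_mul hb ⟨a, ha⟩
  · apply le_antisymm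
    · rw [FractionalIdeal.mul_le]
      intro i hi j hj
      obtain ⟨a, ha, rfl⟩ := (FractionalIdeal.mem_coeIdeal _).1 hj
      exact (FractionalIdeal.mem_one_iff _).2 ⟨⟨i * a, hi a ha⟩, rfl⟩
    · rw [FractionalIdeal.one_le]
      refine jinv_one hA ((I * (A : FractionalIdeal (nonZeroDivisors O) K) :
        FractionalIdeal (nonZeroDivisors O) K) : Submodule O K).toAddSubmonoid 1 ?_
      intro a ha b hb
      rw [one_mul, mul_comm (a : K) b]
      exact FractionalIdeal.mul_mem_mul ((hI b).2 hb)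
        ((FractionalIdeal.mem_coeIdeal _).2 ⟨a, ha, rfl⟩)

theorem frac_jinv (I J : FractionalIdeal (nonZeroDivisors O) K) (h : I * J = 1) {b₀ : K}
    (hb : b₀ ∈ I) (h0 : b₀ ≠ 0) : ∃ A : Ideal O, Inv A ∧ ∀ b, b ∈ jinv A ↔ b₀ * b ∈ I := by
  obtain ⟨e, he, hI⟩ := I.isFractional
  have he0 : (e : K) ≠ 0 := fun h => nonZeroDivisors.ne_zero he (Subtype.ext h)
  have hI' : ∀ b ∈ I, ∃ r : O, (r : K) = e * b := fun b hb => hI b hb
  have hIJ : ∀ i ∈ I, ∀ j ∈ J, ∃ r : O, (r : K) = i * j := fun i hi j hj =>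
    (FractionalIdeal.mem_one_iff _).1 (h ▸ FractionalIdeal.mul_mem_mul hi hj)
  let A : Ideal O := (J : Submodule O K).comap (LinearMap.toSpanSingleton O K b₀⁻¹)
  let B : Ideal O := (I : Submodule O K).comap (LinearMap.toSpanSingleton O K (e : K)⁻¹)
  have hA : ∀ a : O, a ∈ A ↔ (a : K) * b₀⁻¹ ∈ J := fun _ => Iff.rfl
  have hB : ∀ a : O, a ∈ B ↔ (a : K) * (e : K)⁻¹ ∈ I := fun _ => Iff.rfl
  obtain ⟨c, hc⟩ := hI' b₀ hb
  have hc0 : c ≠ 0 := by
    rintro rfl
    exact mul_ne_zero he0 h0 hc.symm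
  have hAB : A * B = Ideal.span {c} := by
    apply le_antisymm
    · rw [Ideal.mul_le]
      intro a ha b hb
      obtain ⟨r, hr⟩ := hIJ _ ((hB b).1 hb) _ ((hA a).1 ha)
      refine Ideal.mem_span_singleton'.2 ⟨r, Subtype.ext ?_⟩
      rw [Subring.coe_mul, Subring.coe_mul, hr, hc]
      field_simp
    · rw [Ideal.span_singleton_le_iff_mem]
      have key : ∀ t ∈ I * J, ∃ s ∈ A * B, (s : K) = c * t := by
        intro t ht
        refine FractionalIdeal.mul_induction_on ht ?_ ?_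
        · intro i hi j hj
          obtain ⟨a, ha⟩ := hIJ b₀ hb j hj
          obtain ⟨b, hb⟩ := hI' i hi
          refine ⟨a * b, Ideal.mul_mem_mul ((hA a).2 ?_) ((hB b).2 ?_), ?_⟩
          · rwa [ha, mul_comm b₀ j, mul_inv_cancel_right₀ h0]
          · rwa [hb, mul_comm (e : K) i, mul_inv_cancel_right₀ he0]
          · rw [Subring.coe_mul, ha, hb, hc]
            ring
        · rintro x y ⟨s, hs, hx⟩ ⟨t, ht, hy⟩
          exact ⟨s + t, add_mem hs ht, by rw [Subring.coe_add, hx, hy, mul_add]⟩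
      obtain ⟨s, hs, e1⟩ := key 1 (h ▸ FractionalIdeal.one_mem_one _)
      rw [mul_one] at e1
      exact (Subtype.ext e1 : s = c) ▸ hs
  refine ⟨A, ⟨B, c, hc0, hAB⟩, fun b => ?_⟩
  rw [jinv_char hc0 hAB]
  have e2 : (c : K) * b * (e : K)⁻¹ = b₀ * b := by
    rw [hc]
    field_simp
  constructor
  · rintro ⟨b', hb', e1⟩
    have h1 := (hB b').1 hb'
    rwa [e1, e2] at h1
  · intro h1
    obtain ⟨r, hr⟩ := hI' _ h1
    have e1 : (r : K) = c * b := by rw [hr, hc, mul_assoc]
    exact ⟨r, (hB r).2 (by rwa [e1, e2]), e1⟩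

/-- multiplication by an element of `A` maps `jinv A` to `O` -/
def jmul (A : Ideal O) (x : O) (hx : x ∈ A) : (jsub A).toAddSubgroup →+ O where
  toFun b := ⟨b.1 * x, b.2 x hx⟩
  map_zero' := Subtype.ext (zero_mul _)
  map_add' _ _ := Subtype.ext (add_mul _ _ _)

/-- the inclusion of `O` in `jinv A` -/
def jinc (A : Ideal O) : O →+ (jsub A).toAddSubgroup where
  toFun r := ⟨r, jinv_coe A r⟩
  map_zero' := rfl
  map_add' _ _ := rfl

theorem jinc_injective (A : Ideal O) : Function.Injective (jinc A) := fun _ _ h =>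
  Subtype.ext (congrArg (fun t : (jsub A).toAddSubgroup => (t : K)) h)

theorem jinv_index [Module.Free ℤ O] [Module.Finite ℤ O] {A : Ideal O} (hA : Inv A)
    (hN : idx A ≠ 0) : (jinc A).range.index = idx A := by
  obtain ⟨x, hx, hgen⟩ := exists_gen hA (idx A) hN
  have hNA := natCast_idx_mem A
  set N : O := (idx A : O) with hNdef
  let H : AddSubmonoid K :=
    { carrier := {t | ∃ b ∈ jinv A, ∃ r : O, t = b * x + N * r}
      add_mem' := by
        rintro _ _ ⟨b, hb, r, rfl⟩ ⟨b', hb', r', rfl⟩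
        refine ⟨b + b', jinv_add hb hb', r + r', ?_⟩
        rw [Subring.coe_add]
        ring
      zero_mem' := ⟨0, jinv_coe A 0, 0, by simp⟩ }
  have h1 : (1 : K) ∈ H := jinv_one hA H 1 (by
    intro a ha b hb
    rw [hgen] at ha
    obtain ⟨y, hy, z, hz, rfl⟩ := Submodule.mem_sup.1 ha
    obtain ⟨s, rfl⟩ := Ideal.mem_span_singleton'.1 hy
    obtain ⟨a', ha', rfl⟩ := Ideal.mem_span_singleton_mul.1 hz
    refine ⟨s * b, jinv_mul hb s, ⟨b * a', hb a' ha'⟩, ?_⟩
    simp only [Subring.coe_add, Subring.coe_mul]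
    ring)
  obtain ⟨b₁, hb₁, r, e1⟩ := h1
  let φ : (jsub A).toAddSubgroup →+ O ⧸ A :=
    (Ideal.Quotient.mk A).toAddMonoidHom.comp (jmul A x hx)
  have hφ : ∀ b, φ b = Ideal.Quotient.mk A (jmul A x hx b) := fun _ => rfl
  have hsurj : Function.Surjective φ := by
    intro y
    obtain ⟨y, rfl⟩ := Ideal.Quotient.mk_surjective y
    refine ⟨⟨y * b₁, jinv_mul hb₁ y⟩, ?_⟩
    rw [hφ, Ideal.Quotient.eq]
    have e2 : jmul A x hx ⟨y * b₁, jinv_mul hb₁ y⟩ - y = -(y * r) * N := by
      apply Subtype.ext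
      change (y : K) * b₁ * x - y = -((y : K) * r) * N
      linear_combination (-(y : K)) * e1
    rw [e2]
    exact A.mul_mem_left _ hNA
  have hker : (jinc A).range = φ.ker := by
    ext b
    rw [AddMonoidHom.mem_ker, hφ, Ideal.Quotient.eq_zero_iff_mem, AddMonoidHom.mem_range]
    constructor
    · rintro ⟨s, rfl⟩
      exact A.mul_mem_left s hx
    · intro hb
      have h2 : b₁ * (b.1 * x) ∈ O := hb₁ _ hb
      have h3 : b.1 * N ∈ O := b.2 N hNA
      have h4 : b.1 = b₁ * (b.1 * x) + b.1 * N * r := by linear_combination b.1 * e1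
      exact ⟨⟨b.1, h4 ▸ add_mem h2 (mul_mem h3 r.2)⟩, rfl⟩
  rw [hker, AddSubgroup.index_ker, AddMonoidHom.range_eq_top.2 hsurj, AddSubgroup.card_top,
    ord_idx_eq_card]

theorem jinv_basis [NumberField K] (hO : IsOrder O) {n : ℕ} (σ : Fin n ≃ (K →+* ℝ))
    (hn : finrank ℚ K = n) {A : Ideal O} (hA : Inv A) :
    ∃ β : Fin n → K, (∀ b, b ∈ jinv A ↔ ∃ v : Fin n → ℤ, b = ∑ i, (v i : K) * β i) ∧
      |(Matrix.of fun i j => σ j (β i)).det| * idx A = √(orderDisc O : ℝ) := by
  have := ord_finite hO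
  have := ord_free hO
  have hN : idx A ≠ 0 := by
    have := Ideal.finiteQuotientOfFreeOfNeBot A hA.ne_bot
    rw [ord_idx_eq_card]
    exact Nat.card_pos.ne'
  have hNA := natCast_idx_mem A
  have hinj : Function.Injective (jmul A _ hNA) := by
    intro b b' h
    have h1 : b.1 * ((idx A : O) : K) = b'.1 * ((idx A : O) : K) := congrArg Subtype.val h
    have h2 : ((idx A : O) : K) ≠ 0 := by exact_mod_cast hN
    exact Subtype.ext (mul_right_cancel₀ h2 h1)
  have hfin : Module.Finite ℤ (jsub A).toAddSubgroup :=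
    Module.Finite.of_injective (jmul A _ hNA).toIntLinearMap hinj
  have hfree : Module.Free ℤ (jsub A).toAddSubgroup := Module.free_of_finite_type_torsion_free'
  have hrO : finrank ℤ O = n := (ord_finrank hO).trans hn
  have hrM : finrank ℤ (jsub A).toAddSubgroup = n := by
    rw [← hrO]
    exact le_antisymm
      (LinearMap.finrank_le_finrank_of_injective (f := (jmul A _ hNA).toIntLinearMap) hinj)
      (LinearMap.finrank_le_finrank_of_injective (f := (jinc A).toIntLinearMap)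
        (jinc_injective A))
  let β : Basis (Fin n) ℤ (jsub A).toAddSubgroup := Module.finBasisOfFinrankEq ℤ _ hrM
  let b : Basis (Fin n) ℤ O := Module.finBasisOfFinrankEq ℤ _ hrO
  let bH := b.map (AddMonoidHom.ofInjective (jinc_injective A)).toIntLinearEquiv
  have hidx := AddSubgroup.index_eq_natAbs_det β _ bH
  have hbH : (fun i => (bH i : (jsub A).toAddSubgroup)) = fun i => jinc A (b i) := rfl
  rw [hbH, Basis.det_apply, jinv_index hA hN] at hidx
  set P := β.toMatrix fun i => jinc A (b i) with hP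
  have hsum : ∀ v : Fin n → ℤ, ((∑ k, v k • β k : (jsub A).toAddSubgroup) : K) =
      ∑ k, (v k : K) * (β k : K) := by
    intro v
    rw [AddSubmonoidClass.coe_finsetSum]
    refine Finset.sum_congr rfl fun k _ => ?_
    rw [AddSubgroupClass.coe_zsmul, zsmul_eq_mul]
  refine ⟨fun i => (β i : K), fun y => ⟨fun hy => ?_, ?_⟩, ?_⟩
  · refine ⟨β.repr ⟨y, hy⟩, ?_⟩
    rw [← hsum, β.sum_repr]
  · rintro ⟨v, rfl⟩
    rw [← hsum]
    exact (∑ k, v k • β k : (jsub A).toAddSubgroup).2
  · let M : Matrix (Fin n) (Fin n) ℝ := Matrix.of fun i j => σ j (β i : K)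
    have hAP : (Matrix.of fun i j => σ j (b i : K)) =
        (P.map (Int.castRingHom ℝ)).transpose * M := by
      ext i j
      have h1 : ∑ k, P k i • β k = jinc A (b i) :=
        β.sum_toMatrix_smul_self (fun i => jinc A (b i)) i
      have h2 : (b i : K) = ∑ k, (P k i : K) * (β k : K) := by
        rw [← hsum, h1]
        rfl
      rw [Matrix.of_apply, h2, Matrix.mul_apply]
      simp [M]
    have hPd : (P.map (Int.castRingHom ℝ)).det = (P.det : ℝ) := by
      rw [← RingHom.mapMatrix_apply, ← RingHom.map_det]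
      rfl
    rw [← ord_det hO σ hn b, hAP, Matrix.det_mul, Matrix.det_transpose, hPd, abs_mul, hidx,
      Nat.cast_natAbs, Int.cast_abs, mul_comm]

end Vale.Agent.P007
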