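import Vale.Agent.P007.N.Geo0

/-! # P007 N: unimodular lattices: Minkowski, covering radius, counting

Plan.  For `x = coset g`, `lat x = rowLattice g` is `span ℤ (range b)` for the `ℝ`-basis `b` of rows
of `mat g` (`Matrix.toLin`/`Basis.map` of `Pi.basisFun` by the linear equivalence `v ↦ v ᵥ* g`),
and `ZSpan.fundamentalDomain b` has volume `|det g| = 1` (`ZSpan.volume_fundamentalDomain`,
`ZSpan.isAddFundamentalDomain`).
* `lat_injective`: both `g g'⁻¹` and its inverse are integer matrices (rows: `row_mem_rowLattice`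
  in `Avoid.lean` is the pattern), so `g g'⁻¹ ∈ Gam n`; `mk_eq_iff`.
* `exists_lat`: if `det M = -1` change the sign of row `0`.
* `abs_det_of_lat`: `M = P g`, `g = Q M` with integer `P`, `Q`, so `det P * det Q = 1`.
* `lat_box`: `MeasureTheory.exists_ne_zero_mem_lattice_of_measure_mul_two_pow_lt_measure`.
* `lat_cover`: put `B = 2 (n/s)^(n-1)`.  The lattice vectors of sup norm `< B` span `ℝ^n`:
  otherwise they are killed by a functional `φ(y) = ∑ c_j y_j ≠ 0`
  (`Submodule.exists_le_ker_of_lt_top`), normalised so that `c_{i₀} = 1`, `|c_j| ≤ 1`; `lat_box`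
  with `r_{i₀} = B`, `r_j = s/n` gives `w ≠ 0` with `φ w = 0`, so `|w_{i₀}| ≤ ∑_{j ≠ i₀} |w_j| < s`
  and `‖w‖ < s`, a contradiction.  Extract a basis (`exists_linearIndependent`, or
  `Submodule.mem_span_iff_exists_finset_subset`/`Basis.ofSpan`), write `y = ∑ t_i w_i`, and
  subtract `∑ ⌊t_i⌋ w_i`.
* `lat_count`: with `B'` the covering radius, for every `y` pick `w₀` with `‖y - w₀‖ ≤ B'`; then
  `#{w | ‖w‖ ≤ T} ≤ #{w | ‖w + y‖ ≤ T + B'}` (`w ↦ w - w₀`).  Integrate over the fundamental domain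
  (`IsAddFundamentalDomain.lintegral_eq_tsum`): the right side integrates to the volume
  `(2 (T + B'))^n` of the closed ball (`Real.volume_pi_closedBall`). -/

open Matrix MeasureTheory

namespace Vale.Agent.P007

variable {n : ℕ}

theorem lat_int_of_sub {M N : Matrix (Fin n) (Fin n) ℝ}
    (h : {y | ∃ v : Fin n → ℤ, y = (fun i => (v i : ℝ)) ᵥ* M} ⊆
      {y | ∃ v : Fin n → ℤ, y = (fun i => (v i : ℝ)) ᵥ* N}) :
    ∃ P : Matrix (Fin n) (Fin n) ℤ, M = P.map (fun z : ℤ => (z : ℝ)) * N := by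
  have hr : ∀ i, M i ∈ {y | ∃ v : Fin n → ℤ, y = (fun i => (v i : ℝ)) ᵥ* M} := by
    intro i
    refine ⟨Pi.single i 1, ?_⟩
    have : (fun k => ((Pi.single i (1 : ℤ) : Fin n → ℤ) k : ℝ)) = Pi.single i (1 : ℝ) := by
      ext k
      by_cases h : k = i
      · subst h; simp
      · simp [Pi.single_eq_of_ne h]
    rw [this, Matrix.single_one_vecMul]
    rfl
  choose v hv using fun i => h (hr i)
  refine ⟨Matrix.of v, ?_⟩
  ext i j
  exact congrFun (hv i) j

theorem lat_det_map (P : Matrix (Fin n) (Fin n) ℤ) :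
    (P.map (fun z : ℤ => (z : ℝ))).det = (P.det : ℝ) := (Int.cast_det P).symm

theorem lat_det_mat (g : SL n) : (mat g).det = 1 := g.2

theorem lat_basis (x : X n) : ∃ b : Module.Basis (Fin n) ℝ (Fin n → ℝ),
    (Submodule.span ℤ (Set.range b) : Set (Fin n → ℝ)) = lat x ∧
      volume (ZSpan.fundamentalDomain b) = 1 := by
  classical
  obtain ⟨g, rfl⟩ := g_exists_coset x
  have hli : LinearIndependent ℝ (mat g).row := Matrix.linearIndependent_rows_iff_isUnit.2
    ((Matrix.isUnit_iff_isUnit_det _).2 (by rw [lat_det_mat]; exact isUnit_one))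
  have hb := coe_basisOfPiSpaceOfLinearIndependent hli
  refine ⟨basisOfPiSpaceOfLinearIndependent hli, ?_, ?_⟩
  · rw [g_lat_coset, hb]
    ext y
    rw [SetLike.mem_coe, Submodule.mem_span_range_iff_exists_fun]
    refine exists_congr fun v => ?_
    rw [Matrix.vecMul_eq_sum, eq_comm]
    simp only [Int.cast_smul_eq_zsmul]
    rfl
  · rw [ZSpan.volume_fundamentalDomain, hb]
    have : (Matrix.of (mat g).row).det = 1 := lat_det_mat g
    rw [this]
    simp

theorem lat_injective : Function.Injective (lat : X n → Set (Fin n → ℝ)) := by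
  intro x x' h
  obtain ⟨g, rfl⟩ := g_exists_coset x
  obtain ⟨g', rfl⟩ := g_exists_coset x'
  rw [g_lat_coset, g_lat_coset] at h
  obtain ⟨P, hP⟩ := lat_int_of_sub (M := mat g) (N := mat g') h.le
  have hd := congrArg Matrix.det hP
  rw [det_mul, lat_det_map, lat_det_mat, lat_det_mat, mul_one] at hd
  have hd' : P.det = 1 := by exact_mod_cast hd.symm
  exact mk_eq_iff.2 ⟨_, ⟨⟨P, hd'⟩, rfl⟩, mat_inj hP.symm⟩

theorem exists_lat (hn : 1 ≤ n) (M : Matrix (Fin n) (Fin n) ℝ) (hM : |M.det| = 1) :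
    ∃ x : X n, lat x = {y | ∃ v : Fin n → ℤ, y = (fun i => (v i : ℝ)) ᵥ* M} := by
  have key : ∀ d : Fin n → ℤ, (∀ i, d i * d i = 1) → (∏ i, (d i : ℝ)) * M.det = 1 →
      ∃ x : X n, lat x = {y | ∃ v : Fin n → ℤ, y = (fun i => (v i : ℝ)) ᵥ* M} := by
    intro d h1 h2
    refine ⟨coset ⟨diagonal (fun i => (d i : ℝ)) * M, by rw [det_mul, det_diagonal, h2]⟩,
      (g_lat_coset _).trans ?_⟩
    have e : ∀ v : Fin n → ℤ, (fun i => (v i : ℝ)) ᵥ* (diagonal (fun i => (d i : ℝ)) * M) =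
        (fun i => ((v i * d i : ℤ) : ℝ)) ᵥ* M := by
      intro v
      rw [← vecMul_vecMul]
      congr 1
      funext i
      rw [vecMul_diagonal, Int.cast_mul]
    ext y
    constructor
    · rintro ⟨v, rfl⟩
      exact ⟨fun i => v i * d i, e v⟩
    · rintro ⟨v, rfl⟩
      refine ⟨fun i => v i * d i, ((e _).trans ?_).symm⟩
      simp only [mul_assoc, h1, mul_one]
  rcases (abs_eq zero_le_one).1 hM with h | h
  · exact key (fun _ => 1) (fun _ => rfl) (by simp [h])
  · refine key (fun i => if i = ⟨0, hn⟩ then -1 else 1) (fun i => ?_) ?_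
    · split_ifs <;> rfl
    · simp [h, apply_ite (fun z : ℤ => (z : ℝ)), Finset.prod_ite_eq']

theorem abs_det_of_lat (x : X n) (M : Matrix (Fin n) (Fin n) ℝ)
    (h : lat x = {y | ∃ v : Fin n → ℤ, y = (fun i => (v i : ℝ)) ᵥ* M}) : |M.det| = 1 := by
  obtain ⟨g, rfl⟩ := g_exists_coset x
  rw [g_lat_coset] at h
  obtain ⟨P, hP⟩ := lat_int_of_sub (M := M) (N := mat g) h.ge
  obtain ⟨Q, hQ⟩ := lat_int_of_sub (M := mat g) (N := M) h.le
  have h1 := congrArg Matrix.det hP
  have h2 := congrArg Matrix.det hQ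
  rw [det_mul, lat_det_map, lat_det_mat] at h1 h2
  rw [mul_one] at h1
  rw [h1] at h2 ⊢
  have h3 : P.det * Q.det = 1 := by
    rw [mul_comm]
    exact_mod_cast h2.symm
  rcases Int.eq_one_or_neg_one_of_mul_eq_one h3 with h4 | h4 <;> simp [h4]

theorem lat_box (hn : 1 ≤ n) (x : X n) (r : Fin n → ℝ) (hr : ∀ j, 0 < r j) (h : 1 < ∏ j, r j) :
    ∃ w ∈ lat x, w ≠ 0 ∧ ∀ j, |w j| < r j := by
  obtain ⟨b, hb, hv⟩ := lat_basis x
  have hc : Countable (Submodule.span ℤ (Set.range b)).toAddSubgroup :=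
    (inferInstance : Countable (Submodule.span ℤ (Set.range b)))
  obtain ⟨w, h1, h2⟩ := exists_ne_zero_mem_lattice_of_measure_mul_two_pow_lt_measure
    (ZSpan.isAddFundamentalDomain' b volume) (s := Set.pi Set.univ fun j => Set.Ioo (-r j) (r j))
    (fun y hy j hj => ⟨neg_lt_neg (hy j hj).2, neg_lt.1 (hy j hj).1⟩)
    (convex_pi fun j _ => convex_Ioo _ _) (by
      rw [hv, one_mul, Real.volume_pi_Ioo, Module.finrank_fin_fun,
        ← ENNReal.ofReal_prod_of_nonneg fun j _ => by linarith [hr j]]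
      have e : ∏ j, (r j - -r j) = 2 ^ n * ∏ j, r j := by
        simp only [sub_neg_eq_add, ← two_mul, Finset.prod_mul_distrib, Finset.prod_const,
          Finset.card_univ, Fintype.card_fin]
      rw [e, ← ENNReal.ofReal_ofNat, ← ENNReal.ofReal_pow (by norm_num),
        ENNReal.ofReal_lt_ofReal_iff (by positivity)]
      exact lt_mul_of_one_lt_right (by positivity) h)
  exact ⟨w, hb ▸ w.2, fun e => h1 (Subtype.ext e), fun j => abs_lt.2 (h2 j trivial)⟩

theorem lat_finite (x : X n) (T : ℝ) : {w ∈ lat x | ‖w‖ ≤ T}.Finite := by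
  obtain ⟨b, hb, -⟩ := lat_basis x
  refine (ZSpan.setFinite_inter b (Metric.isBounded_closedBall (x := 0) (r := T))).subset ?_
  rintro w ⟨h1, h2⟩
  exact ⟨mem_closedBall_zero_iff.2 h2, hb ▸ h1⟩

theorem lat_cover (hn : 1 ≤ n) (x : X n) (s : ℝ) (hs : 0 < s) (hs1 : s ≤ 1)
    (h : ∀ w ∈ lat x, w ≠ 0 → s ≤ ‖w‖) (y : Fin n → ℝ) :
    ∃ w ∈ lat x, ‖y - w‖ ≤ 2 * n * (n / s) ^ n := by
  classical
  have hn' : (1 : ℝ) ≤ n := by exact_mod_cast hn
  have hq : 1 ≤ (n : ℝ) / s := by rw [le_div_iff₀ hs]; linarith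
  have hq' : s / n ≤ 1 := by rw [div_le_iff₀ (by linarith)]; linarith
  have hB : 1 ≤ 2 * ((n : ℝ) / s) ^ n := by linarith [one_le_pow₀ (n := n) hq]
  have hsn : 0 < s / n := by positivity
  set B := 2 * ((n : ℝ) / s) ^ n with hBd
  have hV : Submodule.span ℝ {w ∈ lat x | ‖w‖ ≤ B} = ⊤ := by
    by_contra hne
    obtain ⟨f, hf, hle⟩ := Submodule.exists_le_ker_of_lt_top _ (lt_top_iff_ne_top.2 hne)
    set c : Fin n → ℝ := fun i => f fun j => if i = j then 1 else 0 with hc
    have hfc : ∀ w, f w = ∑ i, w i * c i := fun w => LinearMap.pi_apply_eq_sum_univ f w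
    obtain ⟨i0, -, hi0⟩ := Finset.exists_max_image Finset.univ (fun i => |c i|)
      ⟨⟨0, hn⟩, Finset.mem_univ _⟩
    have hc0 : 0 < |c i0| := by
      by_contra h0
      refine hf (LinearMap.ext fun w => ?_)
      rw [hfc]
      refine Finset.sum_eq_zero fun i _ => ?_
      rw [abs_nonpos_iff.1 ((hi0 i (Finset.mem_univ _)).trans (not_lt.1 h0)), mul_zero]
    obtain ⟨w, h1, h2, h3⟩ := lat_box hn x (fun j => s / n * if j = i0 then B else 1)
      (fun j => mul_pos hsn (by split_ifs <;> linarith)) (by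
        rw [Finset.prod_mul_distrib, Finset.prod_ite_eq', if_pos (Finset.mem_univ _),
          Finset.prod_const, Finset.card_univ, Fintype.card_fin, hBd, mul_left_comm, ← mul_pow,
          show s / n * (n / s) = 1 by field_simp, one_pow]
        norm_num)
    have h4 : ∀ j, j ≠ i0 → |w j| < s / n := fun j hj => by simpa [hj] using h3 j
    have h5 : ‖w‖ ≤ B := by
      refine (pi_norm_le_iff_of_nonneg (by linarith)).2 fun j => (h3 j).le.trans ?_
      split_ifs
      · exact mul_le_of_le_one_left (by linarith) hq'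
      · linarith
    have h6 : ∑ i, w i * c i = 0 := (hfc w).symm.trans (hle (Submodule.subset_span ⟨h1, h5⟩))
    rw [← Finset.add_sum_erase _ _ (Finset.mem_univ i0)] at h6
    have h7 : |w i0| * |c i0| ≤ (n - 1) * (s / n * |c i0|) := by
      rw [← abs_mul, eq_neg_of_add_eq_zero_left h6, abs_neg]
      refine (Finset.abs_sum_le_sum_abs _ _).trans ((Finset.sum_le_card_nsmul _ _
        (s / n * |c i0|) fun j hj => ?_).trans (le_of_eq ?_))
      · rw [abs_mul]
        exact mul_le_mul (h4 j (Finset.ne_of_mem_erase hj)).le (hi0 j (Finset.mem_univ _))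
          (abs_nonneg _) hsn.le
      · rw [Finset.card_erase_of_mem (Finset.mem_univ _), Finset.card_univ, Fintype.card_fin,
          nsmul_eq_mul, Nat.cast_sub hn, Nat.cast_one]
    have h8 : |w i0| < s := by
      rw [← mul_assoc] at h7
      refine (le_of_mul_le_mul_right h7 hc0).trans_lt ?_
      have : n * (s / n) = s := by field_simp
      linarith
    refine absurd (h w h1 h2) (not_le.2 ((pi_norm_lt_iff hs).2 fun j => ?_))
    by_cases hj : j = i0
    · rw [hj]; exact h8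
    · exact (h4 j hj).trans_le (div_le_self hs.le hn')
  obtain ⟨t, ht1, ht2, ht3⟩ := exists_linearIndependent ℝ {w ∈ lat x | ‖w‖ ≤ B}
  let b : Module.Basis t ℝ (Fin n → ℝ) :=
    Module.Basis.mk ht3 (by rw [Subtype.range_coe, ht2, hV])
  have hb : ∀ i, b i = i := fun i => Module.Basis.mk_apply _ _ i
  let _ : Fintype t := FiniteDimensional.fintypeBasisIndex b
  have hcard : Fintype.card t = n := by
    rw [← Module.finrank_eq_card_basis b, Module.finrank_fin_fun]
  obtain ⟨b0, hb0, -⟩ := lat_basis x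
  have hsub : Submodule.span ℤ (Set.range b) ≤ Submodule.span ℤ (Set.range b0) := by
    refine Submodule.span_le.2 ?_
    rintro _ ⟨i, rfl⟩
    rw [hb0, hb]
    exact (ht1 i.2).1
  refine ⟨ZSpan.floor b y, hb0 ▸ hsub (ZSpan.floor b y).2, ?_⟩
  refine (ZSpan.norm_fract_le b y).trans ((Finset.sum_le_card_nsmul _ _ B fun i _ => ?_).trans
    (le_of_eq ?_))
  · rw [hb]
    exact (ht1 i.2).2
  · rw [Finset.card_univ, hcard, nsmul_eq_mul, hBd]
    ring

theorem lat_count (hn : 1 ≤ n) : ∃ C : ℝ, 0 < C ∧ ∀ (x : X n) (s T : ℝ), 0 < s → s ≤ 1 →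
    (∀ w ∈ lat x, w ≠ 0 → s ≤ ‖w‖) → (1 / s) ^ n ≤ T →
    ({w ∈ lat x | ‖w‖ ≤ T}.ncard : ℝ) ≤ C * T ^ n := by
  classical
  refine ⟨(2 * (1 + 2 * n * n ^ n)) ^ n, by positivity, fun x s T hs hs1 h hT => ?_⟩
  have hT0 : 0 ≤ T := le_trans (by positivity) hT
  set R : ℝ := 2 * n * (n / s) ^ n with hR
  have hR0 : 0 ≤ R := by positivity
  have hRT : R ≤ 2 * n * n ^ n * T := by
    rw [hR, div_eq_mul_one_div, mul_pow, ← mul_assoc]
    exact mul_le_mul_of_nonneg_left hT (by positivity)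
  obtain ⟨b, hb, hv⟩ := lat_basis x
  have hc : Countable (Submodule.span ℤ (Set.range b)).toAddSubgroup :=
    (inferInstance : Countable (Submodule.span ℤ (Set.range b)))
  set L := (Submodule.span ℤ (Set.range b)).toAddSubgroup with hL
  have hmem : ∀ w, w ∈ L ↔ w ∈ lat x := fun w => by rw [← hb]; rfl
  have hfin : {w : L | ‖(w : Fin n → ℝ)‖ ≤ T}.Finite :=
    ((lat_finite x T).preimage Subtype.val_injective.injOn).subset fun w hw =>
      ⟨(hmem _).1 w.2, hw⟩
  have hcard : {w ∈ lat x | ‖w‖ ≤ T}.ncard = hfin.toFinset.card := by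
    rw [← Set.ncard_eq_toFinset_card _ hfin, ← Set.ncard_image_of_injective _
      Subtype.val_injective]
    congr 1
    ext w
    exact ⟨fun hw => ⟨⟨w, (hmem _).2 hw.1⟩, hw.2, rfl⟩,
      fun ⟨v, h1, h2⟩ => h2 ▸ ⟨(hmem _).1 v.2, h1⟩⟩
  let f : (Fin n → ℝ) → ENNReal := (Metric.closedBall (0 : Fin n → ℝ) (T + R)).indicator 1
  have hf : Measurable f := measurable_one.indicator measurableSet_closedBall
  have h1 : ∀ y, (hfin.toFinset.card : ENNReal) ≤ ∑' g : L, f (g +ᵥ y) := by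
    intro y
    obtain ⟨w0, hw0, hy⟩ := lat_cover hn x s hs hs1 h y
    rw [← (Equiv.subRight (⟨w0, (hmem _).2 hw0⟩ : L)).tsum_eq]
    refine le_trans (le_of_eq ?_) (ENNReal.sum_le_tsum hfin.toFinset)
    rw [Finset.card_eq_sum_ones, Nat.cast_sum]
    refine Finset.sum_congr rfl fun w hw => ?_
    have hw' : ‖(w : Fin n → ℝ)‖ ≤ T := hfin.mem_toFinset.1 hw
    have : ((w : Fin n → ℝ) - w0) + y ∈ Metric.closedBall (0 : Fin n → ℝ) (T + R) := by
      rw [mem_closedBall_zero_iff, show (w : Fin n → ℝ) - w0 + y = w + (y - w0) by abel]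
      exact (norm_add_le _ _).trans (add_le_add hw' hy)
    rw [Nat.cast_one]
    exact (Set.indicator_of_mem this 1).symm
  have h2 := (ZSpan.isAddFundamentalDomain' b volume).lintegral_eq_tsum'' f
  rw [← lintegral_tsum (f := fun (g : L) y => f (g +ᵥ y))
    fun g => (hf.comp (measurable_const_vadd g)).aemeasurable, lintegral_indicator_one measurableSet_closedBall,
    Real.volume_pi_closedBall _ (by positivity), Fintype.card_fin] at h2
  have h3 : (hfin.toFinset.card : ENNReal) ≤ ENNReal.ofReal ((2 * (T + R)) ^ n) := by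
    rw [h2]
    refine le_trans (le_of_eq ?_) (lintegral_mono h1)
    rw [setLIntegral_const, hv, mul_one]
  rw [← ENNReal.ofReal_natCast, ENNReal.ofReal_le_ofReal_iff (by positivity)] at h3
  rw [hcard, ← mul_pow]
  exact h3.trans (pow_le_pow_left₀ (by positivity) (by linarith) n)

end Vale.Agent.P007
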