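import Vale.Agent.P007.N.GeoA
import Vale.Agent.P007.N.Lat

/-! # P007 N: parametrisation of the pairs (lattice of the packet, vector)

Plan.  `n = d + 1`, `Δ = √(orderDisc O)`, `T = {A : Ideal O // Inv A} × (Fin n → ℤˣ)`,
`nrm (A, s) = idx A`, `vec (A, s) j = (idx A / Δ)^(1/n) * s j`, and `pt t` is the point with
`lat (pt t) = {y | ∃ b ∈ jinv A, y = fun j => vec t j * σ j b}` (`exists_lat` for the matrix
`vec t j * σ j (β i)` of `jinv_basis`; its determinant has absolute value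
`(idx A / Δ) * (Δ / idx A) = 1`, `Matrix.det_mul_row`/`det_mul_column`).  It lies in the packet by
`jinv_frac` (`u = 0`).
* `surj`: `lat x = {c σ(b) w e^u | b ∈ I}`, and the given vector is `v = c σ(b₀) w e^u`, all of
  whose coordinates are non-zero.  `frac_jinv` gives `A` with
  `lat x = {v σ(b) | b ∈ jinv A}`; `abs_det_of_lat` and `jinv_basis` give `|∏ v_j| = idx A / Δ`.
  Put `s j = sign (v j)`, `u' j = log (|v j| / (idx A / Δ)^(1/n))`, `∑ u' = 0`, `ex_init`; then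
  `v = scal (init u') (vec t)` and `lat x = lat (fl (pt t) (init u'))` (`lat_fl`), and
  `lat_injective`.
* `inj`: the two lattices are `{v σ(b) | b ∈ jinv A}` and `{v σ(b) | b ∈ jinv A'}` with the same
  `v`, so `jinv A = jinv A'` (`σ 0` is injective), `jinv_inj`; signs agree as `exp > 0`.
* `inv`: replace `u` by `u + ex u'` (`lat_fl`, `g_lat_coset`).
* the count: `{t | nrm t = m}` is in bijection with `{A | Inv A ∧ idx A = m} × (Fin n → ℤˣ)`. -/

namespace Vale.Agent.P007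

open NumberField Module

section

variable {d : ℕ} {K : Type} [Field K] {O : Subring K} (σ : Fin (d + 1) ≃ (K →+* ℝ))

/-- the lattice `v σ(A⁻¹)` -/
def gbLat (A : Ideal O) (v : Fin (d + 1) → ℝ) : Set (Fin (d + 1) → ℝ) :=
  {y | ∃ b ∈ jinv A, y = fun j => v j * σ j b}

theorem gb_scal (A : Ideal O) (v : Fin (d + 1) → ℝ) (u : Fin d → ℝ) :
    scal u '' gbLat σ A v = gbLat σ A (scal u v) := by
  ext y
  constructor
  · rintro ⟨_, ⟨b, hb, rfl⟩, rfl⟩
    exact ⟨b, hb, funext fun j => mul_right_comm _ _ _⟩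
  · rintro ⟨b, hb, rfl⟩
    exact ⟨_, ⟨b, hb, rfl⟩, funext fun j => mul_right_comm _ _ _⟩

theorem gb_sub {A A' : Ideal O} {v : Fin (d + 1) → ℝ} (hv : v 0 ≠ 0)
    (h : gbLat σ A v ⊆ gbLat σ A' v) : jinv A ⊆ jinv A' := fun b hb => by
  obtain ⟨b', hb', e⟩ := h ⟨b, hb, rfl⟩
  rwa [(σ 0).injective (mul_left_cancel₀ hv (congrFun e 0))]

theorem gb_mem {x : X (d + 1)} : x ∈ packet O σ ↔
    ∃ (I : FractionalIdeal (nonZeroDivisors O) K) (c : ℝ) (w u : Fin (d + 1) → ℝ),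
      {a : K | ∀ b ∈ I, a * b ∈ I} = (O : Set K) ∧ (∃ J, I * J = 1) ∧
      0 < c ∧ (∀ j, w j = 1 ∨ w j = -1) ∧ ∑ j, u j = 0 ∧
      lat x = {y | ∃ b ∈ I, y = fun j => c * σ j b * w j * Real.exp (u j)} := by
  constructor
  · rintro ⟨g, I, c, w, u, rfl, h⟩
    rw [g_lat_coset]
    exact ⟨I, c, w, u, h⟩
  · obtain ⟨g, rfl⟩ := g_exists_coset x
    rw [g_lat_coset]
    rintro ⟨I, c, w, u, h⟩
    exact ⟨g, I, c, w, u, rfl, h⟩

theorem gb_inv {x : X (d + 1)} (hx : x ∈ packet O σ) (u : Fin d → ℝ) : fl x u ∈ packet O σ := by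
  obtain ⟨I, c, w, u', h1, h2, h3, h4, h5, h6⟩ := (gb_mem σ).1 hx
  refine (gb_mem σ).2 ⟨I, c, w, u' + ex u, h1, h2, h3, h4, by
    simp only [Pi.add_apply, Finset.sum_add_distrib, h5, sum_ex, add_zero], ?_⟩
  rw [lat_fl, h6]
  ext y
  constructor
  · rintro ⟨_, ⟨b, hb, rfl⟩, rfl⟩
    exact ⟨b, hb, funext fun j => by simp only [scal, Pi.add_apply, Real.exp_add, mul_assoc]⟩
  · rintro ⟨b, hb, rfl⟩
    exact ⟨_, ⟨b, hb, rfl⟩,
      funext fun j => by simp only [scal, Pi.add_apply, Real.exp_add, mul_assoc]⟩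

theorem gb_mat [NumberField K] (hO : IsOrder O) (hn : finrank ℚ K = d + 1) {A : Ideal O}
    (hA : Inv A) (v : Fin (d + 1) → ℝ) : ∃ M : Matrix (Fin (d + 1)) (Fin (d + 1)) ℝ,
      gbLat σ A v = {y | ∃ z : Fin (d + 1) → ℤ, y = Matrix.vecMul (fun i => (z i : ℝ)) M} ∧
        |M.det| * idx A = (∏ j, |v j|) * √(orderDisc O : ℝ) := by
  obtain ⟨β, h1, h2⟩ := jinv_basis hO σ hn hA
  refine ⟨.of fun i j => v j * (Matrix.of fun i j => σ j (β i)) i j, ?_, ?_⟩
  · have e : ∀ z : Fin (d + 1) → ℤ, (fun j => v j * σ j (∑ i, (z i : K) * β i)) =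
        Matrix.vecMul (fun i => (z i : ℝ))
          (.of fun i j => v j * (Matrix.of fun i j => σ j (β i)) i j) := fun z => by
      funext j
      simp only [map_sum, map_mul, map_intCast, Matrix.vecMul, dotProduct, Matrix.of_apply,
        Finset.mul_sum, mul_left_comm]
    ext y
    constructor
    · rintro ⟨b, hb, rfl⟩
      obtain ⟨z, rfl⟩ := (h1 b).1 hb
      exact ⟨z, e z⟩
    · rintro ⟨z, rfl⟩
      exact ⟨_, (h1 _).2 ⟨z, rfl⟩, (e z).symm⟩
  · rw [Matrix.det_mul_row, abs_mul, Finset.abs_prod, mul_assoc, h2]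

end

theorem param_packet {d : ℕ} {K : Type} [Field K] [NumberField K] {O : Subring K}
    (hO : IsOrder O) (σ : Fin (d + 1) ≃ (K →+* ℝ)) (hn : finrank ℚ K = d + 1) :
    ∃ (T : Type) (pt : T → X (d + 1)) (vec : T → Fin (d + 1) → ℝ) (nrm : T → ℕ),
      Param (packet O σ) √(orderDisc O : ℝ) pt vec nrm ∧
        ∀ m, {t | nrm t = m}.ncard = 2 ^ (d + 1) * cnt O m := by
  have := ord_finite hO
  have := ord_free hO
  have hΔ : 1 ≤ √(orderDisc O : ℝ) := Real.one_le_sqrt.2 (by exact_mod_cast one_le_orderDisc hO)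
  generalize hD : √(orderDisc O : ℝ) = Δ at hΔ
  have hΔ0 : 0 < Δ := by linarith
  have hi : ∀ A : {A : Ideal O // Inv A}, idx A.1 ≠ 0 := fun A => idx_ne_zero A.2.ne_bot
  have hq : ∀ A : {A : Ideal O // Inv A}, (0 : ℝ) < idx A.1 / Δ := fun A =>
    div_pos (Nat.cast_pos.2 (hi A).bot_lt) hΔ0
  obtain ⟨r, hr⟩ : ∃ r : {A : Ideal O // Inv A} → ℝ,
      ∀ A, r A = ((idx A.1 : ℝ) / Δ) ^ (1 / (d + 1) : ℝ) := ⟨_, fun _ => rfl⟩
  have r0 : ∀ A, 0 < r A := fun A => hr A ▸ Real.rpow_pos_of_pos (hq A) _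
  have r1 : ∀ A, r A ^ (d + 1) = idx A.1 / Δ := fun A => by
    rw [hr, one_div, ← Nat.cast_succ, Real.rpow_inv_natCast_pow (hq A).le d.succ_ne_zero]
  obtain ⟨vec, hv⟩ : ∃ vec : {A : Ideal O // Inv A} × (Fin (d + 1) → Bool) → Fin (d + 1) → ℝ,
      ∀ t j, vec t j = r t.1 * if t.2 j then 1 else -1 := ⟨_, fun _ _ => rfl⟩
  have v1 : ∀ t j, |vec t j| = r t.1 := fun t j => by
    rw [hv, abs_mul, abs_of_pos (r0 _)]
    split_ifs <;> simp
  have hpt : ∀ t, ∃ x : X (d + 1), lat x = gbLat σ t.1.1 (vec t) := fun t => by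
    obtain ⟨M, h1, h2⟩ := gb_mat σ hO hn t.1.2 (vec t)
    simp only [v1, Finset.prod_const, Finset.card_fin, r1, hD, div_mul_cancel₀ _ hΔ0.ne'] at h2
    rw [h1]
    exact exists_lat d.succ_pos M ((mul_eq_right₀ (Nat.cast_ne_zero.2 (hi _))).1 h2)
  choose pt hpt using hpt
  have hs : ∀ m, {t : {A : Ideal O // Inv A} × (Fin (d + 1) → Bool) | idx t.1.1 = m} =
      (Subtype.val ⁻¹' {A | Inv A ∧ idx A = m}) ×ˢ Set.univ := fun m => by
    ext t
    simp [t.1.2]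
  have hm : ∀ t, pt t ∈ packet O σ ∧ vec t ∈ lat (pt t) := fun t => by
    obtain ⟨I, h1, h2, h3⟩ := jinv_frac t.1.2
    refine ⟨(gb_mem σ).2 ⟨I, r t.1, fun j => if t.2 j then 1 else -1, 0, h2, h3, r0 _,
      fun j => ite_eq_or_eq _ _ _, by simp, ?_⟩, hpt t ▸ ⟨1, one_mem_jinv _, by simp⟩⟩
    simp only [hpt, gbLat, h1, hv, Pi.zero_apply, Real.exp_zero, mul_one, mul_right_comm]
  refine ⟨_, pt, vec, fun t => idx t.1.1, ⟨hΔ, fun t => (hi _).bot_lt, fun m => ?_,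
    fun t j => (v1 t j).trans (hr _), hm, fun x hx => gb_inv σ hx, fun x hx v hv1 hv0 => ?_,
    fun t t' u h1 h2 => ?_, ⟨_, (hm (⟨⊤, ⊤, 1, one_ne_zero, by simp⟩, fun _ => true)).1⟩⟩,
    fun m => ?_⟩
  · rw [hs]
    refine (Set.Finite.preimage Subtype.val_injective.injOn ?_).prod Set.finite_univ
    rcases eq_or_ne m 0 with rfl | h0
    · exact Set.finite_empty.subset fun A hA => hi ⟨A, hA.1⟩ hA.2
    · exact (finite_idx m h0).subset fun A hA => hA.2
  · obtain ⟨I, c, w, u, -, ⟨J, hJ⟩, -, -, -, h6⟩ := (gb_mem σ).1 hx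
    obtain ⟨b₀, hb, e⟩ := h6 ▸ hv1
    have b0 : b₀ ≠ 0 := by
      rintro rfl
      exact hv0 (e.trans (funext fun j => by simp))
    obtain ⟨A, hA, h1⟩ := frac_jinv I J hJ hb b0
    have h2 : lat x = gbLat σ A v := by
      rw [h6, e]
      ext y
      constructor
      · rintro ⟨b, hb', rfl⟩
        refine ⟨b / b₀, (h1 _).2 (by rwa [mul_div_cancel₀ _ b0]), funext fun j => ?_⟩
        have := (map_ne_zero (σ j)).2 b0
        rw [map_div₀]
        field_simp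
      · rintro ⟨b, hb', rfl⟩
        exact ⟨_, (h1 b).1 hb', funext fun j => by rw [map_mul]; ring⟩
    obtain ⟨M, h3, h4⟩ := gb_mat σ hO hn hA v
    rw [abs_det_of_lat x M (h2.trans h3), one_mul, hD, ← div_eq_iff hΔ0.ne'] at h4
    have h5 : ∀ j, |v j| ≠ 0 := fun j =>
      Finset.prod_ne_zero_iff.1 (h4 ▸ (hq ⟨A, hA⟩).ne') j (Finset.mem_univ j)
    have h7 : ∑ j, Real.log (|v j| / r ⟨A, hA⟩) = 0 := by
      rw [← Real.log_prod fun j _ => div_ne_zero (h5 j) (r0 _).ne', Finset.prod_div_distrib,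
        Finset.prod_const, Finset.card_fin, r1, ← h4, div_self (hq ⟨A, hA⟩).ne', Real.log_one]
    have h8 : v = scal (Fin.init fun j => Real.log (|v j| / r ⟨A, hA⟩))
        (vec (⟨A, hA⟩, fun j => decide (0 ≤ v j))) := by
      funext j
      have := (r0 ⟨A, hA⟩).ne'
      rw [scal, ex_init _ h7, Real.exp_log (div_pos ((abs_nonneg _).lt_of_ne' (h5 j)) (r0 _)), hv]
      by_cases h : 0 ≤ v j
      · rw [if_pos (by simpa using h), abs_of_nonneg h]
        field_simp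
      · rw [if_neg (by simpa using h), abs_of_neg (not_le.1 h)]
        field_simp
    exact ⟨_, _, lat_injective (by rw [lat_fl, hpt, gb_scal, ← h8, h2]), h8⟩
  · have h3 : gbLat σ t'.1.1 (vec t') = gbLat σ t.1.1 (vec t') := by
      rw [← hpt, h1, lat_fl, hpt, gb_scal, ← h2]
    have h4 : vec t' 0 ≠ 0 := abs_pos.1 (v1 t' 0 ▸ r0 _)
    have h5 : t.1 = t'.1 := Subtype.ext
      (jinv_inj t.1.2 t'.1.2 ((gb_sub σ h4 h3.ge).antisymm (gb_sub σ h4 h3.le)))
    refine Prod.ext h5 (funext fun j => ?_)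
    have h6 := congrFun h2 j
    have h7 := mul_pos (r0 t'.1) (Real.exp_pos (ex u j))
    have h8 := r0 t'.1
    rw [scal, hv, hv, h5] at h6
    cases h : t.2 j <;> cases h' : t'.2 j <;> simp only [h, h'] at h6 ⊢ <;> norm_num at h6 <;>
      linarith
  · rw [hs, Set.ncard_prod, Set.ncard_univ, mul_comm, cnt,
      Set.ncard_preimage_of_injective_subset_range Subtype.val_injective
        fun A hA => ⟨⟨A, hA.1⟩, rfl⟩]
    simp

end Vale.Agent.P007
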