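import Vale.Agent.P007.N.Geo0

/-! # P007 N: from the uniform bound on thin sets to equidistribution

Plan.  `X n` is locally compact, Hausdorff, second countable (quotient by an open quotient map;
`ContinuousConstSMul.secondCountableTopology` or `IsOpenQuotientMap`), hence metrizable, and finite
Borel measures on it are inner regular/tight.
* Tightness.  For `0 < r < 1` let `K_r` be the compact set of `Mahler`; `K_rᶜ ⊆ thin n 0 r`
  (`mem_thin`: all `|w j| < r < 1` gives `|∏ w j| < r` as `n ≥ 1`).  So `μ i K_rᶜ ≤ C √r` for large `i`;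
  finitely many `i` remain and each `μ i` is tight (`isTightMeasureSet_singleton`-type lemmas, or
  sigma-compactness), so the range is `IsTightMeasureSet`
  (`isTightMeasureSet_iff_exists_isCompact_measure_compl_le`).
* `isCompact_closure_of_isTightMeasureSet` (Prokhorov) on `ProbabilityMeasure (X n)`.  Every cluster
  point `ν` (limit along an ultrafilter `U ≤ atTop`, `mapClusterPt_iff_ultrafilter`) is `AInv`
  (`ProbabilityMeasure.tendsto_map_of_tendsto_of_continuous`, uniqueness of limits,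
  `g_continuous_act`) and `S1` with `c = 1/2`
  (`ProbabilityMeasure.le_liminf_measure_open_of_tendsto`, `g_isOpen_thin`), so `IsInvProb` by `hr`.
  A cluster point `m` exists (`IsCompact.exists_mapClusterPt`), is unique by `hu`, so
  `IsCompact.tendsto_nhds_of_unique_mapClusterPt`;
  `ProbabilityMeasure.tendsto_iff_forall_integral_tendsto` with `f.toBoundedContinuousFunction`. -/

open MeasureTheory Filter Topology

namespace Vale.Agent.P007

/-- Mahler's compactness criterion -/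
def Mahler (n : ℕ) : Prop :=
  ∀ r : ℝ, 0 < r → ∃ K : Set (X n), IsCompact K ∧
    ∀ x : X n, (∀ w ∈ lat x, w ≠ 0 → ∃ j, r ≤ |w j|) → x ∈ K

theorem glue_sec (n : ℕ) : SecondCountableTopology (X n) :=
  ContinuousConstSMul.secondCountableTopology

theorem glue_compl_subset {n : ℕ} (hn : 1 ≤ n) {r : ℝ} (hr0 : 0 < r) (hr1 : r < 1) {K : Set (X n)}
    (hK : ∀ x : X n, (∀ w ∈ lat x, w ≠ 0 → ∃ j, r ≤ |w j|) → x ∈ K) : Kᶜ ⊆ thin n 0 r := by
  intro x hx
  have h : ¬ ∀ w ∈ lat x, w ≠ 0 → ∃ j, r ≤ |w j| := fun h => hx (hK x h)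
  push Not at h
  obtain ⟨w, hw, hw0, hwr⟩ := h
  refine mem_thin.2 ⟨w, hw, hw0, fun j => (hwr j).trans (by linarith), ?_⟩
  obtain ⟨d, rfl⟩ : ∃ d, n = d + 1 := ⟨n - 1, by omega⟩
  rw [sub_zero, Finset.abs_prod, Fin.prod_univ_succ]
  have h1 : ∏ j : Fin d, |w j.succ| ≤ 1 :=
    Finset.prod_le_one (fun j _ => abs_nonneg _) fun j _ => ((hwr _).trans hr1).le
  calc |w 0| * ∏ j : Fin d, |w j.succ| ≤ |w 0| * 1 :=
        mul_le_mul_of_nonneg_left h1 (abs_nonneg _)
    _ < r := by rw [mul_one]; exact hwr 0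

theorem glue_small (C : ℝ) {ε : ℝ} (hε : 0 < ε) : ∃ r : ℝ, 0 < r ∧ r < 1 ∧ C * √r ≤ ε := by
  have h : Tendsto (fun r : ℝ => C * √r) (𝓝[>] 0) (𝓝 0) := by
    have h0 : Continuous fun r : ℝ => C * √r := by fun_prop
    have h1 := h0.tendsto 0
    simp only [Real.sqrt_zero, mul_zero] at h1
    exact h1.mono_left nhdsWithin_le_nhds
  have h1 : ∀ᶠ r : ℝ in 𝓝[>] 0, C * √r ≤ ε := h.eventually (ge_mem_nhds hε)
  have h2 : ∀ᶠ r : ℝ in 𝓝[>] 0, r ∈ Set.Ioo (0 : ℝ) 1 := Ioo_mem_nhdsGT one_pos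
  obtain ⟨r, hr1, hr2⟩ := (h1.and h2).exists
  exact ⟨r, hr2.1, hr2.2, hr1⟩

theorem glue_ev {n : ℕ} (hn : 1 ≤ n) (hM : Mahler n) (μ : ℕ → Measure (X n)) (C : ℝ)
    (h3 : ∀ η : ℝ, 0 < η → η < 1 → ∀ᶠ i in atTop, ∀ t : ℝ,
      μ i (thin n t η) ≤ ENNReal.ofReal (C * √η)) {ε : ℝ} (hε : 0 < ε) :
    ∃ K : Set (X n), IsCompact K ∧ ∀ᶠ i in atTop, μ i Kᶜ ≤ ENNReal.ofReal ε := by
  obtain ⟨r, hr0, hr1, hr⟩ := glue_small C hε
  obtain ⟨K, hK, hK'⟩ := hM r hr0
  refine ⟨K, hK, (h3 r hr0 hr1).mono fun i hi => ?_⟩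
  exact ((measure_mono (glue_compl_subset hn hr0 hr1 hK')).trans (hi 0)).trans
    (ENNReal.ofReal_le_ofReal hr)

theorem glue_single {n : ℕ} (ν : Measure (X n)) [IsFiniteMeasure ν] {ε : ENNReal} (hε : 0 < ε) :
    ∃ K : Set (X n), IsCompact K ∧ ν Kᶜ ≤ ε := by
  have := glue_sec n
  have : TopologicalSpace.MetrizableSpace (X n) := inferInstance
  have h : IsTightMeasureSet {ν} := isTightMeasureSet_singleton_of_innerRegular
  obtain ⟨K, hK, h'⟩ := isTightMeasureSet_iff_exists_isCompact_measure_compl_le.1 h ε hε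
  exact ⟨K, hK, h' ν rfl⟩

theorem glue_tight {n : ℕ} (μ : ℕ → Measure (X n)) (h1 : ∀ i, IsProbabilityMeasure (μ i))
    (h : ∀ ε : ℝ, 0 < ε → ∃ K : Set (X n), IsCompact K ∧
      ∀ᶠ i in atTop, μ i Kᶜ ≤ ENNReal.ofReal ε) :
    IsTightMeasureSet (Set.range μ) := by
  rw [isTightMeasureSet_iff_exists_isCompact_measure_compl_le]
  intro ε hε
  obtain ⟨δ, -, hδ0, hδ⟩ := ENNReal.lt_iff_exists_real_btwn.1 hε
  obtain ⟨K, hK, hev⟩ := h δ (ENNReal.ofReal_pos.1 hδ0)
  obtain ⟨N, hN⟩ := eventually_atTop.1 hev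
  choose L hL hL' using fun i => glue_single (μ i) hε
  refine ⟨K ∪ ⋃ i ∈ Set.Iio N, L i,
    hK.union ((Set.finite_Iio N).isCompact_biUnion fun i _ => hL i), ?_⟩
  rintro _ ⟨i, rfl⟩
  rcases lt_or_ge i N with hi | hi
  · refine (measure_mono (Set.compl_subset_compl.2 ?_)).trans (hL' i)
    exact (Set.subset_biUnion_of_mem (u := L) (Set.mem_Iio.2 hi)).trans Set.subset_union_right
  · exact ((measure_mono (Set.compl_subset_compl.2 Set.subset_union_left)).trans
      (hN i hi)).trans hδ.le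

theorem glue_cluster {n : ℕ} (hr : RigidStmt n) (P : ℕ → ProbabilityMeasure (X n))
    (h2 : ∀ i, AInv (P i : Measure (X n))) (C : ℝ)
    (h3 : ∀ η : ℝ, 0 < η → η < 1 → ∀ᶠ i in atTop, ∀ t : ℝ,
      (P i : Measure (X n)) (thin n t η) ≤ ENNReal.ofReal (C * √η))
    {ν : ProbabilityMeasure (X n)} (hν : MapClusterPt ν atTop P) :
    IsInvProb (ν : Measure (X n)) := by
  have := glue_sec n
  have : TopologicalSpace.MetrizableSpace (X n) := inferInstance
  obtain ⟨U, hU, hlim⟩ := mapClusterPt_iff_ultrafilter.1 hν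
  refine hr _ inferInstance (fun u hu => ?_) ⟨C, 1 / 2, by norm_num, fun t η h0 h1 => ?_⟩
  · have hc : Continuous fun x : X n => act x (diagA u hu) :=
      g_continuous_act.comp (continuous_id.prodMk continuous_const)
    have h4 := ProbabilityMeasure.tendsto_map_of_tendsto_of_continuous P ν hlim hc
    have h5 : (fun i => (P i).map hc.measurable.aemeasurable) = P := by
      funext i
      exact Subtype.ext (h2 i u hu)
    rw [h5] at h4
    have h6 : ν.map hc.measurable.aemeasurable = ν := tendsto_nhds_unique h4 hlim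
    exact congrArg Subtype.val h6
  · refine (ProbabilityMeasure.le_liminf_measure_open_of_tendsto hlim
      (g_isOpen_thin n t η)).trans ?_
    rw [← Real.sqrt_eq_rpow]
    exact liminf_le_of_frequently_le' (((h3 η h0 h1).filter_mono hU).mono fun i hi => hi t).frequently

theorem glue (n : ℕ) (hn : 1 ≤ n) (hr : RigidStmt n) (hu : UniqStmt n) (hM : Mahler n)
    (μ : ℕ → Measure (X n)) (h1 : ∀ i, IsProbabilityMeasure (μ i)) (h2 : ∀ i, AInv (μ i)) (C : ℝ)
    (h3 : ∀ η : ℝ, 0 < η → η < 1 → ∀ᶠ i in atTop, ∀ t : ℝ,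
      μ i (thin n t η) ≤ ENNReal.ofReal (C * √η)) :
    ∃ m : Measure (X n), IsInvProb m ∧ (∀ m', IsInvProb m' → m' = m) ∧
      (∀ f : CompactlySupportedContinuousMap (X n) ℝ,
        Tendsto (fun i => ∫ x, f x ∂μ i) atTop (𝓝 (∫ x, f x ∂m))) ∧
      ∀ ε : ℝ, 0 < ε → ∃ K : Set (X n), IsCompact K ∧
        ∀ᶠ i in atTop, ENNReal.ofReal (1 - ε) ≤ μ i K := by
  have hev := fun ε (hε : 0 < ε) => glue_ev hn hM μ C h3 hε
  let P : ℕ → ProbabilityMeasure (X n) := fun i => ⟨μ i, h1 i⟩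
  have hT : IsTightMeasureSet
      {((ν : ProbabilityMeasure (X n)) : Measure (X n)) | ν ∈ Set.range P} := by
    refine (glue_tight μ h1 hev).subset ?_
    rintro _ ⟨_, ⟨i, rfl⟩, rfl⟩
    exact ⟨i, rfl⟩
  have hc := isCompact_closure_of_isTightMeasureSet hT
  have hmem : ∀ᶠ i in atTop, P i ∈ closure (Set.range P) :=
    Eventually.of_forall fun i => subset_closure ⟨i, rfl⟩
  have hcl : ∀ ν, MapClusterPt ν atTop P → IsInvProb (ν : Measure (X n)) :=
    fun ν hν => glue_cluster hr P h2 C h3 hν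
  obtain ⟨m, -, hm⟩ := hc.exists_mapClusterPt_of_frequently hmem.frequently
  have hlim : Tendsto P atTop (𝓝 m) :=
    hc.tendsto_nhds_of_unique_mapClusterPt hmem fun ν _ hν =>
      Subtype.ext (hu _ _ (hcl ν hν) (hcl m hm))
  refine ⟨m, hcl m hm, fun m' hm' => hu _ _ hm' (hcl m hm), fun f => ?_, fun ε hε => ?_⟩
  · exact ProbabilityMeasure.tendsto_iff_forall_integral_tendsto.1 hlim f.toBoundedContinuousFunction
  · obtain ⟨K, hK, h⟩ := hev ε hε
    refine ⟨K, hK, h.mono fun i hi => ?_⟩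
    have := h1 i
    have h4 : μ i K = 1 - μ i Kᶜ := by
      rw [← prob_compl_eq_one_sub hK.measurableSet.compl, compl_compl]
    rw [h4, ENNReal.ofReal_sub _ hε.le, ENNReal.ofReal_one]
    exact tsub_le_tsub_left hi _

end Vale.Agent.P007
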