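import Vale.Agent.P007.N.PSum

/-! # P007 N: the Hall-Tenenbaum inequality, and a short interval version

Plan.  For `m ≥ 1`, `log m = ∑_{p ∣ m} log (p ^ v_p(m))` and `m = m' * q` with `q = p ^ v_p(m)`
a prime power coprime to `m' = m / q`, so `a m = a m' * a q`.  The map `(m, p) ↦ (m', q)` is
injective (`m = m' q`, `p = q.minFac`).  Hence (`ht_key`) for every finite set `I` of positive
integers `≤ Y`,
`∑_{m ∈ I} a m log m ≤ ∑_{1 ≤ m' ≤ Y} a m' ∑_{q prime power, m' q ∈ I} a q log q`.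
* `ht_le`: `a m log z = a m log m + a m log (z/m)`, `log (z/m) ≤ z/m`; the inner sum is at most
  `C' z/m'` by `psum_le` at `z/m'`.
* `ht_short`: `log y ≤ log m` on the interval; the inner sum is over `z < q ≤ z (1+ρ)`,
  `z = y/m'`, `m' ≤ 3y`.  For `z ≥ z₀` use `psum_short`: `≤ C' √ρ y/m'`.  For `z < z₀` use
  `psum_le` at `3z ≤ 3 z₀`: these terms give at most `3 C' z₀ A(3y) ≤ 9 C' C'' z₀ y H(3y) / log (3y)`
  by `ht_le`, which is `≤ √ρ₀ y H(3y)` once `log y` is large. -/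

namespace Vale.Agent.P007

open Finset

theorem ht_key {n : ℕ} {C : ℝ} {a : ℕ → ℝ} (ha : Mult n C a) (I : Finset ℕ) (Y : ℕ)
    (hI : ∀ m ∈ I, 1 ≤ m ∧ m ≤ Y) :
    ∑ m ∈ I, a m * Real.log m ≤ ∑ m ∈ Icc 1 Y, a m *
      ∑ q ∈ (Icc 1 Y).filter (fun q => IsPrimePow q ∧ m * q ∈ I), a q * Real.log q := by
  classical
  let f : (Σ _ : ℕ, ℕ) → ℕ × ℕ := fun x =>
    (x.1 / x.2 ^ x.1.factorization x.2, x.2 ^ x.1.factorization x.2)
  let g : ℕ × ℕ → ℝ := fun y => a y.1 * (a y.2 * Real.log y.2)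
  have hmul : ∀ x : (Σ _ : ℕ, ℕ), (f x).1 * (f x).2 = x.1 := fun x =>
    Nat.div_mul_cancel (Nat.ordProj_dvd x.1 x.2)
  have hv : ∀ m p : ℕ, p ∈ m.primeFactors → m.factorization p ≠ 0 := by
    intro m p hp
    rw [← Nat.support_factorization] at hp
    exact Finsupp.mem_support_iff.1 hp
  have h1 : ∑ m ∈ I, a m * Real.log m = ∑ x ∈ I.sigma (fun m => m.primeFactors), g (f x) := by
    rw [sum_sigma]
    refine sum_congr rfl fun m hm => ?_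
    have hm0 : m ≠ 0 := by have := (hI m hm).1; omega
    rw [Real.log_nat_eq_sum_factorization, Finsupp.sum, Nat.support_factorization, mul_sum]
    refine sum_congr rfl fun p hp => ?_
    have hp' := Nat.prime_of_mem_primeFactors hp
    have e : a m = a (f ⟨m, p⟩).1 * a (f ⟨m, p⟩).2 := by
      rw [← ha.mul _ _ (Nat.ordCompl_pos p hm0).ne' (pow_ne_zero _ hp'.ne_zero)
        ((Nat.coprime_ordCompl hp' hm0).symm.pow_right _)]
      exact congrArg a (hmul ⟨m, p⟩).symm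
    rw [e]
    simp only [g, f, Nat.cast_pow, Real.log_pow]
    ring
  have h2 : Set.InjOn f (I.sigma (fun m => m.primeFactors) : Finset (Σ _ : ℕ, ℕ)) := by
    rintro ⟨m, p⟩ hx ⟨m', p'⟩ hy e
    have e1 : m = m' := by
      have := hmul ⟨m, p⟩
      rw [e, hmul] at this
      exact this.symm
    subst e1
    have hp : p ∈ m.primeFactors := (mem_sigma.1 (mem_coe.1 hx)).2
    have hp' : p' ∈ m.primeFactors := (mem_sigma.1 (mem_coe.1 hy)).2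
    have e2 : p ^ m.factorization p = p' ^ m.factorization p' := congrArg Prod.snd e
    have e3 := congrArg Nat.minFac e2
    rw [(Nat.prime_of_mem_primeFactors hp).pow_minFac (hv _ _ hp),
      (Nat.prime_of_mem_primeFactors hp').pow_minFac (hv _ _ hp')] at e3
    rw [e3]
  have h3 : (I.sigma (fun m => m.primeFactors)).image f ⊆
      (Icc 1 Y ×ˢ Icc 1 Y).filter (fun y => IsPrimePow y.2 ∧ y.1 * y.2 ∈ I) := by
    intro y hy
    obtain ⟨x, hx, rfl⟩ := mem_image.1 hy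
    obtain ⟨hm, hp⟩ := mem_sigma.1 hx
    have hp' := Nat.prime_of_mem_primeFactors hp
    have h4 := hmul x
    obtain ⟨h5, h6⟩ := hI _ hm
    have h7 : (f x).1 * (f x).2 ≠ 0 := by omega
    have h8 := Nat.pos_of_ne_zero (mul_ne_zero_iff.1 h7).1
    have h9 := Nat.pos_of_ne_zero (mul_ne_zero_iff.1 h7).2
    refine mem_filter.2 ⟨mem_product.2 ⟨mem_Icc.2 ⟨h8, ?_⟩, mem_Icc.2 ⟨h9, ?_⟩⟩,
      (hp'.isPrimePow).pow (hv _ _ hp), h4.symm ▸ hm⟩
    · exact (Nat.le_mul_of_pos_right _ h9).trans (h4.le.trans h6)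
    · exact (Nat.le_mul_of_pos_left _ h8).trans (h4.le.trans h6)
  rw [h1, ← sum_image h2]
  refine (sum_le_sum_of_subset_of_nonneg h3 fun y _ _ => mul_nonneg (ha.nonneg _)
    (mul_nonneg (ha.nonneg _) (Real.log_natCast_nonneg _))).trans (le_of_eq ?_)
  rw [sum_filter, sum_product]
  refine sum_congr rfl fun m _ => ?_
  rw [mul_sum, sum_filter]

theorem ht_le (n : ℕ) (hn : 1 ≤ n) (C : ℝ) : ∃ C' : ℝ, 0 < C' ∧
    ∀ a : ℕ → ℝ, Mult n C a → ∀ z : ℝ, 1 ≤ z → sumA a z * Real.log z ≤ C' * z * sumH a z := by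
  obtain ⟨C1, hC1, h1⟩ := psum_le n hn C
  refine ⟨C1 + 1, by linarith, fun a ha z hz => ?_⟩
  have hz0 : 0 < z := by linarith
  have h2 := ht_key ha (Icc 1 ⌊z⌋₊) ⌊z⌋₊ fun m hm => mem_Icc.1 hm
  have h3 : ∑ m ∈ Icc 1 ⌊z⌋₊, a m * ∑ q ∈ (Icc 1 ⌊z⌋₊).filter
      (fun q => IsPrimePow q ∧ m * q ∈ Icc 1 ⌊z⌋₊), a q * Real.log q ≤ C1 * z * sumH a z := by
    rw [sumH, mul_sum]
    refine sum_le_sum fun m hm => ?_
    have hm0 : (0 : ℝ) < m := Nat.cast_pos.2 (mem_Icc.1 hm).1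
    have h4 : ∑ q ∈ (Icc 1 ⌊z⌋₊).filter (fun q => IsPrimePow q ∧ m * q ∈ Icc 1 ⌊z⌋₊),
        a q * Real.log q ≤ C1 * (z / m) := by
      refine le_trans (sum_le_sum_of_subset_of_nonneg ?_ fun q _ _ =>
        mul_nonneg (ha.nonneg _) (Real.log_natCast_nonneg _)) (h1 a ha (z / m) (by positivity))
      intro q hq
      obtain ⟨q1, q2, q3⟩ := mem_filter.1 hq
      refine mem_filter.2 ⟨mem_Icc.2 ⟨(mem_Icc.1 q1).1, Nat.le_floor ?_⟩, q2⟩
      have q4 := (Nat.le_floor_iff hz0.le).1 (mem_Icc.1 q3).2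
      rw [le_div_iff₀ hm0]
      push_cast at q4
      linarith
    calc _ ≤ a m * (C1 * (z / m)) := mul_le_mul_of_nonneg_left h4 (ha.nonneg m)
      _ = _ := by ring
  have h5 : sumA a z * Real.log z ≤ ∑ m ∈ Icc 1 ⌊z⌋₊, a m * Real.log m + z * sumH a z := by
    rw [sumA, sumH, sum_mul, mul_sum, ← sum_add_distrib]
    refine sum_le_sum fun m hm => ?_
    have hm0 : (0 : ℝ) < m := Nat.cast_pos.2 (mem_Icc.1 hm).1
    have h6 := Real.log_le_sub_one_of_pos (div_pos hz0 hm0)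
    rw [Real.log_div hz0.ne' hm0.ne'] at h6
    have h7 : Real.log z ≤ Real.log m + z / m := by linarith
    calc _ ≤ a m * (Real.log m + z / m) := mul_le_mul_of_nonneg_left h7 (ha.nonneg m)
      _ = _ := by ring
  linarith

theorem ht_short (n : ℕ) (hn : 1 ≤ n) (C : ℝ) : ∃ C' : ℝ, 0 < C' ∧
    ∀ ρ₀ : ℝ, 0 < ρ₀ → ∃ y₀ : ℝ, 1 ≤ y₀ ∧ ∀ a : ℕ → ℝ, Mult n C a →
      ∀ ρ y : ℝ, ρ₀ ≤ ρ → ρ ≤ 2 → y₀ ≤ y →
        (∑ m ∈ Ioc ⌊y⌋₊ ⌊y * (1 + ρ)⌋₊, a m) * Real.log y ≤ C' * √ρ * y * sumH a (3 * y) := by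
  obtain ⟨C1, hC1, h1⟩ := psum_le n hn C
  obtain ⟨C2, hC2, h2⟩ := psum_short n hn C
  obtain ⟨C3, hC3, h3⟩ := ht_le n hn C
  refine ⟨C2 + 1, by linarith, fun ρ₀ hρ₀ => ?_⟩
  obtain ⟨z₀, hz₀, h2⟩ := h2 ρ₀ hρ₀
  have hs₀ : 0 < √ρ₀ := Real.sqrt_pos.2 hρ₀
  have hL : 0 < 9 * C1 * C3 * z₀ / √ρ₀ := by positivity
  refine ⟨Real.exp (9 * C1 * C3 * z₀ / √ρ₀), Real.one_le_exp hL.le, fun a ha ρ y hρ hρ2 hy => ?_⟩
  have hy1 : 1 ≤ y := (Real.one_le_exp hL.le).trans hy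
  have hy0 : 0 < y := by linarith
  have hρ0 : 0 < ρ := hρ₀.trans_le hρ
  have hs : √ρ₀ ≤ √ρ := Real.sqrt_le_sqrt hρ
  have hH : 0 ≤ sumH a (3 * y) :=
    sum_nonneg fun m _ => div_nonneg (ha.nonneg m) (Nat.cast_nonneg m)
  have hlog : 9 * C1 * C3 * z₀ / √ρ₀ ≤ Real.log (3 * y) :=
    (Real.le_log_iff_exp_le (by linarith)).2 (by linarith)
  have hA : 3 * C1 * z₀ * sumA a (3 * y) ≤ √ρ * y * sumH a (3 * y) := by
    have h4 := h3 a ha (3 * y) (by linarith)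
    have h5 : 9 * C1 * C3 * z₀ ≤ Real.log (3 * y) * √ρ :=
      ((div_le_iff₀ hs₀).1 hlog).trans (mul_le_mul_of_nonneg_left hs (hL.le.trans hlog))
    refine le_of_mul_le_mul_right ?_ (hL.trans_le hlog)
    calc 3 * C1 * z₀ * sumA a (3 * y) * Real.log (3 * y)
        = 3 * C1 * z₀ * (sumA a (3 * y) * Real.log (3 * y)) := by ring
      _ ≤ 3 * C1 * z₀ * (C3 * (3 * y) * sumH a (3 * y)) :=
        mul_le_mul_of_nonneg_left h4 (by positivity)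
      _ = 9 * C1 * C3 * z₀ * (y * sumH a (3 * y)) := by ring
      _ ≤ Real.log (3 * y) * √ρ * (y * sumH a (3 * y)) :=
        mul_le_mul_of_nonneg_right h5 (by positivity)
      _ = _ := by ring
  have hy3 : y * (1 + ρ) ≤ 3 * y := by nlinarith
  have h4 := ht_key ha (Ioc ⌊y⌋₊ ⌊y * (1 + ρ)⌋₊) ⌊3 * y⌋₊ fun m hm =>
    ⟨by have := (mem_Ioc.1 hm).1; omega, (mem_Ioc.1 hm).2.trans (Nat.floor_le_floor hy3)⟩
  have h5 : (∑ m ∈ Ioc ⌊y⌋₊ ⌊y * (1 + ρ)⌋₊, a m) * Real.log y ≤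
      ∑ m ∈ Ioc ⌊y⌋₊ ⌊y * (1 + ρ)⌋₊, a m * Real.log m := by
    rw [sum_mul]
    exact sum_le_sum fun m hm => mul_le_mul_of_nonneg_left
      (Real.log_le_log hy0 ((Nat.floor_lt hy0.le).1 (mem_Ioc.1 hm).1).le) (ha.nonneg m)
  have h6 : ∑ m ∈ Icc 1 ⌊3 * y⌋₊, a m * ∑ q ∈ (Icc 1 ⌊3 * y⌋₊).filter
      (fun q => IsPrimePow q ∧ m * q ∈ Ioc ⌊y⌋₊ ⌊y * (1 + ρ)⌋₊), a q * Real.log q ≤
      C2 * √ρ * y * sumH a (3 * y) + 3 * C1 * z₀ * sumA a (3 * y) := by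
    rw [sumA, sumH, mul_sum, mul_sum, ← sum_add_distrib]
    refine sum_le_sum fun m hm => ?_
    have hm0 : (0 : ℝ) < m := Nat.cast_pos.2 (mem_Icc.1 hm).1
    have hq : ∀ q : ℕ, m * q ∈ Ioc ⌊y⌋₊ ⌊y * (1 + ρ)⌋₊ →
        y / m < q ∧ (q : ℝ) ≤ y / m * (1 + ρ) := by
      intro q hq
      have q1 := (Nat.floor_lt hy0.le).1 (mem_Ioc.1 hq).1
      have q2 := (Nat.le_floor_iff (by positivity)).1 (mem_Ioc.1 hq).2
      push_cast at q1 q2
      constructor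
      · rw [div_lt_iff₀ hm0]
        linarith
      · rw [div_mul_eq_mul_div, le_div_iff₀ hm0]
        linarith
    have h7 : ∑ q ∈ (Icc 1 ⌊3 * y⌋₊).filter
        (fun q => IsPrimePow q ∧ m * q ∈ Ioc ⌊y⌋₊ ⌊y * (1 + ρ)⌋₊), a q * Real.log q ≤
        C2 * √ρ * (y / m) + C1 * (3 * z₀) := by
      rcases le_total z₀ (y / m) with hc | hc
      · refine le_trans (sum_le_sum_of_subset_of_nonneg ?_ fun q _ _ =>
          mul_nonneg (ha.nonneg _) (Real.log_natCast_nonneg _))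
          ((h2 a ha ρ (y / m) hρ hρ2 hc).trans (le_add_of_nonneg_right (by positivity)))
        intro q hq'
        obtain ⟨-, q2, q3⟩ := mem_filter.1 hq'
        exact mem_filter.2 ⟨mem_Ioc.2 ⟨(Nat.floor_lt (by positivity)).2 (hq q q3).1,
          Nat.le_floor (hq q q3).2⟩, q2⟩
      · refine le_trans (sum_le_sum_of_subset_of_nonneg ?_ fun q _ _ =>
          mul_nonneg (ha.nonneg _) (Real.log_natCast_nonneg _))
          ((h1 a ha (3 * z₀) (by positivity)).trans (le_add_of_nonneg_left (by positivity)))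
        intro q hq'
        obtain ⟨q1, q2, q3⟩ := mem_filter.1 hq'
        refine mem_filter.2 ⟨mem_Icc.2 ⟨(mem_Icc.1 q1).1, Nat.le_floor ((hq q q3).2.trans ?_)⟩, q2⟩
        calc y / m * (1 + ρ) ≤ z₀ * 3 := mul_le_mul hc (by linarith) (by linarith) (by linarith)
          _ = _ := by ring
    calc _ ≤ a m * (C2 * √ρ * (y / m) + C1 * (3 * z₀)) :=
          mul_le_mul_of_nonneg_left h7 (ha.nonneg m)
      _ = _ := by ring
  linarith

end Vale.Agent.P007
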