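import Mathlib

/-! # P007 N: roots of a monic polynomial modulo prime powers

Plan.  `lag_classes`: if `n + 1` integers `t_0, …, t_n` are pairwise incongruent mod `p^r` and
`p^k ∣ f(t_i)`, then in `1 = ∑_i f(t_i) / ∏_{j ≠ i} (t_i - t_j)` (`Lagrange.leadingCoeff_eq_sum`
or `Lagrange.coeff_eq_sum` over `ℚ`) every term has `padicNorm p ≤ p^(-k) p^(n (r-1)) < 1`,
against `padicNorm.sum_lt` (or work in `ℚ_[p]`).  For `r = 0` the claim is trivial.  So the
solutions lie in at most `n` classes mod `p^r`; as `r ≤ k` (from `n r < k + n`, `1 ≤ n`; the case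
`n = 0` has `f = 1`), each class has `p^(k-r)` elements in `range (p^k)` (`Nat.count_modEq_card`,
or the injection `t ↦ (t % p^r, t / p^r)`). -/

namespace Vale.Agent.P007

open Finset Polynomial

theorem lag_classes {p k r : ℕ} (hp : p.Prime) {f : ℤ[X]} (hf : f.Monic)
    (hr : f.natDegree * r < k + f.natDegree) (s : Finset ℕ) (hs : s.card = f.natDegree + 1)
    (g : ℕ → ℤ) (h1 : ∀ i ∈ s, (p : ℤ) ^ k ∣ f.eval (g i))
    (h2 : ∀ i ∈ s, ∀ j ∈ s, i ≠ j → ¬ (p : ℤ) ^ r ∣ g i - g j) : False := by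
  have := Fact.mk hp
  have hp1 : (1 : ℝ) < p := by exact_mod_cast hp.one_lt
  have hinj : Set.InjOn (fun i => (g i : ℚ_[p])) s := fun i hi j hj h => by
    by_contra hne
    refine h2 i hi j hj hne ?_
    rw [Int.cast_injective h, sub_self]
    exact dvd_zero _
  have hm := hf.map (Int.castRingHom ℚ_[p])
  have h3 := Lagrange.leadingCoeff_eq_sum hinj (P := f.map (Int.castRingHom ℚ_[p])) (by
    rw [hf.degree_map, degree_eq_natDegree hf.ne_zero, hs]
    rfl)
  rw [hm.leadingCoeff] at h3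
  obtain ⟨i, hi, h4⟩ := IsUltrametricDist.exists_norm_finsetSum_le_of_nonempty
    (card_pos.1 (show 0 < s.card by omega)) fun i => (f.map (Int.castRingHom ℚ_[p])).eval (g i : ℚ_[p]) /
      ∏ j ∈ s.erase i, ((g i : ℚ_[p]) - g j)
  rw [← h3, norm_one, norm_div, norm_prod] at h4
  have h5 : ‖(f.map (Int.castRingHom ℚ_[p])).eval (g i : ℚ_[p])‖ ≤ (p : ℝ) ^ (-k : ℤ) := by
    rw [eval_intCast_map, eq_intCast, Int.cast_id]
    exact (Padic.norm_int_le_pow_iff_dvd _ _).2 (h1 i hi)
  have h6 : ∏ _j ∈ s.erase i, (p : ℝ) ^ (-r + 1 : ℤ) ≤ ∏ j ∈ s.erase i, ‖(g i : ℚ_[p]) - g j‖ := by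
    refine prod_le_prod (fun _ _ => by positivity) fun j hj => not_lt.1 fun h => ?_
    rw [← Padic.norm_le_pow_iff_norm_lt_pow_add_one, ← Int.cast_sub,
      Padic.norm_int_le_pow_iff_dvd] at h
    exact h2 i hi j (mem_of_mem_erase hj) (ne_of_mem_erase hj).symm h
  rw [prod_const, card_erase_of_mem hi, hs, Nat.add_sub_cancel, ← zpow_natCast, ← zpow_mul] at h6
  have h7 : (0 : ℝ) < (p : ℝ) ^ ((-r + 1 : ℤ) * f.natDegree) := by positivity
  have h8 := ((one_le_div (h7.trans_le h6)).1 h4).trans h5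
  have h9 := (zpow_le_zpow_iff_right₀ hp1).1 (h6.trans h8)
  have h10 : (f.natDegree : ℤ) * r < k + f.natDegree := by exact_mod_cast hr
  linarith

theorem lag_count (p k r n : ℕ) (hp : p.Prime) (hk : 1 ≤ k) (hr : n * r < k + n) (f : ℤ[X])
    (hf : f.Monic) (hn : f.natDegree = n) :
    ((range (p ^ k)).filter (fun t : ℕ => (p : ℤ) ^ k ∣ f.eval (t : ℤ))).card * p ^ r ≤
      (n + 1) * p ^ k := by
  subst hn
  set S := (range (p ^ k)).filter (fun t : ℕ => (p : ℤ) ^ k ∣ f.eval (t : ℤ)) with hS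
  have h1 : (S.image fun t => t % p ^ r).card ≤ f.natDegree := by
    by_contra h
    obtain ⟨s, hs, hc⟩ := exists_subset_card_eq (Nat.succ_le_of_lt (not_le.1 h))
    have h2 : ∀ c : ℕ, ∃ t : ℕ, c ∈ s → (p : ℤ) ^ k ∣ f.eval (t : ℤ) ∧ t % p ^ r = c := fun c => by
      by_cases hc : c ∈ s
      · obtain ⟨t, ht, h3⟩ := mem_image.1 (hs hc)
        exact ⟨t, fun _ => ⟨(mem_filter.1 ht).2, h3⟩⟩
      · exact ⟨0, fun h => absurd h hc⟩
    choose g hg using h2
    refine lag_classes hp hf hr s hc (fun c => g c) (fun i hi => (hg i hi).1)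
      fun i hi j hj hne h3 => hne ?_
    have h4 : g j ≡ g i [MOD p ^ r] := Nat.modEq_iff_dvd.2 (by exact_mod_cast h3)
    rw [← (hg i hi).2, ← (hg j hj).2]
    exact h4.symm
  rcases Nat.eq_zero_or_pos f.natDegree with h0 | h0
  · rw [h0, Nat.le_zero, card_eq_zero, image_eq_empty] at h1
    rw [h1, card_empty, zero_mul]
    exact Nat.zero_le _
  · have hrk : r ≤ k := by
      by_contra h
      have h2 := Nat.mul_le_mul_left f.natDegree (Nat.succ_le_of_lt (not_le.1 h))
      have h3 := Nat.mul_le_mul_right k h0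
      rw [Nat.mul_succ] at h2
      omega
    have hpr : 0 < p ^ r := pow_pos hp.pos r
    have h2 : S.card ≤ p ^ (k - r) * (S.image fun t => t % p ^ r).card := by
      refine card_le_mul_card_image S _ fun c _ => ?_
      rw [← card_range (p ^ (k - r))]
      refine card_le_card_of_injOn (fun t => t / p ^ r) (fun t ht => ?_) fun t ht t' ht' h => ?_
      · have h3 := mem_range.1 (mem_filter.1 (mem_filter.1 ht).1).1
        refine mem_range.2 ((Nat.div_lt_iff_lt_mul hpr).2 ?_)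
        rwa [← pow_add, Nat.sub_add_cancel hrk]
      · rw [← Nat.mod_add_div t (p ^ r), ← Nat.mod_add_div t' (p ^ r), (mem_filter.1 ht).2,
          (mem_filter.1 ht').2]
        exact congrArg (fun x => c + p ^ r * x) h
    calc S.card * p ^ r ≤ p ^ (k - r) * (f.natDegree + 1) * p ^ r :=
          Nat.mul_le_mul_right _ (h2.trans (Nat.mul_le_mul_left _ (h1.trans (Nat.le_succ _))))
      _ = _ := by rw [mul_right_comm, ← pow_add, Nat.sub_add_cancel hrk, mul_comm]

end Vale.Agent.P007
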