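import Vale.Agent.P007.N.Ord
import Vale.Agent.P007.N.Lag

/-! # P007 N: the local bound for the number of invertible ideals of index `p^k`

Plan.  `n = finrank ℤ R ≥ 1`, `q = p^k`, `Q = R ⧸ span {q}` (a finite ring), `N = Algebra.norm ℤ`.
1. `N(x + q y) ≡ N(x) mod q` (determinant of `Algebra.leftMulMatrix b`, reduce mod `q`), and for
   fixed `y` the map `t ↦ N(y + t)` is a monic integer polynomial of degree `n`
   (`Matrix.eval_charpoly` for `-M_y`).
2. Averaging: if `B ⊆ Q` and for every `y : Q` at most `β` of the `t ∈ range q` have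
   `y + t ∈ B`, then `#B * q ≤ β * #Q` (double count the pairs `(y, t)`; translation is a
   bijection).
3. `B_k = {x | q ∣ N x}` has `#B_k * p^r ≤ (n+1) #Q` by 1, 2 and `lag_count`.
4. Units: `x` with `p ∤ N x` is a unit of `Q` (`N x ∈ span {x}`: `idx (span {x}) = |N x|` by
   `Submodule.natAbs_det_basis_change`/`AddSubgroup.index_eq_natAbs_det`, or adjugate matrix, or
   Cayley-Hamilton).  With `B_1 = {x | p ∣ N x}`: at most `n` of the residues `t mod p` are roots
   (`lag_count` with `k = r = 1` gives `n + 1`), so `#B_1 * p ≤ (n+1) #Q` and for `p ≥ 2(n+1)`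
   at least half of `Q` are units.  For `p < 2(n+1)`: `1 + p Q` consists of units and
   `#(pQ) * p^n ≥ #Q` (`Q / pQ` is a quotient of `R / pR`, of order `p^n`).  So
   `#Q ≤ (2 (n+1))^n * #Qˣ` in all cases (`2 ≤ (2(n+1))^n`).
5. For `A` invertible of index `q`, `exists_gen` gives `x₀` with `A = span {x₀} ⊔ span {q}`.  The
   set `G_A = {x₀ u | u ∈ Qˣ} ⊆ Q` has `#Qˣ ≤ q * #G_A` (fibres lie in cosets of the kernel of
   `y ↦ x₀ y`, whose image `A / q` has index `q`, so the kernel has `q` elements).  The sets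
   `G_A` are pairwise disjoint (`A` is the preimage of the ideal generated by any element of
   `G_A`) and lie in `B_k` (`x ∈ A`, `x ≠ 0` gives `idx A ∣ idx (span {x}) = |N x|`).
6. `cnt * #Qˣ ≤ q #B_k`, so `cnt * p^r ≤ (n+1) (2(n+1))^n q`. -/

namespace Vale.Agent.P007

open Finset

section

variable {R : Type} [CommRing R] [IsDomain R] [Module.Free ℤ R] [Module.Finite ℤ R]

theorem loc_idx_span {x : R} (hx : x ≠ 0) :
    idx (Ideal.span {x}) = (Algebra.norm ℤ x).natAbs := by
  rw [Algebra.norm_apply]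
  let b := Module.Free.chooseBasis ℤ R
  have h := Submodule.natAbs_det_equiv ((Ideal.span {x}).restrictScalars ℤ)
    (b.equiv (Ideal.basisSpanSingleton b hx) (Equiv.refl _))
  have h2 : idx (Ideal.span {x}) = Nat.card (R ⧸ (Ideal.span {x}).restrictScalars ℤ) := rfl
  rw [h2, ← h]
  congr
  refine b.ext fun i => ?_
  have h3 := b.equiv_apply i (Ideal.basisSpanSingleton b hx) (Equiv.refl _)
  have h4 : ((b.equiv (Ideal.basisSpanSingleton b hx) (Equiv.refl _) (b i) :
      Ideal.span {x}) : R) = x * b i := by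
    rw [h3, Equiv.refl_apply, Ideal.basisSpanSingleton_apply]
  exact h4

omit [IsDomain R] in
theorem loc_norm_congr (q : ℕ) {x y : R} (h : x - y ∈ Ideal.span {(q : R)}) :
    (q : ℤ) ∣ Algebra.norm ℤ x - Algebra.norm ℤ y := by
  classical
  obtain ⟨z, hz⟩ := Ideal.mem_span_singleton'.1 h
  have hx : x = y + z * q := by rw [hz]; ring
  let b := Module.Free.chooseBasis ℤ R
  rw [← ZMod.intCast_eq_intCast_iff_dvd_sub, Algebra.norm_eq_matrix_det b,
    Algebra.norm_eq_matrix_det b]
  have h1 := (Int.castRingHom (ZMod q)).map_det (Algebra.leftMulMatrix b x)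
  have h2 := (Int.castRingHom (ZMod q)).map_det (Algebra.leftMulMatrix b y)
  simp only [eq_intCast] at h1 h2
  rw [h1, h2, hx]
  have h3 : ((q : ℕ) : Matrix (Module.Free.ChooseBasisIndex ℤ R) (Module.Free.ChooseBasisIndex ℤ R)
      (ZMod q)) = 0 := by
    rw [← map_natCast (algebraMap (ZMod q) _), ZMod.natCast_self, map_zero]
  rw [map_add, map_mul, map_natCast, map_add, map_mul, map_natCast, h3, mul_zero, add_zero]

omit [IsDomain R] in
theorem loc_norm_poly (y : R) : ∃ f : Polynomial ℤ, f.Monic ∧ f.natDegree = Module.finrank ℤ R ∧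
    ∀ t : ℕ, f.eval (t : ℤ) = Algebra.norm ℤ (y + t) := by
  classical
  let b := Module.Free.chooseBasis ℤ R
  refine ⟨(-(Algebra.leftMulMatrix b y)).charpoly, Matrix.charpoly_monic _, ?_, fun t => ?_⟩
  · rw [Matrix.charpoly_natDegree_eq_dim, Module.finrank_eq_card_chooseBasisIndex]
  · rw [Matrix.eval_charpoly, Algebra.norm_eq_matrix_det b, map_add, map_natCast, map_natCast,
      sub_neg_eq_add, add_comm]

end

theorem loc_avg {Q : Type} [CommRing Q] [Fintype Q] [DecidableEq Q] (B : Finset Q) (m c β : ℕ)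
    (h : ∀ y : Q, ((range m).filter (fun t : ℕ => y + (t : Q) ∈ B)).card * c ≤ β) :
    B.card * m * c ≤ β * Fintype.card Q := by
  have h1 : ∑ y : Q, ((range m).filter (fun t : ℕ => y + (t : Q) ∈ B)).card = B.card * m := by
    simp only [card_filter]
    rw [sum_comm]
    have h2 : ∀ t : ℕ, (∑ y : Q, if y + (t : Q) ∈ B then 1 else 0) = B.card := by
      intro t
      have h3 := Equiv.sum_comp (Equiv.addRight (t : Q)) (fun y => if y ∈ B then (1 : ℕ) else 0)
      exact h3.trans (by simp)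
    simp only [h2]
    rw [sum_const, card_range, smul_eq_mul, mul_comm]
  rw [← h1, sum_mul]
  calc _ ≤ ∑ _y : Q, β := sum_le_sum fun y _ => h y
    _ = β * Fintype.card Q := by rw [sum_const, card_univ, smul_eq_mul, mul_comm]

theorem loc_card_ker {Q : Type} [CommRing Q] [Fintype Q] (x : Q)
    [DecidablePred fun y : Q => x * y = 0] :
    (univ.filter fun y : Q => x * y = 0).card = (AddMonoidHom.mulLeft x).range.index := by
  have h1 := (AddMonoidHom.mulLeft x).ker.card_mul_index
  have h2 := (AddMonoidHom.mulLeft x).range.card_mul_index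
  rw [AddSubgroup.index_ker] at h1
  have h3 : 0 < Nat.card (AddMonoidHom.mulLeft x).range := Nat.card_pos
  have h4 : Nat.card (AddMonoidHom.mulLeft x).ker = (AddMonoidHom.mulLeft x).range.index := by
    refine Nat.eq_of_mul_eq_mul_right h3 ?_
    rw [h1, mul_comm, h2]
  rw [← h4, ← Fintype.card_subtype, ← Nat.card_eq_fintype_card]
  rfl

section

open Classical

variable {R : Type} [CommRing R] [IsDomain R] [Module.Free ℤ R] [Module.Finite ℤ R]

/-- residues whose norm is divisible by `m` -/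
noncomputable def locB (q m : ℕ) [Fintype (R ⧸ Ideal.span {(q : R)})] :
    Finset (R ⧸ Ideal.span {(q : R)}) :=
  univ.filter fun g => ∃ x : R, Ideal.Quotient.mk _ x = g ∧ (m : ℤ) ∣ Algebra.norm ℤ x

/-- the units of the residue ring -/
noncomputable def locU (R : Type) [CommRing R] (q : ℕ) [Fintype (R ⧸ Ideal.span {(q : R)})] :
    Finset (R ⧸ Ideal.span {(q : R)}) :=
  univ.filter fun g => IsUnit g

omit [IsDomain R] in
theorem loc_card_B (q : ℕ) [Fintype (R ⧸ Ideal.span {(q : R)})] {p k r : ℕ} (hp : p.Prime)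
    (hk : 1 ≤ k) (hq : p ^ k ∣ q) (hr : Module.finrank ℤ R * r < k + Module.finrank ℤ R) :
    (locB (R := R) q (p ^ k)).card * p ^ r ≤
      (Module.finrank ℤ R + 1) * Fintype.card (R ⧸ Ideal.span {(q : R)}) := by
  have h := loc_avg (locB (R := R) q (p ^ k)) (p ^ k) (p ^ r) ((Module.finrank ℤ R + 1) * p ^ k) ?_
  · have hpos : 0 < p ^ k := pow_pos hp.pos k
    refine Nat.le_of_mul_le_mul_right ?_ hpos
    calc _ = (locB (R := R) q (p ^ k)).card * p ^ k * p ^ r := by ring
      _ ≤ _ := h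
      _ = _ := by ring
  · intro y
    obtain ⟨y, rfl⟩ := Ideal.Quotient.mk_surjective y
    obtain ⟨f, hf, hd, he⟩ := loc_norm_poly y
    refine le_trans (Nat.mul_le_mul_right _ (card_le_card ?_)) (lag_count p k r _ hp hk hr f hf hd)
    intro t ht
    rw [mem_filter] at ht ⊢
    refine ⟨ht.1, ?_⟩
    obtain ⟨x, hx, hdv⟩ := (mem_filter.1 ht.2).2
    have h1 : y + t - x ∈ Ideal.span {(q : R)} := by
      rw [← Ideal.Quotient.eq, map_add, map_natCast, hx]
    have h2 := loc_norm_congr q h1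
    have h3 : ((p ^ k : ℕ) : ℤ) ∣ (q : ℤ) := Int.natCast_dvd_natCast.2 hq
    have h4 := dvd_add (h3.trans h2) hdv
    rw [sub_add_cancel, ← he] at h4
    exact_mod_cast h4

theorem loc_unit {p k : ℕ} (hp : p.Prime) {x : R} (hx : ¬ (p : ℤ) ∣ Algebra.norm ℤ x) :
    IsUnit (Ideal.Quotient.mk (Ideal.span {((p ^ k : ℕ) : R)}) x) := by
  have hx0 : x ≠ 0 := by
    rintro rfl
    rw [Algebra.norm_zero] at hx
    exact hx (dvd_zero _)
  have h1 := natCast_idx_mem (Ideal.span {x})
  rw [loc_idx_span hx0] at h1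
  have h2 : (Algebra.norm ℤ x).natAbs.Coprime (p ^ k) := by
    refine Nat.Coprime.pow_right k ?_
    rw [Nat.coprime_comm, hp.coprime_iff_not_dvd]
    intro h
    exact hx (Int.natCast_dvd.2 h)
  obtain ⟨u, v, huv⟩ := (Nat.Coprime.cast (R := R ⧸ Ideal.span {((p ^ k : ℕ) : R)}) h2)
  have h3 : ((p ^ k : ℕ) : R ⧸ Ideal.span {((p ^ k : ℕ) : R)}) = 0 := by
    rw [← map_natCast (Ideal.Quotient.mk _), Ideal.Quotient.eq_zero_iff_mem]
    exact Ideal.mem_span_singleton_self _
  rw [h3, mul_zero, add_zero] at huv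
  obtain ⟨z, hz⟩ := Ideal.mem_span_singleton'.1 h1
  rw [← map_natCast (Ideal.Quotient.mk _), ← hz, map_mul, ← mul_assoc] at huv
  exact IsUnit.of_mul_eq_one_right _ huv

theorem loc_natCast_ne_zero {m : ℕ} (hm : m ≠ 0) : (m : R) ≠ 0 := by
  intro h
  have h1 := Algebra.norm_natCast ℤ (S := R) m
  rw [h, Algebra.norm_zero] at h1
  exact pow_ne_zero _ (Int.natCast_ne_zero.2 hm) h1.symm

theorem loc_card_U {p k : ℕ} [Fintype (R ⧸ Ideal.span {((p ^ k : ℕ) : R)})] (hp : p.Prime)
    (hk : 1 ≤ k) :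
    Fintype.card (R ⧸ Ideal.span {((p ^ k : ℕ) : R)}) ≤
      2 * (2 * (Module.finrank ℤ R + 1)) ^ Module.finrank ℤ R * (locU R (p ^ k)).card := by
  have hone : 1 ≤ (2 * (Module.finrank ℤ R + 1)) ^ Module.finrank ℤ R :=
    Nat.one_le_pow _ _ (by omega)
  by_cases hbig : 2 * (Module.finrank ℤ R + 1) ≤ p
  · have h1 := loc_card_B (R := R) (p ^ k) (k := 1) (r := 1) hp le_rfl (pow_dvd_pow p hk)
      (by omega)
    have h2 : Fintype.card (R ⧸ Ideal.span {((p ^ k : ℕ) : R)}) ≤
        (locU R (p ^ k)).card + (locB (R := R) (p ^ k) (p ^ 1)).card := by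
      rw [← card_univ]
      refine le_trans (card_le_card ?_) (card_union_le _ _)
      intro g _
      obtain ⟨x, rfl⟩ := Ideal.Quotient.mk_surjective g
      rw [mem_union]
      by_cases hx : (p : ℤ) ∣ Algebra.norm ℤ x
      · right
        exact mem_filter.2 ⟨mem_univ _, x, rfl, by simpa using hx⟩
      · left
        exact mem_filter.2 ⟨mem_univ _, loc_unit hp hx⟩
    rw [pow_one] at h1 h2
    have h3 : (Module.finrank ℤ R + 1) * (2 * (locB (R := R) (p ^ k) p).card) ≤
        (Module.finrank ℤ R + 1) * Fintype.card (R ⧸ Ideal.span {((p ^ k : ℕ) : R)}) := by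
      refine le_trans ?_ h1
      calc _ = (locB (R := R) (p ^ k) p).card * (2 * (Module.finrank ℤ R + 1)) := by ring
        _ ≤ _ := Nat.mul_le_mul_left _ hbig
    have h4 := Nat.le_of_mul_le_mul_left h3 (by omega)
    calc _ ≤ 2 * 1 * (locU R (p ^ k)).card := by omega
      _ ≤ _ := by gcongr
  · have hle : Ideal.span {((p ^ k : ℕ) : R)} ≤ Ideal.span {(p : R)} := by
      rw [Ideal.span_singleton_le_span_singleton, Nat.cast_pow]
      exact dvd_pow_self _ (by omega)
    have hp0 : (p : R) ≠ 0 := loc_natCast_ne_zero hp.ne_zero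
    have : Finite (R ⧸ Ideal.span {(p : R)}) :=
      Ideal.finiteQuotientOfFreeOfNeBot _ (mt Ideal.span_singleton_eq_bot.1 hp0)
    let : Fintype (R ⧸ Ideal.span {(p : R)}) := Fintype.ofFinite _
    have hc : (univ : Finset (R ⧸ Ideal.span {(p : R)})).card = p ^ Module.finrank ℤ R := by
      rw [card_univ, ← Nat.card_eq_fintype_card]
      have h1 : Nat.card (R ⧸ Ideal.span {(p : R)}) = idx (Ideal.span {(p : R)}) := rfl
      rw [h1, loc_idx_span hp0, Algebra.norm_natCast, Int.natAbs_pow, Int.natAbs_natCast]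
    have h2 := card_le_mul_card_image_of_maps_to (f := Ideal.Quotient.factor hle)
      (s := univ) (t := univ) (fun _ _ => mem_univ _) (locU R (p ^ k)).card ?_
    · rw [card_univ, hc] at h2
      refine h2.trans ?_
      have h3 : p ^ Module.finrank ℤ R ≤ (2 * (Module.finrank ℤ R + 1)) ^ Module.finrank ℤ R :=
        Nat.pow_le_pow_left (by omega) _
      calc _ = 1 * p ^ Module.finrank ℤ R * (locU R (p ^ k)).card := by ring
        _ ≤ _ := by gcongr; norm_num
    · intro c _
      rcases (univ.filter fun a => Ideal.Quotient.factor hle a = c).eq_empty_or_nonempty with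
        he | ⟨a0, ha0⟩
      · rw [he]; simp
      refine card_le_card_of_injOn (fun a => 1 + (a - a0)) ?_ ?_
      · intro a ha
        have h3 := (mem_filter.1 (mem_coe.1 ha)).2
        have h4 := (mem_filter.1 ha0).2
        obtain ⟨x, rfl⟩ := Ideal.Quotient.mk_surjective a
        obtain ⟨x0, rfl⟩ := Ideal.Quotient.mk_surjective a0
        rw [← h4, Ideal.Quotient.factor_mk, Ideal.Quotient.factor_mk, Ideal.Quotient.eq] at h3
        obtain ⟨z, hz⟩ := Ideal.mem_span_singleton'.1 h3
        refine mem_coe.2 (mem_filter.2 ⟨mem_univ _, IsNilpotent.isUnit_one_add ⟨k, ?_⟩⟩)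
        rw [← map_sub, ← hz, ← map_pow, Ideal.Quotient.eq_zero_iff_mem, mul_pow, Nat.cast_pow]
        exact Ideal.mul_mem_left _ _ (Ideal.mem_span_singleton_self _)
      · intro a _ c _ h
        simpa using h

theorem loc_fibre {q : ℕ} [Fintype (R ⧸ Ideal.span {(q : R)})] (hq : q ≠ 0) {A : Ideal R}
    (hA : Inv A) (hi : idx A = q) :
    (locU R q).card ≤ q * ((locB (R := R) q q).filter
      fun g => Ideal.comap (Ideal.Quotient.mk _) (Ideal.span {g}) = A).card := by
  obtain ⟨x0, hx0, hgen⟩ := exists_gen hA q hq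
  have hqA : (q : R) ∈ A := hi ▸ natCast_idx_mem A
  have hgen2 : A = Ideal.span {x0} ⊔ Ideal.span {(q : R)} := by
    refine le_antisymm ?_ ?_
    · exact hgen.le.trans (sup_le_sup_left Ideal.mul_le_left _)
    · exact sup_le ((Ideal.span_singleton_le_iff_mem _).2 hx0)
        ((Ideal.span_singleton_le_iff_mem _).2 hqA)
  have hcomap : Ideal.comap (Ideal.Quotient.mk (Ideal.span {(q : R)}))
      (Ideal.span {Ideal.Quotient.mk (Ideal.span {(q : R)}) x0}) = A := by
    have h1 : Ideal.span {Ideal.Quotient.mk (Ideal.span {(q : R)}) x0} =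
        (Ideal.span {x0}).map (Ideal.Quotient.mk (Ideal.span {(q : R)})) := by
      rw [Ideal.map_span, Set.image_singleton]
    rw [h1, Ideal.comap_map_of_surjective _ Ideal.Quotient.mk_surjective, ← RingHom.ker_eq_comap_bot,
      Ideal.mk_ker, ← hgen2]
  have hker : (univ.filter fun y : R ⧸ Ideal.span {(q : R)} =>
      Ideal.Quotient.mk (Ideal.span {(q : R)}) x0 * y = 0).card = q := by
    rw [loc_card_ker, ← AddSubgroup.index_comap_of_surjective _
      (f := (Ideal.Quotient.mk (Ideal.span {(q : R)})).toAddMonoidHom) Ideal.Quotient.mk_surjective]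
    conv_rhs => rw [← hi]
    unfold idx
    congr 1
    ext x
    rw [← hcomap]
    simp only [AddSubgroup.mem_comap, AddMonoidHom.mem_range, AddMonoidHom.coe_mulLeft,
      Submodule.mem_toAddSubgroup, Ideal.mem_comap, Ideal.mem_span_singleton', mul_comm]
    rfl
  refine card_le_mul_card_image_of_maps_to
    (f := fun u => Ideal.Quotient.mk (Ideal.span {(q : R)}) x0 * u) ?_ q ?_
  · intro u hu
    have hu1 : IsUnit u := (mem_filter.1 hu).2
    refine mem_filter.2 ⟨mem_filter.2 ⟨mem_univ _, ?_⟩, ?_⟩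
    · obtain ⟨u0, rfl⟩ := Ideal.Quotient.mk_surjective u
      refine ⟨x0 * u0, map_mul _ _ _, ?_⟩
      by_cases h0 : x0 * u0 = 0
      · rw [h0, Algebra.norm_zero]; exact dvd_zero _
      · have h1 : Ideal.span {x0 * u0} ≤ A :=
          (Ideal.span_singleton_le_iff_mem _).2 (A.mul_mem_right _ hx0)
        have h2 : idx A ∣ idx (Ideal.span {x0 * u0}) := AddSubgroup.index_dvd_of_le h1
        rw [hi, loc_idx_span h0] at h2
        exact Int.natCast_dvd.2 h2
    · rw [Ideal.span_singleton_mul_right_unit hu1, hcomap]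
  · intro c _
    rcases ((locU R q).filter fun u =>
        Ideal.Quotient.mk (Ideal.span {(q : R)}) x0 * u = c).eq_empty_or_nonempty with
      he | ⟨a0, ha0⟩
    · rw [he]; simp
    refine le_trans (card_le_card_of_injOn (fun a => a - a0) ?_ ?_) hker.le
    · intro a ha
      have h3 := (mem_filter.1 (mem_coe.1 ha)).2
      have h4 := (mem_filter.1 ha0).2
      refine mem_coe.2 (mem_filter.2 ⟨mem_univ _, ?_⟩)
      rw [mul_sub, h3, h4, sub_self]
    · intro a _ c _ h
      simpa using h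

theorem loc_main {p k r : ℕ} (hp : p.Prime) (hk : 1 ≤ k)
    (hr : Module.finrank ℤ R * r < k + Module.finrank ℤ R) :
    cnt R (p ^ k) * p ^ r ≤ (Module.finrank ℤ R + 1) *
      (2 * (2 * (Module.finrank ℤ R + 1)) ^ Module.finrank ℤ R) * p ^ k := by
  have hq : p ^ k ≠ 0 := pow_ne_zero k hp.ne_zero
  have : Finite (R ⧸ Ideal.span {((p ^ k : ℕ) : R)}) :=
    Ideal.finiteQuotientOfFreeOfNeBot _
      (mt Ideal.span_singleton_eq_bot.1 (loc_natCast_ne_zero hq))
  let : Fintype (R ⧸ Ideal.span {((p ^ k : ℕ) : R)}) := Fintype.ofFinite _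
  have hfin : {A : Ideal R | Inv A ∧ idx A = p ^ k}.Finite :=
    (finite_idx (p ^ k) hq).subset fun A hA => hA.2
  have h1 : cnt R (p ^ k) * (locU R (p ^ k)).card ≤
      p ^ k * (locB (R := R) (p ^ k) (p ^ k)).card := by
    unfold cnt
    rw [Set.ncard_eq_toFinset_card _ hfin]
    calc _ = ∑ _A ∈ hfin.toFinset, (locU R (p ^ k)).card := by rw [sum_const, smul_eq_mul]
      _ ≤ ∑ A ∈ hfin.toFinset, p ^ k * ((locB (R := R) (p ^ k) (p ^ k)).filter
          fun g => Ideal.comap (Ideal.Quotient.mk _) (Ideal.span {g}) = A).card := by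
        refine sum_le_sum fun A hA => ?_
        have h2 := (hfin.mem_toFinset).1 hA
        exact loc_fibre hq h2.1 h2.2
      _ ≤ _ := by
        rw [← mul_sum, sum_card_fiberwise_eq_card_filter]
        exact Nat.mul_le_mul_left _ (card_filter_le _ _)
  have h2 := loc_card_B (R := R) (p ^ k) hp hk dvd_rfl hr
  have h3 := loc_card_U (R := R) hp hk
  have h4 : 0 < (locU R (p ^ k)).card :=
    card_pos.2 ⟨1, mem_filter.2 ⟨mem_univ _, isUnit_one⟩⟩
  refine Nat.le_of_mul_le_mul_right ?_ h4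
  calc cnt R (p ^ k) * p ^ r * (locU R (p ^ k)).card
      = cnt R (p ^ k) * (locU R (p ^ k)).card * p ^ r := by ring
    _ ≤ p ^ k * (locB (R := R) (p ^ k) (p ^ k)).card * p ^ r := Nat.mul_le_mul_right _ h1
    _ = p ^ k * ((locB (R := R) (p ^ k) (p ^ k)).card * p ^ r) := by ring
    _ ≤ p ^ k * ((Module.finrank ℤ R + 1) *
          (2 * (2 * (Module.finrank ℤ R + 1)) ^ Module.finrank ℤ R * (locU R (p ^ k)).card)) :=
        Nat.mul_le_mul_left _ (h2.trans (Nat.mul_le_mul_left _ h3))
    _ = _ := by ring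

end

theorem cnt_loc (n : ℕ) : ∃ C : ℝ, 0 < C ∧
    ∀ (R : Type) [CommRing R] [IsDomain R] [Module.Free ℤ R] [Module.Finite ℤ R],
      Module.finrank ℤ R = n → ∀ p k r : ℕ, p.Prime → 1 ≤ k → n * r < k + n →
        (cnt R (p ^ k) : ℝ) * (p : ℝ) ^ r ≤ C * (p : ℝ) ^ k := by
  refine ⟨((n + 1) * (2 * (2 * (n + 1)) ^ n) : ℕ), by positivity, ?_⟩
  intro R _ _ _ _ hn p k r hp hk hr
  subst hn
  exact_mod_cast loc_main (R := R) hp hk hr

end Vale.Agent.P007
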