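import Vale.Agent.P007.N.Alg0

/-! # P007 N: invertible ideals of an order: finiteness, local generators, multiplicativity

Plan.
* `natCast_idx_mem`: `AddSubgroup.nsmul_index_mem` at `1`.
* `finite_idx`: an ideal of index `m ≠ 0` contains `m`, so it is the comap of an ideal of the
  finite ring `R ⧸ span {m}` (finite because `R` is a finite `ℤ`-module:
  `Module.finite_of_finite`/`Module.finite_of_fg_torsion`/`Ideal.finiteQuotientOfFreeOfNeBot`).
* `exists_gen`: let `A * B = span {c}`.  The maximal ideals containing `N` form a finite set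
  (finite quotient ring).  For each such `𝔪` there are `a ∈ A`, `b ∈ B` with `a b = c e`,
  `e ∉ 𝔪` (else `span {c} = A B ≤ c 𝔪`, so `1 ∈ 𝔪`), and there is `f 𝔪 ∉ 𝔪` lying in all the other
  maximal ideals of the set.  Put `x = ∑ f 𝔪 * a 𝔪`.  The ideal `I = {r | c r ∈ span {x} * B}` is in
  no such `𝔪`, so `I ⊔ span {N} = ⊤`, i.e. `span {c} = span {x} * B ⊔ span {N} * span {c}`.
  Multiply by `A` and cancel `c`.
* `cnt_mul`: the maps `A ↦ (A ⊔ span {m}, A ⊔ span {q})` and `(A₁, A₂) ↦ A₁ * A₂ = A₁ ⊓ A₂` are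
  mutually inverse.  `(A ⊔ (m)) * (A ⊔ (q)) = A` as `m q ∈ A` and `(m) ⊔ (q) = ⊤`; a factor of an
  invertible ideal is invertible; `idx (A₁ ⊓ A₂) = idx A₁ * idx A₂` for coprime ideals
  (`Ideal.quotientInfEquivQuotientProd`, or `AddSubgroup.index_inf_of_coprime`-type lemmas);
  `idx (A ⊔ (m))` divides `m q` and is coprime to `q` (the quotient group is killed by `m`:
  Cauchy, `exists_prime_addOrderOf_dvd_card`), same for the other factor, and the product is
  `m q`; so the indices are `m` and `q`. -/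

namespace Vale.Agent.P007

variable {R : Type} [CommRing R]

theorem natCast_idx_mem (A : Ideal R) : (idx A : R) ∈ A := by
  have h := A.toAddSubgroup.nsmul_index_mem (1 : R)
  rw [nsmul_eq_mul, mul_one] at h
  exact h

theorem Inv.of_mul {A B : Ideal R} (h : Inv (A * B)) : Inv A := by
  obtain ⟨C, c, hc, h⟩ := h
  exact ⟨B * C, c, hc, by rw [← mul_assoc, h]⟩

theorem Inv.mul [IsDomain R] {A B : Ideal R} (hA : Inv A) (hB : Inv B) : Inv (A * B) := by
  obtain ⟨C, c, hc, h⟩ := hA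
  obtain ⟨D, d, hd, h'⟩ := hB
  refine ⟨C * D, c * d, mul_ne_zero hc hd, ?_⟩
  rw [mul_mul_mul_comm, h, h', Ideal.span_singleton_mul_span_singleton]

theorem Inv.ne_bot {A : Ideal R} (h : Inv A) : A ≠ ⊥ := by
  obtain ⟨C, c, hc, h⟩ := h
  rintro rfl
  rw [Ideal.bot_mul, eq_comm, Ideal.span_singleton_eq_bot] at h
  exact hc h

theorem ord_idx_eq_card (A : Ideal R) : idx A = Nat.card (R ⧸ A) := rfl

theorem ord_idx_mul {A B : Ideal R} (h : A ⊔ B = ⊤) : idx (A * B) = idx A * idx B := by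
  have h1 : (A * B).toAddSubgroup = A.toAddSubgroup ⊓ B.toAddSubgroup := by
    rw [Ideal.mul_eq_inf_of_coprime h]
    rfl
  have h2 : B.toAddSubgroup ⊔ A.toAddSubgroup = ⊤ := by
    rw [eq_top_iff]
    intro x _
    have hx : x ∈ A ⊔ B := h ▸ Submodule.mem_top
    obtain ⟨a, ha, b, hb, rfl⟩ := Submodule.mem_sup.1 hx
    exact AddSubgroup.add_mem _ (AddSubgroup.mem_sup_right ha) (AddSubgroup.mem_sup_left hb)
  unfold idx
  rw [h1, ← AddSubgroup.relIndex_mul_index (inf_le_right :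
    A.toAddSubgroup ⊓ B.toAddSubgroup ≤ B.toAddSubgroup), AddSubgroup.inf_relIndex_right,
    ← AddSubgroup.relIndex_sup_right B.toAddSubgroup A.toAddSubgroup, h2,
    AddSubgroup.relIndex_top_right]

theorem ord_sup_top {m q : ℕ} (h : m.Coprime q) {A B : Ideal R} (hA : (m : R) ∈ A)
    (hB : (q : R) ∈ B) : A ⊔ B = ⊤ := by
  obtain ⟨u, v, huv⟩ : IsCoprime (m : R) (q : R) := Nat.Coprime.cast h
  rw [Ideal.eq_top_iff_one, ← huv]
  exact Ideal.add_mem _ (Ideal.mem_sup_left (A.mul_mem_left _ hA))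
    (Ideal.mem_sup_right (B.mul_mem_left _ hB))

theorem ord_coprime {m q : ℕ} (h : m.Coprime q) {A : Ideal R} (hA : (m : R) ∈ A)
    (h0 : idx A ≠ 0) : (idx A).Coprime q := by
  rw [ord_idx_eq_card] at h0 ⊢
  have : Finite (R ⧸ A) := Nat.finite_of_card_ne_zero h0
  refine Nat.coprime_of_dvd fun p hp h1 h2 => ?_
  have := Fact.mk hp
  obtain ⟨x, hx⟩ := exists_prime_addOrderOf_dvd_card' (G := R ⧸ A) p h1
  have hm : m • x = 0 := by
    have : (m : R ⧸ A) = 0 := by
      rw [← map_natCast (Ideal.Quotient.mk A), Ideal.Quotient.eq_zero_iff_mem]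
      exact hA
    rw [nsmul_eq_mul, this, zero_mul]
  have hpm : p ∣ m := hx ▸ addOrderOf_dvd_of_nsmul_eq_zero hm
  exact hp.one_lt.ne' (Nat.eq_one_of_dvd_coprimes h hpm h2)

theorem ord_recover {m : ℕ} {A B : Ideal R} (hA : (m : R) ∈ A)
    (h : B ⊔ Ideal.span {(m : R)} = ⊤) : A * B ⊔ Ideal.span {(m : R)} = A := by
  apply le_antisymm
  · exact sup_le Ideal.mul_le_left ((Ideal.span_singleton_le_iff_mem _).2 hA)
  · calc A = A * (B ⊔ Ideal.span {(m : R)}) := by rw [h, Ideal.mul_top]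
      _ = A * B ⊔ A * Ideal.span {(m : R)} := Ideal.mul_sup _ _ _
      _ ≤ _ := sup_le_sup_left Ideal.mul_le_right _

theorem ord_split {m q : ℕ} (h : m.Coprime q) {A : Ideal R} (hA : ((m * q : ℕ) : R) ∈ A) :
    (A ⊔ Ideal.span {(m : R)}) * (A ⊔ Ideal.span {(q : R)}) = A := by
  have ht : Ideal.span {(m : R)} ⊔ Ideal.span {(q : R)} = ⊤ :=
    ord_sup_top h (Ideal.mem_span_singleton_self _) (Ideal.mem_span_singleton_self _)
  apply le_antisymm
  · rw [Ideal.sup_mul, Ideal.mul_sup, Ideal.mul_sup]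
    refine sup_le (sup_le Ideal.mul_le_left Ideal.mul_le_left) (sup_le Ideal.mul_le_right ?_)
    rw [Ideal.span_singleton_mul_span_singleton, Ideal.span_singleton_le_iff_mem]
    exact_mod_cast hA
  · calc A = A * (Ideal.span {(m : R)} ⊔ Ideal.span {(q : R)}) := by rw [ht, Ideal.mul_top]
      _ = Ideal.span {(m : R)} * A ⊔ A * Ideal.span {(q : R)} := by
        rw [Ideal.mul_sup, mul_comm]
      _ ≤ _ := sup_le (Ideal.mul_mono le_sup_right le_sup_left)
        (Ideal.mul_mono le_sup_left le_sup_right)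

/-- an element of `A` generating `A` locally at finitely many maximal ideals -/
theorem ord_avoid [IsDomain R] {A B : Ideal R} {c : R} (hc : c ≠ 0)
    (h : A * B = Ideal.span {c}) (S : Finset (Ideal R)) (hS : ∀ P ∈ S, P.IsMaximal) :
    ∃ x ∈ A, ∀ P ∈ S, ¬ (Ideal.span {x} * B ≤ Ideal.span {c} * P) := by
  classical
  have key : ∀ P : Ideal R, ∀ f ∈ P, ∀ a ∈ A,
      Ideal.span {f * a} * B ≤ Ideal.span {c} * P := by
    intro P f hf a ha
    rw [← h, ← Ideal.span_singleton_mul_span_singleton, mul_assoc, mul_comm (A * B)]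
    exact Ideal.mul_mono ((Ideal.span_singleton_le_iff_mem _).2 hf)
      (Ideal.mul_mono_left ((Ideal.span_singleton_le_iff_mem _).2 ha))
  have hadd : ∀ (J : Ideal R) (x y : R), Ideal.span {x} * B ≤ J → Ideal.span {y} * B ≤ J →
      Ideal.span {x + y} * B ≤ J := by
    intro J x y hx hy
    have : Ideal.span {x + y} ≤ Ideal.span {x} ⊔ Ideal.span {y} :=
      (Ideal.span_singleton_le_iff_mem _).2 (Ideal.add_mem _
        (Ideal.mem_sup_left (Ideal.mem_span_singleton_self _))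
        (Ideal.mem_sup_right (Ideal.mem_span_singleton_self _)))
    refine (Ideal.mul_mono_left this).trans ?_
    rw [Ideal.sup_mul]
    exact sup_le hx hy
  have hmul : ∀ (J : Ideal R) (u x : R), Ideal.span {x} * B ≤ J →
      Ideal.span {u * x} * B ≤ J := by
    intro J u x hx
    refine (Ideal.mul_mono_left ?_).trans hx
    exact (Ideal.span_singleton_le_iff_mem _).2
      (Ideal.mul_mem_left _ _ (Ideal.mem_span_singleton_self _))
  induction S using Finset.induction_on with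
  | empty => exact ⟨0, A.zero_mem, by simp⟩
  | insert P S hPS ih =>
    obtain ⟨x, hxA, hx⟩ := ih fun Q hQ => hS Q (Finset.mem_insert_of_mem hQ)
    have hP := hS P (Finset.mem_insert_self _ _)
    by_cases hxP : Ideal.span {x} * B ≤ Ideal.span {c} * P
    swap
    · refine ⟨x, hxA, fun Q hQ => ?_⟩
      rcases Finset.mem_insert.1 hQ with rfl | hQ
      · exact hxP
      · exact hx Q hQ
    obtain ⟨a, haA, ha⟩ : ∃ a ∈ A, ¬ (Ideal.span {a} * B ≤ Ideal.span {c} * P) := by
      by_contra hcon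
      push Not at hcon
      have h1 : A * B ≤ Ideal.span {c} * P :=
        Ideal.mul_le.2 fun r hr s hs =>
          hcon r hr (Ideal.mul_mem_mul (Ideal.mem_span_singleton_self _) hs)
      have h2 : c ∈ Ideal.span {c} * P := h1 (h ▸ Ideal.mem_span_singleton_self _)
      obtain ⟨z, hz, hz'⟩ := Ideal.mem_span_singleton_mul.1 h2
      have : z = 1 := mul_left_cancel₀ hc (by rw [hz', mul_one])
      exact hP.ne_top ((Ideal.eq_top_iff_one _).2 (this ▸ hz))
    obtain ⟨f, hf, hfP⟩ : ∃ f ∈ ∏ Q ∈ S, Q, f ∉ P := by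
      by_contra hcon
      push Not at hcon
      obtain ⟨Q, hQ, hQP⟩ := (hP.isPrime.prod_le (s := S) (f := fun Q => Q)).1 hcon
      have := (hS Q (Finset.mem_insert_of_mem hQ)).eq_of_le hP.ne_top hQP
      exact hPS (this ▸ hQ)
    refine ⟨x + f * a, A.add_mem hxA (A.mul_mem_left _ haA), fun Q hQ hcon => ?_⟩
    rcases Finset.mem_insert.1 hQ with rfl | hQ
    · obtain ⟨u, w, hw, huw⟩ := hP.exists_inv hfP
      have h1 := hadd _ _ _ hcon (hmul _ (-1) _ hxP)
      have h2 := hadd _ _ _ (hmul _ u _ h1) (key Q w hw a haA)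
      apply ha
      have e : u * (x + f * a + -1 * x) + w * a = a := by
        linear_combination a * huw
      rwa [e] at h2
    · have hfQ : f ∈ Q := (Ideal.prod_le_inf.trans (Finset.inf_le hQ)) hf
      have h1 := hadd _ _ _ hcon (hmul _ (-1) _ (key Q f hfQ a haA))
      apply hx Q hQ
      have e : x + f * a + -1 * (f * a) = x := by ring
      rwa [e] at h1

variable [IsDomain R] [Module.Free ℤ R] [Module.Finite ℤ R]

theorem idx_ne_zero {A : Ideal R} (h : A ≠ ⊥) : idx A ≠ 0 := by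
  have := A.finiteQuotientOfFreeOfNeBot h
  rw [ord_idx_eq_card]
  exact Nat.card_pos.ne'

omit [Module.Finite ℤ R] in
theorem ord_natCast_ne_zero {m : ℕ} (hm : m ≠ 0) : (m : R) ≠ 0 := by
  intro h
  have h1 : (m : ℤ) • (1 : R) = 0 := by simpa using h
  rcases smul_eq_zero.1 h1 with h2 | h2
  · exact hm (by exact_mod_cast h2)
  · exact one_ne_zero h2

theorem ord_finite_mem {m : ℕ} (hm : m ≠ 0) : {A : Ideal R | (m : R) ∈ A}.Finite := by
  have hne : Ideal.span {(m : R)} ≠ ⊥ := by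
    rw [Ne, Ideal.span_singleton_eq_bot]
    exact ord_natCast_ne_zero hm
  have := (Ideal.span {(m : R)}).finiteQuotientOfFreeOfNeBot hne
  refine (Set.finite_range fun J : Ideal (R ⧸ Ideal.span {(m : R)}) =>
    J.comap (Ideal.Quotient.mk _)).subset fun A hA => ⟨A.map (Ideal.Quotient.mk _), ?_⟩
  show (A.map (Ideal.Quotient.mk _)).comap _ = A
  rw [Ideal.comap_map_of_surjective _ Ideal.Quotient.mk_surjective, ← RingHom.ker_eq_comap_bot,
    Ideal.mk_ker]
  exact sup_eq_left.2 ((Ideal.span_singleton_le_iff_mem _).2 hA)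

theorem finite_idx (m : ℕ) (hm : m ≠ 0) : {A : Ideal R | idx A = m}.Finite := by
  refine (ord_finite_mem (R := R) hm).subset fun A hA => ?_
  have h := natCast_idx_mem A
  rwa [show idx A = m from hA] at h

theorem exists_gen {A : Ideal R} (hA : Inv A) (N : ℕ) (hN : N ≠ 0) :
    ∃ x ∈ A, A = Ideal.span {x} ⊔ Ideal.span {(N : R)} * A := by
  obtain ⟨B, c, hc, h⟩ := hA
  have hfin : {P : Ideal R | (N : R) ∈ P ∧ P.IsMaximal}.Finite :=
    (ord_finite_mem hN).subset fun P hP => hP.1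
  obtain ⟨x, hxA, hx⟩ := ord_avoid hc h hfin.toFinset fun P hP => (hfin.mem_toFinset.1 hP).2
  refine ⟨x, hxA, le_antisymm ?_ (sup_le ((Ideal.span_singleton_le_iff_mem _).2 hxA)
    Ideal.mul_le_right)⟩
  have htop : (Ideal.span {x}).colon A ⊔ Ideal.span {(N : R)} = ⊤ := by
    by_contra hne
    obtain ⟨P, hP, hle⟩ := Ideal.exists_le_maximal _ hne
    have hNP : (N : R) ∈ P := hle (Ideal.mem_sup_right (Ideal.mem_span_singleton_self _))
    apply hx P (hfin.mem_toFinset.2 ⟨hNP, hP⟩)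
    rw [Ideal.span_singleton_mul_le_iff]
    intro b hb
    have h1 : x * b ∈ Ideal.span {c} := h ▸ Ideal.mul_mem_mul hxA hb
    obtain ⟨e, he⟩ := Ideal.mem_span_singleton'.1 h1
    refine Ideal.mem_span_singleton_mul.2 ⟨e, hle (Ideal.mem_sup_left ?_), by rw [← he, mul_comm]⟩
    rw [Submodule.mem_colon]
    intro a ha
    have h2 : a * b ∈ Ideal.span {c} := h ▸ Ideal.mul_mem_mul ha hb
    obtain ⟨t, ht⟩ := Ideal.mem_span_singleton'.1 h2
    refine Ideal.mem_span_singleton'.2 ⟨t, mul_left_cancel₀ hc ?_⟩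
    rw [smul_eq_mul]
    linear_combination x * ht - a * he
  intro a ha
  obtain ⟨i, hi, n, hn, hin⟩ := Submodule.mem_sup.1 ((Ideal.eq_top_iff_one _).1 htop)
  have e : a = i * a + n * a := by rw [← add_mul, hin, one_mul]
  rw [e]
  exact Ideal.add_mem _ (Ideal.mem_sup_left (Submodule.mem_colon.1 hi a ha))
    (Ideal.mem_sup_right (Ideal.mul_mem_mul hn ha))

theorem cnt_mul (m q : ℕ) (hm : m ≠ 0) (hq : q ≠ 0) (h : m.Coprime q) :
    cnt R (m * q) = cnt R m * cnt R q := by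
  unfold cnt
  rw [← Set.ncard_prod]
  symm
  have hmem : ∀ {A : Ideal R} {k : ℕ}, idx A = k → (k : R) ∈ A := fun {A k} hk =>
    hk ▸ natCast_idx_mem A
  apply Set.BijOn.ncard_eq (f := fun p : Ideal R × Ideal R => p.1 * p.2)
  refine ⟨?_, ?_, ?_⟩
  · rintro ⟨A, B⟩ ⟨⟨hA, hA'⟩, ⟨hB, hB'⟩⟩
    refine ⟨hA.mul hB, ?_⟩
    show idx (A * B) = m * q
    rw [ord_idx_mul (ord_sup_top h (hmem hA') (hmem hB')), hA', hB']
  · rintro ⟨A, B⟩ ⟨⟨-, hA⟩, ⟨-, hB⟩⟩ ⟨A', B'⟩ ⟨⟨-, hA'⟩, ⟨-, hB'⟩⟩ he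
    have he' : A * B = A' * B' := he
    dsimp only at hA hB hA' hB'
    have s1 : ∀ {C : Ideal R}, idx C = q → C ⊔ Ideal.span {(m : R)} = ⊤ := fun hC =>
      ord_sup_top h.symm (hmem hC) (Ideal.mem_span_singleton_self _)
    have s2 : ∀ {C : Ideal R}, idx C = m → C ⊔ Ideal.span {(q : R)} = ⊤ := fun hC =>
      ord_sup_top h (hmem hC) (Ideal.mem_span_singleton_self _)
    refine Prod.ext ?_ ?_
    · show A = A'
      rw [← ord_recover (hmem hA) (s1 hB), he', ord_recover (hmem hA') (s1 hB')]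
    · show B = B'
      rw [← ord_recover (hmem hB) (s2 hA), mul_comm, he', mul_comm,
        ord_recover (hmem hB') (s2 hA')]
  · rintro A ⟨hA, hA'⟩
    have hs := ord_split h (hmem hA')
    have m1 : (m : R) ∈ A ⊔ Ideal.span {(m : R)} :=
      Ideal.mem_sup_right (Ideal.mem_span_singleton_self _)
    have m2 : (q : R) ∈ A ⊔ Ideal.span {(q : R)} :=
      Ideal.mem_sup_right (Ideal.mem_span_singleton_self _)
    have hi := ord_idx_mul (ord_sup_top h m1 m2)
    rw [hs, hA'] at hi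
    have h0 := hi ▸ mul_ne_zero hm hq
    have c1 := ord_coprime h m1 (left_ne_zero_of_mul h0)
    have c2 := ord_coprime h.symm m2 (right_ne_zero_of_mul h0)
    have d1 : idx (A ⊔ Ideal.span {(m : R)}) ∣ m :=
      c1.dvd_of_dvd_mul_right (hi ▸ Dvd.intro _ rfl)
    have d2 : m ∣ idx (A ⊔ Ideal.span {(m : R)}) :=
      c2.symm.dvd_of_dvd_mul_right (hi ▸ Dvd.intro _ rfl)
    have e1 := Nat.dvd_antisymm d1 d2
    have e2 : idx (A ⊔ Ideal.span {(q : R)}) = q := by
      rw [e1] at hi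
      exact (Nat.eq_of_mul_eq_mul_left (Nat.pos_of_ne_zero hm) hi).symm
    refine ⟨(A ⊔ Ideal.span {(m : R)}, A ⊔ Ideal.span {(q : R)}), ⟨⟨?_, e1⟩, ⟨?_, e2⟩⟩, hs⟩
    · exact Inv.of_mul (hs.symm ▸ hA)
    · exact Inv.of_mul (B := A ⊔ Ideal.span {(m : R)}) (by rw [mul_comm, hs]; exact hA)

end Vale.Agent.P007
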