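import Vale.Agent.P007.N.Ord
import Vale.Agent.P007.Main

/-! # P007 N: orders in a number field

Plan.  `f` is the index of `O` in `𝓞 K` (non-zero: `index_ne_zero_of_isOrder` in `Main` is the
pattern; `f * y ∈ O` for `y` integral).
* `ord_finite`, `ord_free`, `ord_finrank`: `O` injects `ℤ`-linearly into `𝓞 K`; it contains
  `f • 𝓞 K`, or: a `ℤ`-basis of `O` is `ℚ`-linearly independent and spans `K`.
* `ord_det`: let `c = NumberField.integralBasis K` reindexed by `Fin n`, `b i = ∑ P i k • c k` with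
  `P` an integer matrix, `|det P| = f` (`AddSubgroup.index_eq_natAbs_det` or
  `Submodule.natAbs_det_basis_change`), and `det (σ j (c i))^2 = discr K`
  (`Algebra.discr_eq_det_embeddingsMatrixReindex_pow_two` over `ℂ`, the `n` complex embeddings
  being `ofReal ∘ σ j`; see the proof of `packet_nonempty` in `Main`).
* `one_le_cnt`: `P = ker φ`, a prime of the Dedekind domain `𝓞 K` containing `p`; write
  `span {p} = P * B`.  Let `P' `, `B'` be the comaps to `O`.  `idx P' = p` (`O → ZMod p` is onto).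
  `P' * B' = span {p}`: `≤` since `p y ∈ O`, `f y ∈ O` and `gcd(p, f) = 1` give `y ∈ O`; `≥` since
  `f^2 p ∈ P' B'` (write `p = ∑ x_i y_i`, `f x_i ∈ P'`, `f y_i ∈ B'`; use
  `Submodule.mul_induction_on`) and `p * p ∈ P' B'`.  `p ∤ f` because `f^2 ≤ orderDisc O < p^2`
  (`discr K ≠ 0`).  Finally `Set.ncard_pos` with `finite_idx`. -/

namespace Vale.Agent.P007

open NumberField Module

variable {K : Type} [Field K] [NumberField K] {O : Subring K}

/-- the inclusion of an order in the ring of integers -/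
def ordkInc (hO : IsOrder O) : O →+* 𝓞 K where
  toFun x := ⟨x, hO.1 x x.2⟩
  map_one' := rfl
  map_mul' _ _ := rfl
  map_zero' := rfl
  map_add' _ _ := rfl

theorem ordkInc_coe (hO : IsOrder O) (x : O) : ((ordkInc hO x : 𝓞 K) : K) = (x : K) := rfl

theorem ordkInc_injective (hO : IsOrder O) : Function.Injective (ordkInc hO) := by
  intro x y h
  apply Subtype.ext
  rw [← ordkInc_coe hO x, ← ordkInc_coe hO y, h]

theorem ordk_index_ne_zero (hO : IsOrder O) :
    (O.comap (algebraMap (𝓞 K) K)).toAddSubgroup.index ≠ 0 := by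
  set H := (O.comap (algebraMap (𝓞 K) K)).toAddSubgroup with hH
  have hfg : AddGroup.FG (𝓞 K ⧸ H) := by
    have : AddGroup.FG (𝓞 K) := Module.Finite.iff_addGroup_fg.1 inferInstance
    exact QuotientAddGroup.fg H
  have htors : IsAddTorsion (𝓞 K ⧸ H) := by
    intro y
    obtain ⟨y, rfl⟩ := QuotientAddGroup.mk_surjective y
    obtain ⟨N, hN, hmem⟩ := exists_mul_mem_of_isOrder hO (algebraMap (𝓞 K) K y)
    rw [isOfFinAddOrder_iff_nsmul_eq_zero]
    refine ⟨N, Nat.pos_of_ne_zero hN, ?_⟩
    rw [← QuotientAddGroup.mk_nsmul, QuotientAddGroup.eq_zero_iff, hH]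
    simpa using hmem
  have : Finite (𝓞 K ⧸ H) := AddCommGroup.finite_of_fg_isAddTorsion _ htors
  exact AddSubgroup.index_ne_zero_of_finite

theorem ordk_index_mul (hO : IsOrder O) (y : 𝓞 K) : ∃ x : O, ordkInc hO x =
    ((O.comap (algebraMap (𝓞 K) K)).toAddSubgroup.index : 𝓞 K) * y := by
  have h := (O.comap (algebraMap (𝓞 K) K)).toAddSubgroup.nsmul_index_mem y
  refine ⟨⟨_, h⟩, ?_⟩
  rw [← nsmul_eq_mul]
  rfl

/-- the order as an additive subgroup of the ring of integers -/
def ordkEquiv (hO : IsOrder O) : O ≃+ (O.comap (algebraMap (𝓞 K) K)).toAddSubgroup where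
  toFun x := ⟨ordkInc hO x, x.2⟩
  invFun y := ⟨algebraMap (𝓞 K) K y.1, y.2⟩
  left_inv _ := rfl
  right_inv _ := rfl
  map_add' _ _ := rfl

theorem ordk_comap_mul {R S : Type} [CommRing R] [CommRing S] (ι : R →+* S)
    (hι : Function.Injective ι) {p f : ℕ} (hcop : p.Coprime f)
    (hmul : ∀ y, ∃ x, ι x = (f : S) * y) {P B : Ideal S} (hB : Ideal.span {(p : S)} = P * B) :
    P.comap ι * B.comap ι = Ideal.span {(p : R)} := by
  have hpPB : (p : S) ∈ P * B := hB ▸ Ideal.mem_span_singleton_self _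
  have hpB : (p : S) ∈ B := Ideal.mul_le_right hpPB
  have hpP : (p : S) ∈ P := Ideal.mul_le_left hpPB
  apply le_antisymm
  · rw [Ideal.mul_le]
    intro x hx y hy
    have h1 : ι x * ι y ∈ Ideal.span {(p : S)} := hB ▸ Ideal.mul_mem_mul hx hy
    obtain ⟨z, hz⟩ := Ideal.mem_span_singleton'.1 h1
    obtain ⟨w, hw⟩ := hmul z
    obtain ⟨a, b, hab⟩ := (Nat.isCoprime_iff_coprime.2 hcop).map (Int.castRingHom R)
    simp only [eq_intCast, Int.cast_natCast] at hab
    have hab' : ι a * p + ι b * f = 1 := by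
      have := congrArg ι hab
      simpa using this
    refine Ideal.mem_span_singleton'.2 ⟨a * (x * y) + b * w, hι ?_⟩
    simp only [map_mul, map_add, map_natCast]
    rw [hw, ← hz]
    linear_combination (z * p) * hab'
  · rw [Ideal.span_singleton_le_iff_mem]
    have key : ∀ t ∈ P * B, ∃ s ∈ P.comap ι * B.comap ι, ι s = (f : S) ^ 2 * t := by
      intro t ht
      refine Submodule.mul_induction_on ht ?_ ?_
      · intro x hx y hy
        obtain ⟨x', hx'⟩ := hmul x
        obtain ⟨y', hy'⟩ := hmul y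
        refine ⟨x' * y', Ideal.mul_mem_mul ?_ ?_, ?_⟩
        · rw [Ideal.mem_comap, hx']
          exact P.mul_mem_left _ hx
        · rw [Ideal.mem_comap, hy']
          exact B.mul_mem_left _ hy
        · rw [map_mul, hx', hy']
          ring
      · rintro x y ⟨s, hs, hx⟩ ⟨t, ht, hy⟩
        exact ⟨s + t, add_mem hs ht, by rw [map_add, hx, hy, mul_add]⟩
    obtain ⟨s, hs, hsp⟩ := key _ hpPB
    have hs' : s = (f : R) ^ 2 * p := hι (by rw [hsp]; simp)
    have hpp : (p : R) * p ∈ P.comap ι * B.comap ι := by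
      refine Ideal.mul_mem_mul ?_ ?_
      · rw [Ideal.mem_comap, map_natCast]; exact hpP
      · rw [Ideal.mem_comap, map_natCast]; exact hpB
    obtain ⟨a, b, hab⟩ :=
      (Nat.isCoprime_iff_coprime.2 (hcop.pow_right 2)).map (Int.castRingHom R)
    simp only [eq_intCast, Int.cast_natCast, Nat.cast_pow, Int.cast_pow] at hab
    have h1 : (p : R) = a * (p * p) + b * s := by
      rw [hs']
      linear_combination (-(p : R)) * hab
    rw [h1]
    exact add_mem (Ideal.mul_mem_left _ _ hpp) (Ideal.mul_mem_left _ _ hs)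

theorem ord_finite (hO : IsOrder O) : Module.Finite ℤ O := by
  exact Module.Finite.of_injective (ordkInc hO).toAddMonoidHom.toIntLinearMap
    (ordkInc_injective hO)

theorem ord_free (hO : IsOrder O) : Module.Free ℤ O := by
  have := ord_finite hO
  exact Module.free_of_finite_type_torsion_free'

theorem ord_finrank (hO : IsOrder O) : finrank ℤ O = finrank ℚ K := by
  have := ord_finite hO
  rw [← RingOfIntegers.rank K]
  apply le_antisymm
  · exact LinearMap.finrank_le_finrank_of_injective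
      (f := (ordkInc hO).toAddMonoidHom.toIntLinearMap) (ordkInc_injective hO)
  · set f := (O.comap (algebraMap (𝓞 K) K)).toAddSubgroup.index with hf
    have hf0 : (f : 𝓞 K) ≠ 0 := by exact_mod_cast ordk_index_ne_zero hO
    choose g hg using ordk_index_mul hO
    let G : 𝓞 K →+ O :=
      { toFun := g
        map_zero' := ordkInc_injective hO (by rw [hg, map_zero, mul_zero])
        map_add' := fun x y => ordkInc_injective hO (by rw [map_add, hg, hg, hg, mul_add]) }
    refine LinearMap.finrank_le_finrank_of_injective (f := G.toIntLinearMap) ?_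
    intro x y h
    have h1 : g x = g y := h
    have h2 := hg x
    rw [h1, hg y] at h2
    exact (mul_left_cancel₀ hf0 h2).symm

theorem discr_le_orderDisc (hO : IsOrder O) : |(discr K : ℝ)| ≤ orderDisc O := by
  have h1 : 1 ≤ (O.comap (algebraMap (𝓞 K) K)).toAddSubgroup.index ^ 2 :=
    Nat.one_le_pow _ _ (Nat.pos_of_ne_zero (ordk_index_ne_zero hO))
  have h2 : (discr K).natAbs ≤ orderDisc O := Nat.le_mul_of_pos_right _ h1
  have h3 : (((discr K).natAbs : ℕ) : ℝ) = |(discr K : ℝ)| := by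
    rw [Nat.cast_natAbs, Int.cast_abs]
  rw [← h3]
  exact_mod_cast h2

theorem one_le_orderDisc (hO : IsOrder O) : 1 ≤ orderDisc O := by
  exact Nat.pos_of_ne_zero (mul_ne_zero (Int.natAbs_ne_zero.2 (discr_ne_zero K))
    (pow_ne_zero _ (ordk_index_ne_zero hO)))

theorem ord_det (hO : IsOrder O) {n : ℕ} (σ : Fin n ≃ (K →+* ℝ)) (hn : finrank ℚ K = n)
    (b : Basis (Fin n) ℤ O) :
    |(Matrix.of fun i j => σ j (b i : K)).det| = √(orderDisc O : ℝ) := by
  have hcard : Fintype.card (Free.ChooseBasisIndex ℤ (𝓞 K)) = n := by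
    rw [← hn, ← RingOfIntegers.rank, finrank_eq_card_chooseBasisIndex]
  let e := Fintype.equivFinOfCardEq hcard
  let c : Basis (Fin n) ℤ (𝓞 K) := (RingOfIntegers.basis K).reindex e
  let bH := b.map (ordkEquiv hO).toIntLinearEquiv
  have hidx := AddSubgroup.index_eq_natAbs_det c _ bH
  have hbH : (fun i => (bH i : 𝓞 K)) = fun i => ordkInc hO (b i) := rfl
  rw [hbH, Basis.det_apply] at hidx
  set P := c.toMatrix fun i => ordkInc hO (b i) with hP
  let A : Matrix (Fin n) (Fin n) ℝ := Matrix.of fun i j => σ j (c i : K)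
  have hAP : (Matrix.of fun i j => σ j (b i : K)) = (P.map (Int.castRingHom ℝ)).transpose * A := by
    ext i j
    have h1 : ∑ k, P k i • c k = ordkInc hO (b i) :=
      c.sum_toMatrix_smul_self (fun i => ordkInc hO (b i)) i
    have h2 : (b i : K) = ∑ k, (P k i : K) * (c k : K) := by
      rw [← ordkInc_coe hO, ← h1]
      simp
    rw [Matrix.of_apply, h2, Matrix.mul_apply]
    simp [A]
  let e' : Fin n ≃ (K →ₐ[ℚ] ℂ) := by
    refine Equiv.ofBijective (fun j => (Complex.ofRealHom.comp (σ j)).toRatAlgHom) ?_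
    rw [Fintype.bijective_iff_injective_and_card]
    refine ⟨fun i j hij => σ.injective ?_, ?_⟩
    · ext x
      have := AlgHom.congr_fun hij x
      simpa using this
    · rw [AlgHom.card, hn, Fintype.card_fin]
  have hA : A.det ^ 2 = (discr K : ℝ) := by
    have h1 := Algebra.discr_eq_det_embeddingsMatrixReindex_pow_two ℚ ℂ
      (integralBasis K ∘ e.symm) e'
    rw [Algebra.discr_reindex, ← coe_discr] at h1
    have h2 : Algebra.embeddingsMatrixReindex ℚ ℂ (integralBasis K ∘ e.symm) e' =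
        Complex.ofRealHom.mapMatrix A := by
      ext i j
      simp [Algebra.embeddingsMatrixReindex, A, c, e']
    rw [h2, ← RingHom.map_det] at h1
    have h3 : ((A.det ^ 2 : ℝ) : ℂ) = ((discr K : ℝ) : ℂ) := by
      simpa using h1.symm
    exact_mod_cast h3
  have hPd : (P.map (Int.castRingHom ℝ)).det = (P.det : ℝ) := by
    rw [← RingHom.mapMatrix_apply, ← RingHom.map_det]
    rfl
  rw [← Real.sqrt_sq_eq_abs, hAP, Matrix.det_mul, Matrix.det_transpose, hPd, mul_pow, hA]
  congr 1
  have h0 : (0 : ℝ) ≤ discr K := hA ▸ sq_nonneg _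
  rw [orderDisc, hidx]
  rw [Nat.cast_mul, Nat.cast_pow, Nat.cast_natAbs, Nat.cast_natAbs, Int.cast_abs, Int.cast_abs, sq_abs, abs_of_nonneg h0,
    mul_comm]

theorem one_le_cnt (hO : IsOrder O) {p : ℕ} (hp : p.Prime) (hlt : orderDisc O < p ^ 2)
    (φ : 𝓞 K →+* ZMod p) : 1 ≤ cnt O p := by
  have := ord_finite hO
  have := ord_free hO
  set f := (O.comap (algebraMap (𝓞 K) K)).toAddSubgroup.index with hf
  have hf0 : f ≠ 0 := ordk_index_ne_zero hO
  have hfp : f < p := by
    have h1 : f ^ 2 ≤ orderDisc O :=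
      Nat.le_mul_of_pos_left _ (Nat.pos_of_ne_zero (Int.natAbs_ne_zero.2 (discr_ne_zero K)))
    exact lt_of_pow_lt_pow_left₀ 2 (Nat.zero_le _) (h1.trans_lt hlt)
  have hcop : p.Coprime f :=
    (Nat.Prime.coprime_iff_not_dvd hp).2 (Nat.not_dvd_of_pos_of_lt (Nat.pos_of_ne_zero hf0) hfp)
  let ι := ordkInc hO
  have hι : Function.Injective ι := ordkInc_injective hO
  have hmul : ∀ y, ∃ x, ι x = (f : 𝓞 K) * y := ordk_index_mul hO
  let P : Ideal (𝓞 K) := RingHom.ker φ
  have hpP : (p : 𝓞 K) ∈ P := by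
    rw [RingHom.mem_ker, map_natCast, ZMod.natCast_self]
  obtain ⟨B, hB⟩ : P ∣ Ideal.span {(p : 𝓞 K)} :=
    Ideal.dvd_iff_le.2 ((Ideal.span_singleton_le_iff_mem _).2 hpP)
  have hprod : P.comap ι * B.comap ι = Ideal.span {(p : O)} := ordk_comap_mul ι hι hcop hmul hB
  have hidx : idx (P.comap ι) = p := by
    have h1 : (P.comap ι).toAddSubgroup = (φ.comp ι).toAddMonoidHom.ker := by
      ext x
      rfl
    have h2 : (φ.comp ι).toAddMonoidHom.range = ⊤ :=
      AddMonoidHom.range_eq_top.2 (ZMod.ringHom_surjective (φ.comp ι))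
    rw [idx, h1, AddSubgroup.index_ker, h2, AddSubgroup.card_top, Nat.card_zmod]
  have hp0 : (p : O) ≠ 0 := by exact_mod_cast hp.ne_zero
  refine (Set.ncard_pos ((finite_idx p hp.ne_zero).subset fun A hA => hA.2)).2 ?_
  exact ⟨P.comap ι, ⟨B.comap ι, p, hp0, hprod⟩, hidx⟩

end Vale.Agent.P007
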