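import Vale.Agent.P007.N.Theta

/-! # P007 N: sums of `a(q) log q` over prime powers

Plan.  Write a prime power as `q = p^k` (`isPrimePow_nat_iff`; `p = q.minFac`,
`k = q.factorization p`), and bound the sum over `q` by a double sum over `k` and `p`
(`Finset.sum_le_sum_of_subset_of_nonneg` on a `biUnion` of images, `Finset.sum_biUnion_le`-type
or `Finset.sum_fiberwise` estimates).
* `1 ≤ k ≤ n`: `loc` with `r = 1` gives `a(p^k) ≤ C p^(k-1)`, so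
  `a(q) log q ≤ C n p^(k-1) log p`.  If `z < p^k ≤ z(1+ρ)` then, with `w = z^(1/k)`,
  `w < p ≤ w (1+ρ)` and `p^(k-1) ≤ (3w)^(k-1)`; `theta_short` at `w` (needs `1 ≤ ρ w`, true for
  `z ≥ max 1 (ρ₀⁻¹)^n`) gives `≤ C n 3^n w^(k-1) C₁ √ρ w = C' √ρ z`.  The same with `theta_le`.
* `k > n`: `loc` with `r = ⌈k/n⌉ = (k + n - 1) / n` gives `a(q) ≤ C q^(1 - 1/n)`; there are at
  most `x^(1/(n+1)) * log₂ x` such `q ≤ x`; so this part is at most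
  `C x^(1 - 1/n + 1/(n+1)) * 2 (log x)^2 ≤ C'' x^(1 - δ)`, `δ = 1/(2n(n+1))`
  (`Real.log_le_rpow_div`).  This is `psum_tail`. -/

namespace Vale.Agent.P007

open Finset

/-- comparison of a sum over prime powers with a double sum over exponents and primes -/
theorem psum_double (S K : Finset ℕ) (T : ℕ → Finset ℕ) (f : ℕ → ℝ) (g : ℕ → ℕ → ℝ)
    (hS : ∀ q ∈ S, IsPrimePow q)
    (hK : ∀ q ∈ S, q.factorization q.minFac ∈ K)
    (hT : ∀ q ∈ S, q.minFac ∈ T (q.factorization q.minFac))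
    (hg : ∀ k ∈ K, ∀ p ∈ T k, 0 ≤ g k p)
    (hf : ∀ q ∈ S, f q ≤ g (q.factorization q.minFac) q.minFac) :
    ∑ q ∈ S, f q ≤ ∑ k ∈ K, ∑ p ∈ T k, g k p := by
  classical
  let φ : ℕ → (Σ _ : ℕ, ℕ) := fun q => ⟨q.factorization q.minFac, q.minFac⟩
  have hinj : Set.InjOn φ S := by
    intro q hq q' hq' h
    have h1 : q.factorization q.minFac = q'.factorization q'.minFac := congrArg Sigma.fst h
    have h2 : q.minFac = q'.minFac := congrArg (fun s : (Σ _ : ℕ, ℕ) => s.2) h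
    rw [← (hS q hq).minFac_pow_factorization_eq, ← (hS q' hq').minFac_pow_factorization_eq]
    rw [h1]
    exact congrArg (fun t => t ^ q'.factorization q'.minFac) h2
  have h1 : ∑ q ∈ S, f q ≤ ∑ q ∈ S, g (φ q).1 (φ q).2 := Finset.sum_le_sum hf
  have h2 : ∑ q ∈ S, g (φ q).1 (φ q).2 = ∑ s ∈ S.image φ, g s.1 s.2 :=
    (Finset.sum_image (f := fun s : (Σ _ : ℕ, ℕ) => g s.1 s.2) hinj).symm
  have h3 : ∑ s ∈ S.image φ, g s.1 s.2 ≤ ∑ s ∈ K.sigma T, g s.1 s.2 := by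
    refine Finset.sum_le_sum_of_subset_of_nonneg ?_ ?_
    · intro s hs
      obtain ⟨q, hq, rfl⟩ := Finset.mem_image.1 hs
      exact Finset.mem_sigma.2 ⟨hK q hq, hT q hq⟩
    · intro s hs _
      obtain ⟨h1, h2⟩ := Finset.mem_sigma.1 hs
      exact hg _ h1 _ h2
  rw [Finset.sum_sigma] at h3
  linarith

theorem psum_pp {q : ℕ} (hq : IsPrimePow q) :
    q.minFac.Prime ∧ 1 ≤ q.factorization q.minFac ∧
      q.minFac ^ q.factorization q.minFac = q := by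
  refine ⟨Nat.minFac_prime hq.ne_one, ?_, hq.minFac_pow_factorization_eq⟩
  by_contra h
  have h0 : q.factorization q.minFac = 0 := by omega
  have h1 := hq.minFac_pow_factorization_eq
  rw [h0, pow_zero] at h1
  exact hq.ne_one h1.symm

theorem psum_nonneg {n : ℕ} {C : ℝ} {a : ℕ → ℝ} (ha : Mult n C a) (hn : 1 ≤ n) : 0 ≤ C := by
  have h := ha.loc 2 1 0 Nat.prime_two le_rfl (by omega)
  have h0 := ha.nonneg (2 ^ 1)
  norm_num at h h0
  linarith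

/-- `a(p^k) log (p^k) ≤ C n W^(k-1) log p` for `1 ≤ k ≤ n`, `p ≤ W` -/
theorem psum_small {n : ℕ} {C : ℝ} {a : ℕ → ℝ} (ha : Mult n C a) {p k : ℕ} (hp : p.Prime)
    (hk : 1 ≤ k) (hkn : k ≤ n) {W : ℝ} (hW : (p : ℝ) ≤ W) :
    a (p ^ k) * Real.log ((p ^ k : ℕ) : ℝ) ≤ C * n * W ^ (k - 1) * Real.log p := by
  have hC := psum_nonneg ha (hk.trans hkn)
  have hp0 : (0 : ℝ) < p := by exact_mod_cast hp.pos
  have hlog : 0 ≤ Real.log p := Real.log_natCast_nonneg p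
  have h1 := ha.loc p k 1 hp hk (by omega)
  obtain ⟨j, rfl⟩ : ∃ j, k = j + 1 := ⟨k - 1, by omega⟩
  have h2 : a (p ^ (j + 1)) ≤ C * (p : ℝ) ^ j := by
    rw [pow_one, pow_succ (p : ℝ) j, ← mul_assoc] at h1
    exact le_of_mul_le_mul_right h1 hp0
  have h3 : (p : ℝ) ^ j ≤ W ^ j := pow_le_pow_left₀ hp0.le hW j
  have h4 : a (p ^ (j + 1)) ≤ C * W ^ j := h2.trans (mul_le_mul_of_nonneg_left h3 hC)
  have h5 : ((j + 1 : ℕ) : ℝ) ≤ n := by exact_mod_cast hkn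
  have hW0 : 0 ≤ C * W ^ j := mul_nonneg hC (pow_nonneg (hp0.le.trans hW) j)
  rw [Nat.cast_pow, Real.log_pow, Nat.add_sub_cancel]
  calc a (p ^ (j + 1)) * (((j + 1 : ℕ) : ℝ) * Real.log p)
      ≤ (C * W ^ j) * ((n : ℝ) * Real.log p) :=
        mul_le_mul h4 (mul_le_mul_of_nonneg_right h5 hlog) (by positivity) hW0
    _ = C * n * W ^ j * Real.log p := by ring

/-- `a(q) ≤ C x^(1 - 1/n)` for a prime power `q ≤ x` -/
theorem psum_big {n : ℕ} {C : ℝ} {a : ℕ → ℝ} (ha : Mult n C a) (hn : 1 ≤ n) {p k : ℕ}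
    (hp : p.Prime) (hk : 1 ≤ k) {x : ℝ} (hx : ((p ^ k : ℕ) : ℝ) ≤ x) :
    a (p ^ k) ≤ C * x ^ (1 - (n : ℝ)⁻¹) := by
  have hC := psum_nonneg ha hn
  have hp1 : (1 : ℝ) ≤ p := by exact_mod_cast hp.one_lt.le
  have hp0 : (0 : ℝ) < p := by linarith
  have hn0 : (0 : ℝ) < n := by exact_mod_cast hn
  set r := (k + n - 1) / n with hr
  have hr1 : n * r < k + n := by
    have := Nat.mul_div_le (k + n - 1) n
    rw [← hr] at this
    omega
  have hr2 : k ≤ n * r := by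
    have := Nat.lt_mul_div_succ (k + n - 1) (show 0 < n by omega)
    rw [← hr, mul_add, mul_one] at this
    omega
  have h1 := ha.loc p k r hp hk hr1
  have hq0 : (0 : ℝ) < (p : ℝ) ^ k := pow_pos hp0 k
  have h2 : ((p : ℝ) ^ k) ^ (n : ℝ)⁻¹ ≤ (p : ℝ) ^ r := by
    have h3 : (p : ℝ) ^ k ≤ ((p : ℝ) ^ r) ^ n := by
      rw [← pow_mul, mul_comm r n]
      exact pow_le_pow_right₀ hp1 hr2
    have h4 := Real.rpow_le_rpow hq0.le h3 (inv_nonneg.2 hn0.le)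
    rwa [Real.pow_rpow_inv_natCast (pow_nonneg hp0.le r) (by omega)] at h4
  have h5 : a (p ^ k) * ((p : ℝ) ^ k) ^ (n : ℝ)⁻¹ ≤ C * (p : ℝ) ^ k :=
    (mul_le_mul_of_nonneg_left h2 (ha.nonneg _)).trans h1
  have h6 : a (p ^ k) ≤ C * ((p : ℝ) ^ k) ^ (1 - (n : ℝ)⁻¹) := by
    rw [Real.rpow_sub hq0, Real.rpow_one, ← mul_div_assoc,
      le_div_iff₀ (Real.rpow_pos_of_pos hq0 _)]
    exact h5
  have h7 : 0 ≤ 1 - (n : ℝ)⁻¹ := by
    have : (n : ℝ)⁻¹ ≤ 1 := inv_le_one_of_one_le₀ (by exact_mod_cast hn)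
    linarith
  refine h6.trans (mul_le_mul_of_nonneg_left ?_ hC)
  rw [Nat.cast_pow] at hx
  exact Real.rpow_le_rpow hq0.le hx h7

theorem psum_tail (n : ℕ) (hn : 1 ≤ n) (C : ℝ) : ∃ C' δ : ℝ, 0 < C' ∧ 0 < δ ∧
    ∀ a : ℕ → ℝ, Mult n C a → ∀ x : ℝ, 1 ≤ x →
      ∑ q ∈ (Icc 1 ⌊x⌋₊).filter (fun q => IsPrimePow q ∧ n < q.factorization q.minFac),
        a q * Real.log q ≤ C' * x ^ (1 - δ) := by
  have hn0 : (0 : ℝ) < n := by exact_mod_cast hn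
  set ε : ℝ := ((n : ℝ)⁻¹ - ((n + 1 : ℕ) : ℝ)⁻¹) / 3 with hε
  have hε0 : 0 < ε := by
    have h1 : ((n + 1 : ℕ) : ℝ)⁻¹ < (n : ℝ)⁻¹ := by
      apply inv_strictAnti₀ hn0
      push_cast
      linarith
    rw [hε]
    linarith
  refine ⟨2 * |C| / ε ^ 2 + 1, ε, by positivity, hε0, fun a ha x hx => ?_⟩
  have hC := psum_nonneg ha hn
  have hx0 : 0 < x := by linarith
  have hlx : 0 ≤ Real.log x := Real.log_nonneg hx
  set w : ℝ := x ^ ((n + 1 : ℕ) : ℝ)⁻¹ with hw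
  have hw0 : 0 < w := Real.rpow_pos_of_pos hx0 _
  set B : ℝ := C * x ^ (1 - (n : ℝ)⁻¹) * Real.log x with hB
  have hB0 : 0 ≤ B := mul_nonneg (mul_nonneg hC (Real.rpow_nonneg hx0.le _)) hlx
  have hmem : ∀ q ∈ (Icc 1 ⌊x⌋₊).filter
      (fun q => IsPrimePow q ∧ n < q.factorization q.minFac),
      IsPrimePow q ∧ n < q.factorization q.minFac ∧ q ≤ ⌊x⌋₊ ∧ (q : ℝ) ≤ x := by
    intro q hq
    obtain ⟨h1, h2, h3⟩ := Finset.mem_filter.1 hq
    have h4 := (Finset.mem_Icc.1 h1).2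
    exact ⟨h2, h3, h4, (Nat.le_floor_iff hx0.le).1 h4⟩
  have key := psum_double ((Icc 1 ⌊x⌋₊).filter
      (fun q => IsPrimePow q ∧ n < q.factorization q.minFac)) (Icc 1 (Nat.log 2 ⌊x⌋₊))
      (fun _ => Icc 1 ⌊w⌋₊) (fun q => a q * Real.log q) (fun _ _ => B)
      (fun q hq => (hmem q hq).1) ?_ ?_ (fun _ _ _ _ => hB0) ?_
  · refine key.trans ?_
    simp only [Finset.sum_const, Nat.card_Icc, Nat.add_sub_cancel, nsmul_eq_mul]
    have h1 : ((Nat.log 2 ⌊x⌋₊ : ℕ) : ℝ) ≤ 2 * Real.log x := by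
      have h2 : (2 : ℝ) ^ Nat.log 2 ⌊x⌋₊ ≤ x := by
        have h3 := Nat.pow_log_le_self 2 (show ⌊x⌋₊ ≠ 0 from (Nat.floor_pos.2 hx).ne')
        have h4 : ((2 ^ Nat.log 2 ⌊x⌋₊ : ℕ) : ℝ) ≤ x := (Nat.le_floor_iff hx0.le).1 h3
        exact_mod_cast h4
      have h5 := Real.log_le_log (by positivity) h2
      rw [Real.log_pow] at h5
      have h6 := Real.log_two_gt_d9
      have h7 : (0 : ℝ) ≤ Nat.log 2 ⌊x⌋₊ := Nat.cast_nonneg _
      nlinarith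
    have h2 : (⌊w⌋₊ : ℝ) ≤ w := Nat.floor_le hw0.le
    have h3 : Real.log x ≤ x ^ ε / ε := Real.log_le_rpow_div hx0.le hε0
    have h4 : x ^ (1 - ε) = w * x ^ (1 - (n : ℝ)⁻¹) * (x ^ ε * x ^ ε) := by
      rw [hw, ← Real.rpow_add hx0, ← Real.rpow_add hx0, ← Real.rpow_add hx0]
      congr 1
      rw [hε]
      ring
    have h5 : Real.log x * Real.log x ≤ x ^ ε * x ^ ε / ε ^ 2 := by
      have h6 := mul_le_mul h3 h3 hlx (by positivity)
      refine h6.trans (le_of_eq ?_)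
      field_simp
    have h7 : 0 ≤ w * x ^ (1 - (n : ℝ)⁻¹) := by positivity
    calc ((Nat.log 2 ⌊x⌋₊ : ℕ) : ℝ) * ((⌊w⌋₊ : ℝ) * B)
        ≤ (2 * Real.log x) * (w * B) :=
          mul_le_mul h1 (mul_le_mul_of_nonneg_right h2 hB0) (by positivity) (by positivity)
      _ = 2 * C * (w * x ^ (1 - (n : ℝ)⁻¹)) * (Real.log x * Real.log x) := by rw [hB]; ring
      _ ≤ 2 * C * (w * x ^ (1 - (n : ℝ)⁻¹)) * (x ^ ε * x ^ ε / ε ^ 2) :=
          mul_le_mul_of_nonneg_left h5 (by positivity)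
      _ = 2 * |C| / ε ^ 2 * x ^ (1 - ε) := by rw [h4, abs_of_nonneg hC]; ring
      _ ≤ (2 * |C| / ε ^ 2 + 1) * x ^ (1 - ε) :=
          mul_le_mul_of_nonneg_right (by linarith) (Real.rpow_nonneg hx0.le _)
  · intro q hq
    obtain ⟨h1, -, h3, -⟩ := hmem q hq
    obtain ⟨hp, hk, he⟩ := psum_pp h1
    refine Finset.mem_Icc.2 ⟨hk, Nat.le_log_of_pow_le one_lt_two ?_⟩
    exact (Nat.pow_le_pow_left hp.two_le _).trans (he.le.trans h3)
  · intro q hq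
    obtain ⟨h1, h2, -, h4⟩ := hmem q hq
    obtain ⟨hp, -, he⟩ := psum_pp h1
    refine Finset.mem_Icc.2 ⟨hp.one_lt.le, Nat.le_floor ?_⟩
    rw [hw, Real.le_rpow_inv_iff_of_pos (Nat.cast_nonneg _) hx0.le (by positivity),
      Real.rpow_natCast]
    refine le_trans ?_ h4
    have h5 : q.minFac ^ (n + 1) ≤ q := (Nat.pow_le_pow_right hp.pos h2).trans he.le
    exact_mod_cast h5
  · intro q hq
    obtain ⟨h1, -, -, h4⟩ := hmem q hq
    obtain ⟨hp, hk, he⟩ := psum_pp h1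
    have h5 := psum_big ha hn hp hk (x := x) (by rw [he]; exact h4)
    rw [he] at h5
    have h6 : Real.log q ≤ Real.log x :=
      Real.log_le_log (by exact_mod_cast h1.pos) h4
    exact mul_le_mul h5 h6 (Real.log_natCast_nonneg q)
      (mul_nonneg hC (Real.rpow_nonneg hx0.le _))

/-- splitting of a sum over prime powers according to the exponent -/
theorem psum_split (n : ℕ) (S : Finset ℕ) (f : ℕ → ℝ) :
    ∑ q ∈ S.filter IsPrimePow, f q =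
      ∑ q ∈ S.filter (fun q => IsPrimePow q ∧ n < q.factorization q.minFac), f q +
      ∑ q ∈ S.filter (fun q => IsPrimePow q ∧ ¬ n < q.factorization q.minFac), f q := by
  rw [← Finset.filter_filter, ← Finset.filter_filter, Finset.sum_filter_add_sum_filter_not]

theorem psum_le (n : ℕ) (hn : 1 ≤ n) (C : ℝ) : ∃ C' : ℝ, 0 < C' ∧
    ∀ a : ℕ → ℝ, Mult n C a → ∀ x : ℝ, 0 ≤ x →
      ∑ q ∈ (Icc 1 ⌊x⌋₊).filter IsPrimePow, a q * Real.log q ≤ C' * x := by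
  obtain ⟨C₂, δ, hC₂, hδ, h₂⟩ := psum_tail n hn C
  obtain ⟨C₁, hC₁, h₁⟩ := theta_le
  refine ⟨C₂ + n * (|C| * n * C₁), by positivity, fun a ha x hx => ?_⟩
  have hC := psum_nonneg ha hn
  rcases lt_or_ge x 1 with hx1 | hx1
  · rw [Nat.floor_eq_zero.2 hx1]
    simp only [show Icc 1 0 = (∅ : Finset ℕ) from rfl, Finset.filter_empty, Finset.sum_empty]
    positivity
  have hx0 : 0 < x := by linarith
  rw [psum_split n]
  have hA := h₂ a ha x hx1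
  have hA' : x ^ (1 - δ) ≤ x := by
    have := Real.rpow_le_rpow_of_exponent_le hx1 (show 1 - δ ≤ 1 by linarith)
    rwa [Real.rpow_one] at this
  have hmem : ∀ q ∈ (Icc 1 ⌊x⌋₊).filter
      (fun q => IsPrimePow q ∧ ¬ n < q.factorization q.minFac),
      IsPrimePow q ∧ q.factorization q.minFac ≤ n ∧
        (q.minFac : ℝ) ≤ x ^ ((q.factorization q.minFac : ℕ) : ℝ)⁻¹ := by
    intro q hq
    obtain ⟨h1, h2, h3⟩ := Finset.mem_filter.1 hq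
    have h4 := (Nat.le_floor_iff hx).1 (Finset.mem_Icc.1 h1).2
    obtain ⟨hp, hk, he⟩ := psum_pp h2
    refine ⟨h2, not_lt.1 h3, ?_⟩
    rw [Real.le_rpow_inv_iff_of_pos (Nat.cast_nonneg _) hx (by exact_mod_cast hk),
      Real.rpow_natCast]
    refine le_trans (le_of_eq ?_) h4
    exact_mod_cast he
  have key := psum_double ((Icc 1 ⌊x⌋₊).filter
      (fun q => IsPrimePow q ∧ ¬ n < q.factorization q.minFac)) (Icc 1 n)
      (fun k => (Icc 1 ⌊x ^ (k : ℝ)⁻¹⌋₊).filter Nat.Prime) (fun q => a q * Real.log q)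
      (fun k p => C * n * (x ^ (k : ℝ)⁻¹) ^ (k - 1) * Real.log p)
      (fun q hq => (hmem q hq).1) ?_ ?_ ?_ ?_
  · have hB : ∑ k ∈ Icc 1 n, ∑ p ∈ (Icc 1 ⌊x ^ (k : ℝ)⁻¹⌋₊).filter Nat.Prime,
        C * n * (x ^ (k : ℝ)⁻¹) ^ (k - 1) * Real.log p ≤ ∑ _k ∈ Icc 1 n, |C| * n * C₁ * x := by
      refine Finset.sum_le_sum fun k hk => ?_
      have hk1 := (Finset.mem_Icc.1 hk).1
      have hw : 0 ≤ x ^ (k : ℝ)⁻¹ := Real.rpow_nonneg hx _
      have he : (x ^ (k : ℝ)⁻¹) ^ (k - 1) * x ^ (k : ℝ)⁻¹ = x := by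
        rw [← pow_succ, Nat.sub_add_cancel hk1, Real.rpow_inv_natCast_pow hx (by omega)]
      rw [← Finset.mul_sum, abs_of_nonneg hC]
      calc C * n * (x ^ (k : ℝ)⁻¹) ^ (k - 1) *
            ∑ p ∈ (Icc 1 ⌊x ^ (k : ℝ)⁻¹⌋₊).filter Nat.Prime, Real.log p
          ≤ C * n * (x ^ (k : ℝ)⁻¹) ^ (k - 1) * (C₁ * x ^ (k : ℝ)⁻¹) :=
            mul_le_mul_of_nonneg_left (h₁ _ hw) (by positivity)
        _ = C * n * C₁ * ((x ^ (k : ℝ)⁻¹) ^ (k - 1) * x ^ (k : ℝ)⁻¹) := by ring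
        _ = C * n * C₁ * x := by rw [he]
    simp only [Finset.sum_const, Nat.card_Icc, Nat.add_sub_cancel, nsmul_eq_mul] at hB
    have hA2 : C₂ * x ^ (1 - δ) ≤ C₂ * x := mul_le_mul_of_nonneg_left hA' hC₂.le
    calc _ ≤ C₂ * x + n * (|C| * n * C₁ * x) := add_le_add (hA.trans hA2) (key.trans hB)
      _ = (C₂ + n * (|C| * n * C₁)) * x := by ring
  · intro q hq
    obtain ⟨h1, h2, -⟩ := hmem q hq
    exact Finset.mem_Icc.2 ⟨(psum_pp h1).2.1, h2⟩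
  · intro q hq
    obtain ⟨h1, -, h3⟩ := hmem q hq
    have hp := (psum_pp h1).1
    exact Finset.mem_filter.2 ⟨Finset.mem_Icc.2 ⟨hp.one_lt.le, Nat.le_floor h3⟩, hp⟩
  · intro k _ p _
    have := Real.log_natCast_nonneg p
    positivity
  · intro q hq
    obtain ⟨h1, h2, h3⟩ := hmem q hq
    obtain ⟨hp, hk, he⟩ := psum_pp h1
    have h5 := psum_small ha hp hk h2 h3
    rwa [he] at h5

theorem psum_short (n : ℕ) (hn : 1 ≤ n) (C : ℝ) : ∃ C' : ℝ, 0 < C' ∧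
    ∀ ρ₀ : ℝ, 0 < ρ₀ → ∃ z₀ : ℝ, 1 ≤ z₀ ∧ ∀ a : ℕ → ℝ, Mult n C a →
      ∀ ρ z : ℝ, ρ₀ ≤ ρ → ρ ≤ 2 → z₀ ≤ z →
        ∑ q ∈ (Ioc ⌊z⌋₊ ⌊z * (1 + ρ)⌋₊).filter IsPrimePow, a q * Real.log q ≤
          C' * √ρ * z := by
  obtain ⟨C₂, δ, hC₂, hδ, h₂⟩ := psum_tail n hn C
  obtain ⟨C₁, hC₁, h₁⟩ := theta_short
  refine ⟨1 + n * (|C| * n * 3 ^ n * C₁), by positivity, fun ρ₀ hρ₀ => ?_⟩
  set M : ℝ := max 1 ρ₀⁻¹ with hM
  have hM1 : 1 ≤ M := le_max_left _ _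
  have hs₀ : 0 < √ρ₀ := Real.sqrt_pos.2 hρ₀
  refine ⟨max (M ^ n) ((3 * C₂ / √ρ₀) ^ δ⁻¹), (one_le_pow₀ hM1).trans (le_max_left _ _),
    fun a ha ρ z hρ hρ2 hz => ?_⟩
  have hC := psum_nonneg ha hn
  have hzM : M ^ n ≤ z := (le_max_left _ _).trans hz
  have hz1 : 1 ≤ z := (one_le_pow₀ hM1).trans hzM
  have hz0 : 0 < z := by linarith
  have hρ0 : 0 < ρ := hρ₀.trans_le hρ
  have hρ1 : 1 ≤ 1 + ρ := by linarith
  have hzz : z ≤ z * (1 + ρ) := le_mul_of_one_le_right hz0.le hρ1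
  have hs : √ρ₀ ≤ √ρ := Real.sqrt_le_sqrt hρ
  rw [psum_split n]
  -- the part with large exponents
  have hA : ∑ q ∈ (Ioc ⌊z⌋₊ ⌊z * (1 + ρ)⌋₊).filter
      (fun q => IsPrimePow q ∧ n < q.factorization q.minFac), a q * Real.log q ≤ √ρ * z := by
    have h1 : ∑ q ∈ (Ioc ⌊z⌋₊ ⌊z * (1 + ρ)⌋₊).filter
        (fun q => IsPrimePow q ∧ n < q.factorization q.minFac), a q * Real.log q ≤
        ∑ q ∈ (Icc 1 ⌊z * (1 + ρ)⌋₊).filter
        (fun q => IsPrimePow q ∧ n < q.factorization q.minFac), a q * Real.log q := by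
      refine Finset.sum_le_sum_of_subset_of_nonneg (Finset.filter_subset_filter _ ?_) ?_
      · intro q hq
        obtain ⟨h1, h2⟩ := Finset.mem_Ioc.1 hq
        exact Finset.mem_Icc.2 ⟨by omega, h2⟩
      · intro q _ _
        exact mul_nonneg (ha.nonneg q) (Real.log_natCast_nonneg q)
    have h2 := h₂ a ha (z * (1 + ρ)) (hz1.trans hzz)
    have h3 : (1 + ρ) ^ (1 - δ) ≤ 3 := by
      have := Real.rpow_le_rpow_of_exponent_le hρ1 (show 1 - δ ≤ 1 by linarith)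
      rw [Real.rpow_one] at this
      linarith
    have h4 : 3 * C₂ / √ρ₀ ≤ z ^ δ := by
      have h5 : (3 * C₂ / √ρ₀) ^ δ⁻¹ ≤ z := (le_max_right _ _).trans hz
      rwa [Real.rpow_inv_le_iff_of_pos (by positivity) hz0.le hδ] at h5
    have h5 : 3 * C₂ ≤ z ^ δ * √ρ := by
      rw [div_le_iff₀ hs₀] at h4
      exact h4.trans (mul_le_mul_of_nonneg_left hs (Real.rpow_nonneg hz0.le _))
    have h6 : z ^ (1 - δ) * z ^ δ = z := by
      rw [← Real.rpow_add hz0, sub_add_cancel, Real.rpow_one]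
    have h7 : 0 ≤ z ^ (1 - δ) := Real.rpow_nonneg hz0.le _
    refine h1.trans (h2.trans ?_)
    rw [Real.mul_rpow hz0.le (by linarith)]
    calc C₂ * (z ^ (1 - δ) * (1 + ρ) ^ (1 - δ)) ≤ C₂ * (z ^ (1 - δ) * 3) :=
          mul_le_mul_of_nonneg_left (mul_le_mul_of_nonneg_left h3 h7) hC₂.le
      _ = z ^ (1 - δ) * (3 * C₂) := by ring
      _ ≤ z ^ (1 - δ) * (z ^ δ * √ρ) := mul_le_mul_of_nonneg_left h5 h7
      _ = √ρ * (z ^ (1 - δ) * z ^ δ) := by ring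
      _ = √ρ * z := by rw [h6]
  -- the part with small exponents
  have hmem : ∀ q ∈ (Ioc ⌊z⌋₊ ⌊z * (1 + ρ)⌋₊).filter
      (fun q => IsPrimePow q ∧ ¬ n < q.factorization q.minFac),
      IsPrimePow q ∧ q.factorization q.minFac ≤ n ∧
        z ^ ((q.factorization q.minFac : ℕ) : ℝ)⁻¹ < q.minFac ∧
        (q.minFac : ℝ) ≤ z ^ ((q.factorization q.minFac : ℕ) : ℝ)⁻¹ * (1 + ρ) := by
    intro q hq
    obtain ⟨h1, h2, h3⟩ := Finset.mem_filter.1 hq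
    obtain ⟨h4, h5⟩ := Finset.mem_Ioc.1 h1
    have h6 := (Nat.le_floor_iff (hz0.le.trans hzz)).1 h5
    have h7 := (Nat.floor_lt hz0.le).1 h4
    obtain ⟨hp, hk, he⟩ := psum_pp h2
    have he' : (q.minFac : ℝ) ^ q.factorization q.minFac = q := by exact_mod_cast he
    refine ⟨h2, not_lt.1 h3, ?_, ?_⟩
    · rw [Real.rpow_inv_lt_iff_of_pos hz0.le (Nat.cast_nonneg _) (by exact_mod_cast hk),
        Real.rpow_natCast, he']
      exact h7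
    · have hw : 0 ≤ z ^ ((q.factorization q.minFac : ℕ) : ℝ)⁻¹ := Real.rpow_nonneg hz0.le _
      refine (pow_le_pow_iff_left₀ (Nat.cast_nonneg _) (by positivity)
        (show q.factorization q.minFac ≠ 0 by omega)).1 ?_
      rw [he', mul_pow, Real.rpow_inv_natCast_pow hz0.le (by omega)]
      exact h6.trans (mul_le_mul_of_nonneg_left (le_self_pow₀ hρ1 (by omega)) hz0.le)
  have key := psum_double ((Ioc ⌊z⌋₊ ⌊z * (1 + ρ)⌋₊).filter
      (fun q => IsPrimePow q ∧ ¬ n < q.factorization q.minFac)) (Icc 1 n)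
      (fun k => (Ioc ⌊z ^ (k : ℝ)⁻¹⌋₊ ⌊z ^ (k : ℝ)⁻¹ * (1 + ρ)⌋₊).filter Nat.Prime)
      (fun q => a q * Real.log q)
      (fun k p => C * n * (3 * z ^ (k : ℝ)⁻¹) ^ (k - 1) * Real.log p)
      (fun q hq => (hmem q hq).1) ?_ ?_ ?_ ?_
  · have hB : ∑ k ∈ Icc 1 n,
        ∑ p ∈ (Ioc ⌊z ^ (k : ℝ)⁻¹⌋₊ ⌊z ^ (k : ℝ)⁻¹ * (1 + ρ)⌋₊).filter Nat.Prime,
        C * n * (3 * z ^ (k : ℝ)⁻¹) ^ (k - 1) * Real.log p ≤
        ∑ _k ∈ Icc 1 n, |C| * n * 3 ^ n * C₁ * √ρ * z := by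
      refine Finset.sum_le_sum fun k hk => ?_
      obtain ⟨hk1, hkn⟩ := Finset.mem_Icc.1 hk
      have hw : 0 ≤ z ^ (k : ℝ)⁻¹ := Real.rpow_nonneg hz0.le _
      have he : (z ^ (k : ℝ)⁻¹) ^ (k - 1) * z ^ (k : ℝ)⁻¹ = z := by
        rw [← pow_succ, Nat.sub_add_cancel hk1, Real.rpow_inv_natCast_pow hz0.le (by omega)]
      have hMw : M ≤ z ^ (k : ℝ)⁻¹ := by
        rw [Real.le_rpow_inv_iff_of_pos (by linarith) hz0.le (by exact_mod_cast hk1),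
          Real.rpow_natCast]
        exact (pow_le_pow_right₀ hM1 hkn).trans hzM
      have hρw : 1 ≤ ρ * z ^ (k : ℝ)⁻¹ := by
        have h1 : ρ₀⁻¹ ≤ z ^ (k : ℝ)⁻¹ := (le_max_right _ _).trans hMw
        have h2 := mul_le_mul hρ h1 (inv_nonneg.2 hρ₀.le) hρ0.le
        rwa [mul_inv_cancel₀ hρ₀.ne'] at h2
      have h3 : (3 : ℝ) ^ (k - 1) ≤ 3 ^ n := pow_le_pow_right₀ (by norm_num) (by omega)
      rw [← Finset.mul_sum, abs_of_nonneg hC]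
      calc C * n * (3 * z ^ (k : ℝ)⁻¹) ^ (k - 1) *
            ∑ p ∈ (Ioc ⌊z ^ (k : ℝ)⁻¹⌋₊ ⌊z ^ (k : ℝ)⁻¹ * (1 + ρ)⌋₊).filter Nat.Prime,
              Real.log p
          ≤ C * n * (3 * z ^ (k : ℝ)⁻¹) ^ (k - 1) * (C₁ * √ρ * z ^ (k : ℝ)⁻¹) :=
            mul_le_mul_of_nonneg_left (h₁ _ ρ hρ0 hρ2 hρw) (by positivity)
        _ = 3 ^ (k - 1) * (C * n * C₁ * √ρ *
              ((z ^ (k : ℝ)⁻¹) ^ (k - 1) * z ^ (k : ℝ)⁻¹)) := by rw [mul_pow]; ring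
        _ ≤ 3 ^ n * (C * n * C₁ * √ρ * z) := by
            rw [he]
            exact mul_le_mul_of_nonneg_right h3 (by positivity)
        _ = C * n * 3 ^ n * C₁ * √ρ * z := by ring
    simp only [Finset.sum_const, Nat.card_Icc, Nat.add_sub_cancel, nsmul_eq_mul] at hB
    calc _ ≤ √ρ * z + n * (|C| * n * 3 ^ n * C₁ * √ρ * z) := add_le_add hA (key.trans hB)
      _ = (1 + n * (|C| * n * 3 ^ n * C₁)) * √ρ * z := by ring
  · intro q hq
    obtain ⟨h1, h2, -⟩ := hmem q hq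
    exact Finset.mem_Icc.2 ⟨(psum_pp h1).2.1, h2⟩
  · intro q hq
    obtain ⟨h1, -, h3, h4⟩ := hmem q hq
    have hp := (psum_pp h1).1
    exact Finset.mem_filter.2 ⟨Finset.mem_Ioc.2
      ⟨(Nat.floor_lt (Real.rpow_nonneg hz0.le _)).2 h3, Nat.le_floor h4⟩, hp⟩
  · intro k _ p _
    have := Real.log_natCast_nonneg p
    positivity
  · intro q hq
    obtain ⟨h1, h2, -, h4⟩ := hmem q hq
    obtain ⟨hp, hk, he⟩ := psum_pp h1
    have hw : 0 ≤ z ^ ((q.factorization q.minFac : ℕ) : ℝ)⁻¹ := Real.rpow_nonneg hz0.le _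
    have h5 := psum_small ha hp hk h2
      (W := 3 * z ^ ((q.factorization q.minFac : ℕ) : ℝ)⁻¹) (by nlinarith)
    rwa [he] at h5

end Vale.Agent.P007
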