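import Vale.Agent.P007.N.An0

/-! # P007 N: primes in short intervals (binomial coefficient bound)

Plan.  `N = ⌊z⌋₊`, `N' = ⌊z(1+ρ)⌋₊`, `h = N' - N ≤ ρ z + 1 ≤ 2 ρ z`.
* `ρ ≥ 1/4`: Chebyshev, `∑_{p ≤ 3z} log p ≤ 3 z log 4` (`Chebyshev.theta_le_log4_mul_x`, or
  `primorial_le_four_pow`), and `1 ≤ 2 √ρ`.
* `ρ < 1/4`: `z ≥ 4`, `h ≤ z/2 ≤ N`, so each prime `p ∈ (N, N+h]` divides `(N+h).choose h`
  (`Nat.Prime.dvd_choose_add`), the product of these primes divides it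
  (`Finset.prod_primes_dvd`), and `(N+h).choose h ≤ (N+h)^h / h! ≤ (e (N+h)/h)^h`
  (`Nat.choose_le_pow_div`, `Real.pow_div_factorial_le_exp`).  So the sum is at most
  `h (1 + log ((N+h)/h)) ≤ h + 2 √(h (N+h))` (`log x ≤ 2 √x`); `h = 0` gives the empty sum. -/

namespace Vale.Agent.P007

open Finset

theorem theta_le : ∃ C : ℝ, 0 < C ∧ ∀ x : ℝ, 0 ≤ x →
    ∑ p ∈ (Icc 1 ⌊x⌋₊).filter Nat.Prime, Real.log p ≤ C * x := by
  refine ⟨Real.log 4, Real.log_pos (by norm_num), fun x hx => ?_⟩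
  refine le_trans ?_ (Chebyshev.theta_le_log4_mul_x hx)
  rw [Chebyshev.theta_eq_sum_Icc]
  refine sum_le_sum_of_subset_of_nonneg (filter_subset_filter _ (Icc_subset_Icc_left (Nat.zero_le 1)))
    fun p _ _ => Real.log_natCast_nonneg p

theorem th_log_le {x : ℝ} (hx : 0 < x) : Real.log x ≤ 2 * √x := by
  have h1 := Real.log_le_sub_one_of_pos (Real.sqrt_pos.2 hx)
  rw [Real.log_sqrt hx.le] at h1
  linarith

theorem th_choose (M h : ℕ) (hh : 0 < h) (hM : h ≤ M) :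
    Real.log (M.choose h) ≤ h + 2 * √((h : ℝ) * M) := by
  have h0 : (0 : ℝ) < h := Nat.cast_pos.2 hh
  have hM0 : (0 : ℝ) < M := Nat.cast_pos.2 (hh.trans_le hM)
  have h1 : (M.choose h : ℝ) ≤ (M : ℝ) ^ h / h.factorial := Nat.choose_le_pow_div h M
  have h2 := Real.pow_div_factorial_le_exp (h : ℝ) h0.le h
  have h3 : (M : ℝ) ^ h / h.factorial = ((M : ℝ) / h) ^ h * ((h : ℝ) ^ h / h.factorial) := by
    rw [div_pow]
    field_simp
  have h4 : (M.choose h : ℝ) ≤ ((M : ℝ) / h) ^ h * Real.exp h := by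
    rw [h3] at h1
    exact h1.trans (mul_le_mul_of_nonneg_left h2 (by positivity))
  have h5 := Real.log_le_log (Nat.cast_pos.2 (Nat.choose_pos hM)) h4
  rw [Real.log_mul (by positivity) (Real.exp_pos _).ne', Real.log_pow, Real.log_exp] at h5
  have h6 := th_log_le (div_pos hM0 h0)
  have h7 : (h : ℝ) * √((M : ℝ) / h) = √((h : ℝ) * M) := by
    have e : (h : ℝ) * M = (h : ℝ) ^ 2 * ((M : ℝ) / h) := by field_simp
    rw [e, Real.sqrt_mul (sq_nonneg _), Real.sqrt_sq h0.le]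
  have h8 := mul_le_mul_of_nonneg_left h6 h0.le
  nlinarith

theorem th_nat (N h : ℕ) (hN : h ≤ N) :
    ∑ p ∈ (Ioc N (N + h)).filter Nat.Prime, Real.log p ≤ h + 2 * √((h : ℝ) * (N + h : ℕ)) := by
  rcases Nat.eq_zero_or_pos h with rfl | hh
  · simp
  refine le_trans ?_ (th_choose (N + h) h hh (by omega))
  have hd : ∏ p ∈ (Ioc N (N + h)).filter Nat.Prime, p ∣ (N + h).choose h := by
    refine Finset.prod_primes_dvd _ (fun p hp => (mem_filter.1 hp).2.prime) fun p hp => ?_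
    obtain ⟨h1, h2⟩ := mem_filter.1 hp
    obtain ⟨h3, h4⟩ := mem_Ioc.1 h1
    rw [add_comm N h]
    exact h2.dvd_choose_add (by omega) h3 (by omega)
  have hle := Nat.le_of_dvd (Nat.choose_pos (by omega)) hd
  rw [← Real.log_prod (fun p hp => Nat.cast_ne_zero.2 (mem_filter.1 hp).2.ne_zero), ← Nat.cast_prod]
  refine Real.log_le_log (Nat.cast_pos.2 (prod_pos fun p hp => (mem_filter.1 hp).2.pos)) ?_
  exact Nat.cast_le.2 hle

theorem theta_short : ∃ C : ℝ, 0 < C ∧ ∀ z ρ : ℝ, 0 < ρ → ρ ≤ 2 → 1 ≤ ρ * z →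
    ∑ p ∈ (Ioc ⌊z⌋₊ ⌊z * (1 + ρ)⌋₊).filter Nat.Prime, Real.log p ≤ C * √ρ * z := by
  obtain ⟨C, hC, hθ⟩ := theta_le
  refine ⟨6 * C + 7, by positivity, fun z ρ hρ hρ2 hz => ?_⟩
  have hz0 : 0 < z := by
    by_contra hc
    have := mul_nonpos_of_nonneg_of_nonpos hρ.le (not_lt.1 hc)
    linarith
  have ht : 0 < √ρ := Real.sqrt_pos.2 hρ
  have ht2 : √ρ ^ 2 = ρ := Real.sq_sqrt hρ.le
  have htz : 0 < √ρ * z := mul_pos ht hz0
  have hρz : 0 < ρ * z := mul_pos hρ hz0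
  rcases le_or_gt (1 / 4) ρ with h4 | h4
  · have h1 : ∑ p ∈ (Ioc ⌊z⌋₊ ⌊z * (1 + ρ)⌋₊).filter Nat.Prime, Real.log p ≤
        ∑ p ∈ (Icc 1 ⌊z * (1 + ρ)⌋₊).filter Nat.Prime, Real.log p := by
      refine sum_le_sum_of_subset_of_nonneg (filter_subset_filter _ fun p hp => ?_)
        fun p _ _ => Real.log_natCast_nonneg p
      obtain ⟨a, b⟩ := mem_Ioc.1 hp
      exact mem_Icc.2 ⟨by omega, b⟩
    have h2 := hθ (z * (1 + ρ)) (by positivity)
    have h3 : 1 / 2 ≤ √ρ := by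
      refine Real.le_sqrt_of_sq_le ?_
      linarith
    have h5 : z * (1 + ρ) ≤ 6 * (√ρ * z) := by nlinarith
    have h6 := mul_le_mul_of_nonneg_left h5 hC.le
    nlinarith
  · have h3 : √ρ ≤ 1 / 2 := by
      refine Real.sqrt_le_iff.2 ⟨by norm_num, ?_⟩
      linarith
    have hz4 : 4 ≤ z := by nlinarith
    have hle : ⌊z⌋₊ ≤ ⌊z * (1 + ρ)⌋₊ := Nat.floor_le_floor (by nlinarith)
    obtain ⟨h, hh⟩ := Nat.exists_eq_add_of_le hle
    have a1 : (⌊z * (1 + ρ)⌋₊ : ℝ) ≤ z * (1 + ρ) := Nat.floor_le (by positivity)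
    have a2 : z < ⌊z⌋₊ + 1 := Nat.lt_floor_add_one z
    rw [hh] at a1 ⊢
    have a3 : (h : ℝ) ≤ 2 * (ρ * z) := by
      push_cast at a1
      nlinarith
    have a4 : h ≤ ⌊z⌋₊ := by
      refine Nat.le_floor ?_
      nlinarith
    refine (th_nat _ h a4).trans ?_
    have a5 : √((h : ℝ) * (⌊z⌋₊ + h : ℕ)) ≤ 3 * (√ρ * z) := by
      refine Real.sqrt_le_iff.2 ⟨by positivity, ?_⟩
      have b1 : ((⌊z⌋₊ + h : ℕ) : ℝ) ≤ 3 * z := by nlinarith
      have b2 : (h : ℝ) * (⌊z⌋₊ + h : ℕ) ≤ 2 * (ρ * z) * (3 * z) :=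
        mul_le_mul a3 b1 (Nat.cast_nonneg _) (by positivity)
      have b3 : (3 * (√ρ * z)) ^ 2 = 9 * (ρ * z * z) := by
        rw [mul_pow, mul_pow, ht2]
        ring
      have b4 : 0 < ρ * z * z := mul_pos hρz hz0
      rw [b3]
      nlinarith
    have a6 : ρ * z ≤ 1 / 2 * (√ρ * z) := by
      have e : ρ * z = √ρ * (√ρ * z) := by rw [← mul_assoc, ← sq, ht2]
      rw [e]
      exact mul_le_mul_of_nonneg_right h3 htz.le
    have a7 : 0 < C * (√ρ * z) := mul_pos hC htz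
    nlinarith

end Vale.Agent.P007
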