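import Vale.Agent.P007.N.Lat

/-! # P007 N: existence of the packet measure

Plan.  `T₀ = {t | nrm t ≤ 2^(d+1) Δ}` is finite.  For `x ∈ P`, `lat_box` (all `r j = 2`) and `surj`
give `t`, `u` with `x = fl (pt t) u`, `|vec t j| e^(ex u j) < 2`; taking the product,
`nrm t / Δ < 2^(d+1)`, so `t ∈ T₀`; and `ex u j ≤ log 2 + log Δ =: ℓ` (as `nrm t ≥ 1`), so `u` is
bounded (`∑ ex u = 0` gives `ex u j ≥ -d ℓ`).  This is `unf_red`.
* Orbits: each is `orb (pt t)`, `t ∈ T₀`, so they form a finite set.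
* `stabL x = {u | fl x u = x}` is a `ℤ`-submodule of `Fin d → ℝ`.  Discrete: for a fixed non-zero
  `w ∈ lat x` (all coordinates non-zero) `u ↦ scal u w` is injective, sends `stabL x` into `lat x`
  (`lat_fl`) and bounded sets to bounded sets; `lat_finite`; a subgroup meeting the unit ball in a
  finite set is discrete (`discreteTopology_of_isOpen_singleton_zero`, or
  `AddSubgroup.discreteTopology_iff`..).  Cocompact: apply `unf_red` to `fl x u`: finitely many
  `t`, for each `t` with `pt t ∈ orb x` fix `u_t` with `pt t = fl x u_t`; then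
  `u - u_t - u' ∈ stabL x` with `u'` bounded.  So `ℝ^d = stabL x + bounded`, and the real span is
  `⊤` (a functional vanishing on `stabL x` is bounded, hence zero;
  `Submodule.exists_le_ker_of_lt_top`).  So `IsZLattice ℝ (stabL x)`; take
  `b = Module.Free.chooseBasis ℤ (stabL x)`, `F = ZSpan.fundamentalDomain (b.ofZLatticeBasis ℝ _)`:
  measurable, bounded, `ZSpan.exist_unique_vadd_mem_fundamentalDomain` gives the bijection,
  `ZSpan.measure_fundamentalDomain_ne_zero`.
* `ν = (volume F)⁻¹ • map (fl x) (volume.restrict F)`: a probability; carried by `orb x`, which is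
  compact (image of `closure F`), hence measurable; invariant since for measurable `S` the set
  `{u | fl x u ∈ S}` is `stabL x`-invariant and `F`, `v +ᵥ F` are both fundamental domains
  (`IsAddFundamentalDomain.measure_set_eq`, `IsAddFundamentalDomain.vadd_of_comm`), or by cutting
  along the translates.
* Finally choose the data for each orbit (`choose`). -/

open MeasureTheory

namespace Vale.Agent.P007

variable {d : ℕ} {P : Set (X (d + 1))} {Δ : ℝ} {T : Type} {pt : T → X (d + 1)}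
  {vec : T → Fin (d + 1) → ℝ} {nrm : T → ℕ}

theorem unf_red (h : Param P Δ pt vec nrm) : ∃ B : ℝ, ∀ x ∈ P, ∃ t u,
    (nrm t : ℝ) ≤ 2 ^ (d + 1) * Δ ∧ ‖u‖ ≤ B ∧ x = fl (pt t) u := by
  have hΔ := h.one_le
  refine ⟨(d + 1) * (2 * Δ), fun x hx => ?_⟩
  obtain ⟨w, hw, hw0, hw2⟩ := lat_box (by omega) x (fun _ => 2) (fun _ => two_pos) (by
    rw [Finset.prod_const, Finset.card_univ, Fintype.card_fin]
    exact one_lt_pow₀ one_lt_two (by omega))
  obtain ⟨t, u, e1, e2⟩ := h.surj x hx w hw hw0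
  have hn : (1 : ℝ) ≤ nrm t := by exact_mod_cast h.pos t
  have hq : 0 ≤ (nrm t : ℝ) / Δ := by positivity
  refine ⟨t, u, ?_, ?_, e1⟩
  · have h1 : |∏ j, w j| ≤ 2 ^ (d + 1) := by
      rw [Finset.abs_prod]
      refine (Finset.prod_le_prod (fun j _ => abs_nonneg _) fun j _ => (hw2 j).le).trans ?_
      rw [Finset.prod_const, Finset.card_univ, Fintype.card_fin]
    rw [e2, prod_scal, Finset.abs_prod, Finset.prod_congr rfl fun j _ => h.abs t j,
      Finset.prod_const, Finset.card_univ, Fintype.card_fin, ← Real.rpow_natCast,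
      ← Real.rpow_mul hq, Nat.cast_succ, one_div_mul_cancel (by positivity), Real.rpow_one,
      div_le_iff₀ (by linarith)] at h1
    exact h1
  · have h1 : ∀ j, 1 / Δ ≤ |vec t j| := fun j => by
      rw [h.abs]
      refine le_trans ?_ (Real.rpow_le_rpow (by positivity)
        (div_le_div_of_nonneg_right hn (by linarith)) (by positivity))
      refine (Real.rpow_one _).symm.trans_le (Real.rpow_le_rpow_of_exponent_ge (by positivity)
        ((div_le_one (by linarith)).2 hΔ) ((div_le_one (by positivity)).2 ?_))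
      linarith [(Nat.cast_nonneg d : (0 : ℝ) ≤ d)]
    have h2 : ∀ j, ex u j ≤ 2 * Δ := fun j => by
      have h3 := hw2 j
      rw [e2, scal, abs_mul, abs_of_pos (Real.exp_pos _)] at h3
      have h4 := mul_le_mul_of_nonneg_right (h1 j) (Real.exp_pos (ex u j)).le
      rw [one_div_mul_eq_div, div_le_iff₀ (by linarith)] at h4
      nlinarith [Real.add_one_le_exp (ex u j)]
    refine (pi_norm_le_iff_of_nonneg (by positivity)).2 fun i => ?_
    have h3 := Finset.single_le_sum (f := fun j => 2 * Δ - ex u j)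
      (fun j _ => sub_nonneg.2 (h2 j)) (Finset.mem_univ i.castSucc)
    have h4 := h2 i.castSucc
    rw [Finset.sum_sub_distrib, sum_ex, Finset.sum_const, Finset.card_univ, Fintype.card_fin,
      nsmul_eq_mul, Nat.cast_succ] at h3
    rw [ex_castSucc] at h3 h4
    rw [Real.norm_eq_abs, abs_le]
    constructor <;> nlinarith [(Nat.cast_nonneg d : (0 : ℝ) ≤ d)]

theorem unf_fin (h : Param P Δ pt vec nrm) (C : ℝ) : {t | (nrm t : ℝ) ≤ C}.Finite := by
  refine ((Set.finite_Iic ⌊C⌋₊).biUnion fun m _ => h.fin m).subset fun t ht => ?_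
  exact Set.mem_biUnion (x := nrm t) (Nat.le_floor ht) rfl

/-- the stabiliser of `x` -/
def stabL (x : X (d + 1)) : Submodule ℤ (Fin d → ℝ) := AddSubgroup.toIntSubmodule
  { carrier := {u | fl x u = x}
    zero_mem' := fl_zero x
    add_mem' := fun {u v} hu hv => (fl_fl x u v).symm.trans ((congrArg (fl · v) hu).trans hv)
    neg_mem' := fun {u} hu => by
      have h1 := fl_fl x u (-u)
      rw [show fl x u = x from hu, add_neg_cancel, fl_zero] at h1
      exact h1 }

theorem mem_stabL {x : X (d + 1)} {u : Fin d → ℝ} : u ∈ stabL x ↔ fl x u = x := Iff.rfl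

theorem unf_sub_mem {x : X (d + 1)} {u v : Fin d → ℝ} : u - v ∈ stabL x ↔ fl x u = fl x v := by
  rw [mem_stabL]
  refine ⟨fun h => ?_, fun h => ?_⟩
  · rw [← sub_add_cancel u v, ← fl_fl, h]
  · rw [sub_eq_add_neg, ← fl_fl, h, fl_fl, add_neg_cancel, fl_zero]

theorem unf_discrete (h : Param P Δ pt vec nrm) {x : X (d + 1)} (hx : x ∈ P) :
    DiscreteTopology (stabL x) := by
  obtain ⟨w, hw, hw0, -⟩ := lat_box (by omega) x (fun _ => 2) (fun _ => two_pos) (by
    rw [Finset.prod_const, Finset.card_univ, Fintype.card_fin]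
    exact one_lt_pow₀ one_lt_two (by omega))
  obtain ⟨t, u, -, e2⟩ := h.surj x hx w hw hw0
  have h1 : ∀ j, w j ≠ 0 := fun j => by
    have hn : (1 : ℝ) ≤ nrm t := by exact_mod_cast h.pos t
    have hΔ := h.one_le
    rw [e2]
    refine mul_ne_zero (abs_pos.1 ?_) (Real.exp_pos _).ne'
    rw [h.abs]
    positivity
  have h2 : Continuous fun v : Fin d → ℝ => scal v w :=
    continuous_scal.comp (continuous_id.prodMk continuous_const)
  obtain ⟨C, hC⟩ := (((isCompact_closedBall (0 : Fin d → ℝ) 1).image h2).isBounded).exists_norm_le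
  have h3 : {v : stabL x | ‖v‖ ≤ 1}.Finite := by
    refine Set.Finite.of_finite_image (f := fun v : stabL x => scal v w)
      ((lat_finite x C).subset ?_) fun v _ v' _ e => Subtype.ext (funext fun i => ?_)
    · rintro _ ⟨v, hv, rfl⟩
      refine ⟨?_, hC _ ⟨v, mem_closedBall_zero_iff.2 hv, rfl⟩⟩
      have h4 := lat_fl x v
      rw [mem_stabL.1 v.2] at h4
      exact h4.ge ⟨w, hw, rfl⟩
    · have h4 := Real.exp_injective (mul_left_cancel₀ (h1 _) (congrFun e i.castSucc))
      rwa [ex_castSucc, ex_castSucc] at h4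
  refine discreteTopology_of_isOpen_singleton_zero (isOpen_singleton_of_finite_mem_nhds 0 ?_ h3)
  refine Filter.mem_of_superset (Metric.closedBall_mem_nhds 0 one_pos) fun v hv => ?_
  exact mem_closedBall_zero_iff.1 hv

theorem unf_cocompact (h : Param P Δ pt vec nrm) {x : X (d + 1)} (hx : x ∈ P) :
    ∃ R : ℝ, ∀ u, ∃ v, ‖v‖ ≤ R ∧ fl x u = fl x v := by
  obtain ⟨B, hB⟩ := unf_red h
  have h1 : ∀ t, ∃ v, pt t ∈ orb x → pt t = fl x v := fun t => by
    by_cases h2 : pt t ∈ orb x
    · exact (mem_orb.1 h2).imp fun v hv _ => hv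
    · exact ⟨0, fun a => absurd a h2⟩
  choose v hv using h1
  obtain ⟨C, hC⟩ := ((unf_fin h (2 ^ (d + 1) * Δ)).image fun t => ‖v t‖).bddAbove
  refine ⟨C + B, fun u => ?_⟩
  obtain ⟨t, u', h1, h2, h3⟩ := hB _ (h.inv x hx u)
  refine ⟨v t + u', (norm_add_le _ _).trans (add_le_add (hC ⟨t, h1, rfl⟩) h2), ?_⟩
  rw [← fl_fl, ← hv t ⟨u + -u', ?_⟩, h3]
  change _ = fl x _
  rw [← fl_fl, h3, fl_fl, add_neg_cancel, fl_zero]

theorem unf_span (h : Param P Δ pt vec nrm) {x : X (d + 1)} (hx : x ∈ P) :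
    Submodule.span ℝ (stabL x : Set (Fin d → ℝ)) = ⊤ := by
  obtain ⟨R, hR⟩ := unf_cocompact h hx
  by_contra hne
  obtain ⟨f, hf, hk⟩ := Submodule.exists_le_ker_of_lt_top _ (lt_top_iff_ne_top.2 hne)
  obtain ⟨u, hu⟩ := DFunLike.ne_iff.1 hf
  obtain ⟨C, hC⟩ := (((isCompact_closedBall (0 : Fin d → ℝ) R).image
    f.continuous_of_finiteDimensional).isBounded).exists_norm_le
  obtain ⟨v, h1, h2⟩ := hR (((|C| + 1) / f u) • u)
  have h3 : f _ = 0 := hk (Submodule.subset_span (unf_sub_mem.2 h2))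
  have h4 := hC _ ⟨v, mem_closedBall_zero_iff.2 h1, rfl⟩
  rw [map_sub, map_smul, smul_eq_mul, div_mul_cancel₀ _ hu, sub_eq_zero] at h3
  rw [← h3, Real.norm_eq_abs] at h4
  linarith [le_abs_self (|C| + 1), le_abs_self C]

theorem unf_cont (x : X (d + 1)) : Continuous (fl x) :=
  Continuous.comp (g := fun p : X (d + 1) × (Fin d → ℝ) => fl p.1 p.2) (f := fun u => (x, u))
    continuous_fl (Continuous.prodMk_right x)

theorem unf_cont' (v : Fin d → ℝ) : Measurable fun y : X (d + 1) => fl y v :=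
  (continuous_fl.comp (Continuous.prodMk_left v)).measurable

theorem unf_meas (h : Param P Δ pt vec nrm) {x : X (d + 1)} (hx : x ∈ P) :
    MeasurableSet (orb x) := by
  obtain ⟨R, hR⟩ := unf_cocompact h hx
  have h1 : orb x = fl x '' Metric.closedBall 0 R := by
    refine Set.Subset.antisymm (fun y hy => ?_) fun y ⟨u, _, e⟩ => mem_orb.2 ⟨u, e.symm⟩
    obtain ⟨u, e⟩ := mem_orb.1 hy
    obtain ⟨v, h2, h3⟩ := hR u
    exact ⟨v, mem_closedBall_zero_iff.2 h2, (e.trans h3).symm⟩
  rw [h1]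
  exact ((isCompact_closedBall _ _).image (unf_cont x)).isClosed.measurableSet

theorem unf_dom (L : Submodule ℤ (Fin d → ℝ)) [DiscreteTopology L]
    (h : Submodule.span ℝ (L : Set (Fin d → ℝ)) = ⊤) : ∃ F : Set (Fin d → ℝ), MeasurableSet F ∧
      IsAddFundamentalDomain L F volume ∧ (∀ u, ∃! v : L, v +ᵥ u ∈ F) ∧
      IsProbabilityMeasure (ProbabilityTheory.cond volume F) := by
  have : IsZLattice ℝ L := ⟨h⟩
  let b := Module.Free.chooseBasis ℤ L
  have hu := ZSpan.exist_unique_vadd_mem_fundamentalDomain (b.ofZLatticeBasis ℝ L)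
  rw [b.ofZLatticeBasis_span ℝ] at hu
  exact ⟨_, ZSpan.fundamentalDomain_measurableSet _, ZLattice.isAddFundamentalDomain b volume, hu,
    ProbabilityTheory.cond_isProbabilityMeasure_of_finite
      (ZSpan.measure_fundamentalDomain_ne_zero _)
      (ZSpan.fundamentalDomain_isBounded _).measure_lt_top.ne⟩

open Pointwise in
theorem unf_shift {L : Submodule ℤ (Fin d → ℝ)} [Countable L] {F A : Set (Fin d → ℝ)}
    (hF : IsAddFundamentalDomain L F volume) (hA : MeasurableSet A)
    (h : ∀ g ∈ L, ∀ u, g + u ∈ A ↔ u ∈ A) (v : Fin d → ℝ) :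
    volume (F ∩ (v + ·) ⁻¹' A) = volume (F ∩ A) := by
  have : VAddInvariantMeasure L (Fin d → ℝ) volume :=
    ⟨fun c s _ => measure_preimage_add volume (c : Fin d → ℝ) s⟩
  rw [Set.inter_comm F A, hF.measure_set_eq (hF.vadd_of_comm v) hA fun g => Set.ext (h g g.2),
    ← measure_preimage_add volume v (A ∩ (v +ᵥ F)), Set.inter_comm, Set.preimage_inter]
  congr 2
  ext u
  exact Set.vadd_mem_vadd_set_iff.symm

theorem unf_section (h : Param P Δ pt vec nrm) {x : X (d + 1)} (hx : x ∈ P) :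
    ∃ (F : Set (Fin d → ℝ)) (ν : Measure (X (d + 1))), MeasurableSet F ∧
      Set.BijOn (fl x) F (orb x) ∧ IsProbabilityMeasure ν ∧ ν (orb x)ᶜ = 0 ∧
      ∀ u, ν.map (fun y => fl y u) = ν := by
  have := unf_discrete h hx
  obtain ⟨F, hm, hF, hu, hp⟩ := unf_dom (stabL x) (unf_span h hx)
  have hc : Continuous (fl x) := unf_cont x
  have : Countable (stabL x) := TopologicalSpace.separableSpace_iff_countable.1 inferInstance
  refine ⟨F, (ProbabilityTheory.cond volume F).map (fl x), hm,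
    ⟨fun u _ => mem_orb.2 ⟨u, rfl⟩, fun u h1 v h2 e => ?_, fun y hy => ?_⟩,
    Measure.isProbabilityMeasure_map hc.measurable.aemeasurable, ?_, fun v => ?_⟩
  · have h3 := (hu v).unique (y₁ := ⟨u - v, unf_sub_mem.2 e⟩) (y₂ := 0)
      (by simpa [Submodule.vadd_def] using h1) (by simpa using h2)
    exact sub_eq_zero.1 (congrArg Subtype.val h3)
  · obtain ⟨u, e⟩ := mem_orb.1 hy
    obtain ⟨v, hv, -⟩ := hu u
    refine ⟨_, hv, Eq.trans (unf_sub_mem.1 ?_) e.symm⟩
    rw [Submodule.vadd_def, vadd_eq_add, add_sub_cancel_right]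
    exact v.2
  · rw [Measure.map_apply hc.measurable (unf_meas h hx).compl,
      show fl x ⁻¹' (orb x)ᶜ = ∅ from
        Set.eq_empty_of_forall_notMem fun u a => a (mem_orb.2 ⟨u, rfl⟩), measure_empty]
  · have h1 := unf_cont' (d := d) v
    ext S hS
    have h2 := unf_shift hF (hc.measurable hS) (fun g hg u => by
      have h3 : fl x (g + u) = fl x u := unf_sub_mem.1 (by rwa [add_sub_cancel_right])
      rw [Set.mem_preimage, Set.mem_preimage, h3]) v
    have h3 : fl x ⁻¹' ((fun y => fl y v) ⁻¹' S) = (v + ·) ⁻¹' (fl x ⁻¹' S) := by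
      ext u
      rw [Set.mem_preimage, Set.mem_preimage, Set.mem_preimage, Set.mem_preimage, fl_fl,
        add_comm u v]
    rw [Measure.map_apply h1 hS, Measure.map_apply hc.measurable (h1 hS),
      Measure.map_apply hc.measurable hS, ProbabilityTheory.cond_apply hm,
      ProbabilityTheory.cond_apply hm, h3, h2]

theorem unf_exists (h : Param P Δ pt vec nrm) : ∃ μ, IsPacketMeasure P μ := by
  obtain ⟨B, hB⟩ := unf_red h
  have h1 : {Y | ∃ x ∈ P, Y = orb x}.Finite := by
    refine ((unf_fin h (2 ^ (d + 1) * Δ)).image fun t => orb (pt t)).subset ?_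
    rintro _ ⟨x, hx, rfl⟩
    obtain ⟨t, u, h2, -, h3⟩ := hB x hx
    exact ⟨t, h2, (orb_eq_of_mem ⟨u, h3⟩).symm⟩
  have h2 : ∀ Y : Set (X (d + 1)), ∃ (ν : Measure (X (d + 1))) (vol : ENNReal),
      (∃ x ∈ P, Y = orb x) → IsProbabilityMeasure ν ∧ ν Yᶜ = 0 ∧
      (∀ u : Fin d → ℝ, ν.map (fun y => act y (torus u)) = ν) ∧
      ∃ x ∈ Y, ∃ F : Set (Fin d → ℝ), MeasurableSet F ∧
        Set.BijOn (fun u => act x (torus u)) F Y ∧ vol = volume F := fun Y => by
    by_cases h3 : ∃ x ∈ P, Y = orb x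
    · obtain ⟨x, hx, rfl⟩ := h3
      obtain ⟨F, ν, g1, g2, g3, g4, g5⟩ := unf_section h hx
      exact ⟨ν, volume F, fun _ => ⟨g3, g4, g5, x, self_mem_orb x, F, g1, g2, rfl⟩⟩
    · exact ⟨0, 0, fun a => absurd a h3⟩
  choose ν vol h3 using h2
  exact ⟨_, h1.toFinset, ν, vol, fun Y => h1.mem_toFinset,
    fun Y hY => h3 Y (h1.mem_toFinset.1 hY), rfl⟩

end Vale.Agent.P007
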