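import Vale.Agent.P007.N.Lat

/-! # P007 N: unfolding

Plan.  Let `Λ = {u | fl x u = x}` as an `AddSubgroup`; it is countable (`u ↦ scal u w` embeds it
into `lat x`, `lat_countable`, for a non-zero `w ∈ lat x`, whose coordinates are all non-zero by
`surj`/`abs`).  From `BijOn (fl x) F (orb x)`, `IsAddFundamentalDomain Λ F volume`
(`IsAddFundamentalDomain.mk'`: `λ + u ∈ F` iff `λ + u` is the point of `F` over `fl x u`).
* `unf_orbit`: for `t` with `pt t ∈ orb x` fix `u_t` with `pt t = fl x u_t`, `w_t = scal (-u_t) (vec t)`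
  `∈ lat x`.  `∫ f(scal u (vec t)) du = ∫ f(scal u w_t) du = ∑_λ ∫_F f(scal u (scal λ w_t)) du`
  (`lintegral_add_right_eq_self`, `IsAddFundamentalDomain.lintegral_eq_tsum''`), and
  `(t, λ) ↦ scal λ w_t` is a bijection onto the non-zero vectors of `lat x` (`surj`, `inj`, and
  injectivity of `λ ↦ scal λ w`).  `lintegral_tsum`, `ENNReal.tsum_prod`, `Equiv.tsum_eq`.
* `unf_nu`: `vol F * ν S = ∫_F ν((fl · u)⁻¹ S) du = ∫ (∫_F 1_S(fl y u) du) dν(y)`
  (`lintegral_lintegral_swap`, `continuous_fl`; `F` may have infinite volume, `volume.restrict F`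
  is sigma-finite), and for `y = fl x u₀` the inner integral is `vol(F ∩ {u | fl x u ∈ S})`
  because `u₀ +ᵥ F` is again a fundamental domain and the set is `Λ`-invariant
  (`IsAddFundamentalDomain.measure_set_eq`).  Only `∀ᵐ y ∂ν, y ∈ orb x` is needed (`ae_iff`).
* `unf_vol`: `≠ 0` as countably many translates of `F` cover (`IsAddFundamentalDomain.measure_ne_zero`);
  `≠ ⊤` from `unf_orbit` for the indicator of the open cube `(-2,2)^(d+1)` and `lat_box`: only `t`
  with `nrm t ≤ 2^(d+1) Δ` contribute (finitely many), each the volume of a bounded set.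
* `unf_main`: `Z = ∑ vol Y`.  Distinct orbits are disjoint (`orb_eq_of_mem`), each `pt t` lies in
  exactly one `Y ∈ S`, so `∑' t = ∑ Y ∈ S, ∑' t with pt t ∈ Y` (e.g. insert indicators,
  `tsum_subtype`, `ENNReal.tsum_comm`/`Summable.tsum_finsetSum`).  `AInv` by `diagA_eq_torus`. -/

open MeasureTheory
open scoped ENNReal

namespace Vale.Agent.P007

variable {d : ℕ} {P : Set (X (d + 1))} {Δ : ℝ} {T : Type} {pt : T → X (d + 1)}
  {vec : T → Fin (d + 1) → ℝ} {nrm : T → ℕ}

private def ubStab (x : X (d + 1)) : AddSubgroup (Fin d → ℝ) where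
  carrier := {u | fl x u = x}
  zero_mem' := fl_zero x
  add_mem' {a b} ha hb := by
    change fl x (a + b) = x
    rw [← fl_fl, ha, hb]
  neg_mem' {a} ha := by
    change fl x (-a) = x
    conv_lhs => rw [← show fl x a = x from ha]
    rw [fl_fl, add_neg_cancel, fl_zero]

private theorem ub_fl (x : X (d + 1)) (l : ubStab x) (u : Fin d → ℝ) : fl x (l + u) = fl x u := by
  rw [← fl_fl, show fl x l = x from l.2]

private theorem ub_vec (h : Param P Δ pt vec nrm) (t : T) (j : Fin (d + 1)) : vec t j ≠ 0 := by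
  have h1 : (1 : ℝ) ≤ nrm t := by exact_mod_cast h.pos t
  have h2 := h.one_le
  rw [← abs_pos, h.abs]
  exact Real.rpow_pos_of_pos (div_pos (by linarith) (by linarith)) _

private theorem ub_coord (h : Param P Δ pt vec nrm) {x : X (d + 1)} (hx : x ∈ P)
    {w : Fin (d + 1) → ℝ} (hw : w ∈ lat x) (h0 : w ≠ 0) (j : Fin (d + 1)) : w j ≠ 0 := by
  obtain ⟨t, u, -, rfl⟩ := h.surj x hx w hw h0
  exact mul_ne_zero (ub_vec h t j) (Real.exp_pos _).ne'

private theorem ub_inj {w : Fin (d + 1) → ℝ} (hw : ∀ j, w j ≠ 0) :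
    Function.Injective fun u : Fin d → ℝ => scal u w := fun u v huv => by
  funext i
  have h1 := mul_left_cancel₀ (hw _) (congrFun huv i.castSucc)
  rwa [Real.exp_eq_exp, ex_castSucc, ex_castSucc] at h1

private theorem ub_mem (x : X (d + 1)) (u : Fin d → ℝ) {w : Fin (d + 1) → ℝ} (hw : w ∈ lat x) :
    scal u w ∈ lat (fl x u) := by
  rw [lat_fl]
  exact ⟨w, hw, rfl⟩

private theorem ub_box (x : X (d + 1)) : ∃ w ∈ lat x, w ≠ 0 ∧ ∀ j, |w j| < 2 :=
  lat_box (by omega) x (fun _ => 2) (fun _ => two_pos) (by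
    rw [Finset.prod_const, Finset.card_univ, Fintype.card_fin]
    exact one_lt_pow₀ one_lt_two (by omega))

private theorem ub_count (h : Param P Δ pt vec nrm) {x : X (d + 1)} (hx : x ∈ P) :
    Countable (ubStab x) := by
  obtain ⟨w, hw, h0, -⟩ := ub_box x
  have := (lat_countable x).to_subtype
  refine Function.Injective.countable (f := fun l : ubStab x =>
    (⟨scal l w, by simpa only [show fl x l = x from l.2] using ub_mem x l hw⟩ : lat x)) ?_
  intro a b hab
  exact Subtype.ext (ub_inj (ub_coord h hx hw h0) (congrArg Subtype.val hab))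

private theorem ub_fund {x : X (d + 1)} {F : Set (Fin d → ℝ)}
    (hF : MeasurableSet F) (hb : Set.BijOn (fl x) F (orb x)) :
    IsAddFundamentalDomain (ubStab x) F volume := by
  refine IsAddFundamentalDomain.mk' hF.nullMeasurableSet fun u => ?_
  obtain ⟨v, hv, hvu⟩ := hb.surjOn (show fl x u ∈ orb x from ⟨u, rfl⟩)
  have h1 : fl x (v - u) = x := by
    rw [sub_eq_add_neg, ← fl_fl, hvu, fl_fl, add_neg_cancel, fl_zero]
  refine ⟨⟨v - u, h1⟩, ?_, fun l hl => Subtype.ext ?_⟩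
  · change v - u + u ∈ F
    rwa [sub_add_cancel]
  · exact eq_sub_of_add_eq (hb.injOn hl hv ((ub_fl x l u).trans hvu.symm))

private theorem ub_meas {f : (Fin (d + 1) → ℝ) → ℝ≥0∞} (hf : Measurable f) (w : Fin (d + 1) → ℝ) :
    Measurable fun u : Fin d → ℝ => f (scal u w) :=
  hf.comp (continuous_scal.comp (continuous_id.prodMk continuous_const)).measurable

theorem unf_orbit (h : Param P Δ pt vec nrm) {x : X (d + 1)} (hx : x ∈ P) {F : Set (Fin d → ℝ)}
    (hF : MeasurableSet F) (hb : Set.BijOn (fl x) F (orb x)) (f : (Fin (d + 1) → ℝ) → ℝ≥0∞)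
    (hf : Measurable f) :
    ∫⁻ u in F, ∑' w : {w // w ∈ lat x ∧ w ≠ 0}, f (scal u w) =
      ∑' t : {t // pt t ∈ orb x}, ∫⁻ u, f (scal u (vec t)) := by
  have := ub_count h hx
  have hc : Countable {w // w ∈ lat x ∧ w ≠ 0} :=
    ((lat_countable x).mono fun _ hw => hw.1 : {w | w ∈ lat x ∧ w ≠ 0}.Countable).to_subtype
  have key : ∀ t : {t // pt t ∈ orb x}, ∃ u w, pt t = fl x u ∧ w ∈ lat x ∧ vec t = scal u w := by
    rintro ⟨t, u, hu⟩
    have h1 := (h.mem t).2
    rw [show pt t = fl x u from hu, lat_fl] at h1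
    obtain ⟨w, hw, hw2⟩ := h1
    exact ⟨u, w, hu, hw, hw2.symm⟩
  choose U W hU hW hUW using key
  have hW0 : ∀ t, W t ≠ 0 := fun t h0 =>
    ub_vec h t 0 (by rw [hUW t, scal_eq_zero.2 h0]; rfl)
  let e : {t // pt t ∈ orb x} × ubStab x → {w // w ∈ lat x ∧ w ≠ 0} := fun p =>
    ⟨scal p.2 (W p.1), by simpa only [show fl x p.2 = x from p.2.2] using ub_mem x p.2 (hW p.1),
      fun h0 => hW0 _ (scal_eq_zero.1 h0)⟩
  have he : Function.Bijective e := by
    constructor
    · rintro ⟨t, l⟩ ⟨t2, l2⟩ hp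
      have h1 : scal l (W t) = scal l2 (W t2) := congrArg Subtype.val hp
      have h2 : t = t2 := by
        refine Subtype.ext (h.inj t t2 (-U t + l - l2 + U t2) ?_ ?_)
        · rw [hU t, hU t2, fl_fl, ← ub_fl x (l - l2) (U t2)]
          congr 1
          rw [AddSubgroup.coe_sub]
          abel
        · rw [hUW t, hUW t2, scal_scal,
            show U t + (-U t + l - l2 + U t2) = l + (-l2 + U t2) by abel, ← scal_scal, h1, scal_scal,
            add_neg_cancel_left]
      subst h2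
      rw [show l = l2 from Subtype.ext (ub_inj (ub_coord h hx (hW t) (hW0 t)) h1)]
    · rintro ⟨w, hw, h0⟩
      obtain ⟨t, u, h1, h2⟩ := h.surj x hx w hw h0
      have h3 : pt t ∈ orb x := ⟨-u, by
        change pt t = fl x (-u)
        rw [h1, fl_fl, add_neg_cancel, fl_zero]⟩
      refine ⟨(⟨t, h3⟩, ⟨U ⟨t, h3⟩ + u, ?_⟩), Subtype.ext ?_⟩
      · change fl x (U ⟨t, h3⟩ + u) = x
        rw [← fl_fl, ← hU ⟨t, h3⟩, ← h1]
      · change scal (U ⟨t, h3⟩ + u) (W ⟨t, h3⟩) = w
        rw [← scal_scal, ← hUW ⟨t, h3⟩, ← h2]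
  rw [lintegral_tsum fun w => (ub_meas hf _).aemeasurable, ← (Equiv.ofBijective e he).tsum_eq,
    ENNReal.tsum_prod']
  refine tsum_congr fun t => ?_
  have h1 := (ub_fund hF hb).lintegral_eq_tsum'' fun u => f (scal u (W t))
  have h2 := lintegral_add_left_eq_self (μ := volume) (fun u => f (scal u (W t))) (U t)
  simp only [hUW t, scal_scal]
  rw [h2, h1]
  refine tsum_congr fun l => lintegral_congr fun u => ?_
  exact congrArg f (scal_scal _ _ _)

theorem unf_nu (h : Param P Δ pt vec nrm) {x : X (d + 1)} (hx : x ∈ P) {F : Set (Fin d → ℝ)}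
    (hF : MeasurableSet F) (hb : Set.BijOn (fl x) F (orb x)) (ν : Measure (X (d + 1)))
    [IsProbabilityMeasure ν] (h0 : ν (orb x)ᶜ = 0) (hν : ∀ u, ν.map (fun y => fl y u) = ν)
    {S : Set (X (d + 1))} (hS : MeasurableSet S) :
    volume F * ν S = volume (F ∩ {u | fl x u ∈ S}) := by
  have := ub_count h hx
  have hm : Measurable fun p : (Fin d → ℝ) × X (d + 1) => fl p.2 p.1 :=
    (continuous_fl.comp continuous_swap).measurable
  have hg : Measurable (S.indicator (1 : X (d + 1) → ℝ≥0∞)) := measurable_one.indicator hS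
  have h1 : ∀ u, ∫⁻ y, S.indicator 1 (fl y u) ∂ν = ν S := fun u => by
    have h3 : Measurable fun y : X (d + 1) => fl y u :=
      (continuous_fl.comp (continuous_id.prodMk continuous_const)).measurable
    rw [← lintegral_map hg h3, hν u, lintegral_indicator_one hS]
  have h2 : ∀ᵐ y ∂ν, ∫⁻ u in F, S.indicator 1 (fl y u) = volume (F ∩ {u | fl x u ∈ S}) := by
    filter_upwards [show ∀ᵐ y ∂ν, y ∈ orb x from h0] with y hy
    obtain ⟨v, rfl⟩ := mem_orb.1 hy
    have hA : MeasurableSet {u | fl x u ∈ S} :=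
      (continuous_fl.comp (continuous_const.prodMk continuous_id)).measurable hS
    have h3 := (measurePreserving_add_left volume v).setLIntegral_comp_emb
      (measurableEmbedding_addLeft v) (fun u => S.indicator (1 : X (d + 1) → ℝ≥0∞) (fl x u)) F
    have h4 := ((ub_fund hF hb).vadd_of_comm v).setLIntegral_eq (ub_fund hF hb)
      (fun u => S.indicator (1 : X (d + 1) → ℝ≥0∞) (fl x u)) fun l u => congrArg _ (ub_fl x l u)
    simp only [fl_fl]
    rw [h3]
    refine h4.trans ?_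
    rw [Set.inter_comm, ← Measure.restrict_apply hA, ← lintegral_indicator_one hA]
    rfl
  have h5 : Measurable (Function.uncurry fun (u : Fin d → ℝ) (y : X (d + 1)) =>
      S.indicator (1 : X (d + 1) → ℝ≥0∞) (fl y u)) := hg.fun_comp hm
  rw [mul_comm, ← setLIntegral_const, ← lintegral_congr h1, lintegral_lintegral_swap h5.aemeasurable,
    lintegral_congr_ae h2, lintegral_const,
    measure_univ, mul_one]

theorem unf_vol (h : Param P Δ pt vec nrm) {x : X (d + 1)} (hx : x ∈ P) {F : Set (Fin d → ℝ)}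
    (hF : MeasurableSet F) (hb : Set.BijOn (fl x) F (orb x)) : volume F ≠ 0 ∧ volume F ≠ ⊤ := by
  have := ub_count h hx
  refine ⟨(ub_fund hF hb).measure_ne_zero (NeZero.ne _), ?_⟩
  set Q : Set (Fin (d + 1) → ℝ) := {w | ∀ j, |w j| < 2} with hQ
  have hQm : MeasurableSet Q := by
    rw [hQ, Set.ofPred_forall]
    exact MeasurableSet.iInter fun j => measurableSet_lt (by fun_prop) measurable_const
  have hg : Measurable (Q.indicator (1 : (Fin (d + 1) → ℝ) → ℝ≥0∞)) := measurable_one.indicator hQm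
  have h1 : volume F ≤ ∑' t, ∫⁻ u, Q.indicator 1 (scal u (vec t)) := by
    refine le_trans ?_ ((unf_orbit h hx hF hb _ hg).le.trans
      (ENNReal.tsum_comp_le_tsum_of_injective Subtype.val_injective
        fun t => ∫⁻ u, Q.indicator 1 (scal u (vec t))))
    rw [← setLIntegral_one]
    refine lintegral_mono fun u => ?_
    obtain ⟨w, hw, h0, hw2⟩ := ub_box (fl x u)
    rw [lat_fl] at hw
    obtain ⟨w, hw, rfl⟩ := hw
    refine le_trans (le_of_eq ?_) (ENNReal.le_tsum ⟨w, hw, fun h1 => h0 (scal_eq_zero.2 h1)⟩)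
    exact (Set.indicator_of_mem (show scal u w ∈ Q from hw2) 1).symm
  have hfin : {t | nrm t ≤ ⌈2 ^ (d + 1) * Δ⌉₊}.Finite := by
    refine ((Set.finite_Iic ⌈2 ^ (d + 1) * Δ⌉₊).biUnion fun m _ => h.fin m).subset fun t ht => ?_
    exact Set.mem_biUnion ht rfl
  refine ne_top_of_le_ne_top ?_ h1
  rw [tsum_eq_sum (s := hfin.toFinset)]
  · refine ENNReal.sum_ne_top.2 fun t _ => ?_
    set a : ℝ := ((nrm t : ℝ) / Δ) ^ (1 / (d + 1) : ℝ) with ha
    have ha0 : 0 < a := by
      rw [ha, ← h.abs t 0]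
      exact abs_pos.2 (ub_vec h t 0)
    set L : ℝ := |Real.log (2 / a)| with hL
    refine ne_top_of_le_ne_top (measure_closedBall_lt_top (μ := volume)
      (x := (0 : Fin d → ℝ)) (r := (d + 1) * L)).ne ?_
    rw [← lintegral_indicator_one measurableSet_closedBall]
    refine lintegral_mono fun u => ?_
    by_cases hu : scal u (vec t) ∈ Q
    swap
    · rw [Set.indicator_of_notMem hu]
      exact bot_le
    have h2 : ∀ j, ex u j ≤ L := fun j => by
      have h3 : |vec t j * Real.exp (ex u j)| < 2 := hu j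
      rw [abs_mul, h.abs, ← ha, abs_of_pos (Real.exp_pos _)] at h3
      refine le_trans ?_ (le_abs_self _)
      rw [Real.le_log_iff_exp_le (by positivity), le_div_iff₀ ha0]
      linarith
    have hL0 : 0 ≤ L := abs_nonneg _
    have h4 : u ∈ Metric.closedBall (0 : Fin d → ℝ) ((d + 1) * L) := by
      rw [mem_closedBall_zero_iff, pi_norm_le_iff_of_nonneg (by positivity)]
      intro i
      have h5 := Finset.single_le_sum (f := fun j => L - ex u j) (s := Finset.univ)
        (fun j _ => sub_nonneg.2 (h2 j)) (Finset.mem_univ i.castSucc)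
      simp only [Finset.sum_sub_distrib, sum_ex, Finset.sum_const, Finset.card_univ,
        Fintype.card_fin, nsmul_eq_mul, ex_castSucc, Nat.cast_add, Nat.cast_one] at h5
      have h6 := h2 i.castSucc
      rw [ex_castSucc] at h6
      have h7 : 0 ≤ d * L := by positivity
      rw [Real.norm_eq_abs, abs_le]
      constructor <;> linarith
    rw [Set.indicator_of_mem hu, Set.indicator_of_mem h4]
    rfl
  · intro t ht
    rw [← lintegral_zero (μ := (volume : Measure (Fin d → ℝ)))]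
    refine lintegral_congr fun u => Set.indicator_of_notMem (fun hu => ht ?_) _
    have h2 : ∏ j, |scal u (vec t) j| ≤ ∏ _j : Fin (d + 1), (2 : ℝ) :=
      Finset.prod_le_prod (fun j _ => abs_nonneg _) fun j _ => (hu j).le
    have hΔ : 0 < Δ := one_pos.trans_le h.one_le
    rw [← Finset.abs_prod, prod_scal, Finset.abs_prod] at h2
    simp only [h.abs, Finset.prod_const, Finset.card_univ, Fintype.card_fin] at h2
    rw [one_div, ← Nat.cast_succ, Real.rpow_inv_natCast_pow (by positivity) (by omega),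
      div_le_iff₀ hΔ] at h2
    rw [Set.Finite.mem_toFinset, Set.mem_ofPred_eq, ← Nat.cast_le (α := ℝ)]
    exact h2.trans (Nat.le_ceil _)

theorem unf_main (h : Param P Δ pt vec nrm) {μ : Measure (X (d + 1))} (hμ : IsPacketMeasure P μ) :
    IsProbabilityMeasure μ ∧ AInv μ ∧ μ Pᶜ = 0 ∧ ∃ Z : ℝ≥0∞, Z ≠ 0 ∧ Z ≠ ⊤ ∧
      (∀ f : (Fin (d + 1) → ℝ) → ℝ≥0∞, Measurable f → ∀ S : Set (X (d + 1)), MeasurableSet S →
        (∀ x ∈ P, x ∈ S → ∃ w ∈ lat x, w ≠ 0 ∧ 1 ≤ f w) →
        Z * μ S ≤ ∑' t, ∫⁻ u, f (scal u (vec t))) ∧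
      ∀ f : (Fin (d + 1) → ℝ) → ℝ≥0∞, Measurable f → ∀ B : ℝ≥0∞,
        (∀ x ∈ P, ∑' w : {w // w ∈ lat x ∧ w ≠ 0}, f w ≤ B) →
        ∑' t, ∫⁻ u, f (scal u (vec t)) ≤ Z * B := by
  obtain ⟨O, ν, vol, hO, hν, rfl⟩ := hμ
  have key : ∀ Y ∈ O, ∃ x ∈ P, Y = orb x ∧ ∃ F : Set (Fin d → ℝ), MeasurableSet F ∧
      Set.BijOn (fl x) F (orb x) ∧ vol Y = volume F := by
    intro Y hY
    obtain ⟨-, -, -, x, hx, F, hF, hb, hv⟩ := hν Y hY
    obtain ⟨x0, hx0, rfl⟩ := (hO Y).1 hY
    have h1 := orb_eq_of_mem hx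
    obtain ⟨u, hu⟩ := mem_orb.1 hx
    exact ⟨x, hu ▸ h.inv x0 hx0 u, h1.symm, F, hF, h1.symm ▸ hb, hv⟩
  have hv : ∀ Y ∈ O, vol Y ≠ 0 ∧ vol Y ≠ ⊤ := fun Y hY => by
    obtain ⟨x, hx, -, F, hF, hb, h1⟩ := key Y hY
    rw [h1]
    exact unf_vol h hx hF hb
  have hZ0 : ∑ Y ∈ O, vol Y ≠ 0 := by
    obtain ⟨x, hx⟩ := h.ne
    have h1 : orb x ∈ O := (hO _).2 ⟨x, hx, rfl⟩
    exact fun h0 => (hv _ h1).1 (Finset.sum_eq_zero_iff.1 h0 _ h1)
  have hZ1 : ∑ Y ∈ O, vol Y ≠ ⊤ := ENNReal.sum_ne_top.2 fun Y hY => (hv Y hY).2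
  have hap : ∀ A, ((∑ Y ∈ O, vol Y)⁻¹ • ∑ Y ∈ O, vol Y • ν Y) A =
      (∑ Y ∈ O, vol Y)⁻¹ * ∑ Y ∈ O, vol Y * ν Y A := fun A => by
    simp only [Measure.smul_apply, Measure.finsetSum_apply, smul_eq_mul]
  have hsum : ∀ g : T → ℝ≥0∞, ∑' t, g t = ∑ Y ∈ O, ∑' t : {t // pt t ∈ Y}, g t := fun g => by
    have h1 : ∀ Y ∈ O, ∑' t : {t // pt t ∈ Y}, g t = ∑' t, {t | pt t ∈ Y}.indicator g t :=
      fun Y _ => tsum_subtype {t | pt t ∈ Y} g
    rw [Finset.sum_congr rfl h1, ← Summable.tsum_finsetSum fun _ _ => ENNReal.summable]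
    refine tsum_congr fun t => ?_
    rw [Finset.sum_eq_single_of_mem (orb (pt t)) ((hO _).2 ⟨_, (h.mem t).1, rfl⟩)]
    · exact (Set.indicator_of_mem (show t ∈ {s | pt s ∈ orb (pt t)} from self_mem_orb _) g).symm
    · intro Y hY hne
      obtain ⟨x, -, rfl⟩ := (hO Y).1 hY
      exact Set.indicator_of_notMem (s := {s | pt s ∈ orb x})
        (fun h2 => hne (orb_eq_of_mem h2).symm) g
  refine ⟨⟨?_⟩, fun u hu => ?_, ?_, _, hZ0, hZ1, fun f hf S hS hw => ?_, fun f hf B hB => ?_⟩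
  · have h1 : ∑ Y ∈ O, vol Y * ν Y Set.univ = ∑ Y ∈ O, vol Y :=
      Finset.sum_congr rfl fun Y hY => by rw [(hν Y hY).1.measure_univ, mul_one]
    rw [hap, h1, ENNReal.inv_mul_cancel hZ0 hZ1]
  · rw [diagA_eq_torus]
    have hm : Measurable fun y : X (d + 1) => act y (torus (Fin.init u)) :=
      (g_continuous_act.comp (continuous_id.prodMk continuous_const)).measurable
    ext A hA
    rw [Measure.map_apply hm hA, hap, hap]
    congr 1
    refine Finset.sum_congr rfl fun Y hY => ?_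
    rw [← Measure.map_apply hm hA, (hν Y hY).2.2.1]
  · rw [hap]
    refine mul_eq_zero_of_right _ (Finset.sum_eq_zero fun Y hY => ?_)
    obtain ⟨x, hx, rfl⟩ := (hO Y).1 hY
    rw [measure_mono_null (Set.compl_subset_compl.2 ?_) (hν _ hY).2.1, mul_zero]
    rintro _ ⟨u, rfl⟩
    exact h.inv x hx u
  · rw [hap, ← mul_assoc, ENNReal.mul_inv_cancel hZ0 hZ1, one_mul, hsum]
    refine Finset.sum_le_sum fun Y hY => ?_
    obtain ⟨h1, h2, h3, -⟩ := hν Y hY
    obtain ⟨x, hx, rfl, F, hF, hb, h4⟩ := key Y hY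
    have hA : MeasurableSet {u | fl x u ∈ S} :=
      (continuous_fl.comp (continuous_const.prodMk continuous_id)).measurable hS
    rw [h4, unf_nu h hx hF hb _ h2 h3 hS, ← unf_orbit h hx hF hb f hf, Set.inter_comm,
      ← Measure.restrict_apply hA, ← lintegral_indicator_one hA]
    refine lintegral_mono fun u => ?_
    by_cases hu : u ∈ {u | fl x u ∈ S}
    swap
    · rw [Set.indicator_of_notMem hu]
      exact bot_le
    obtain ⟨w, hw1, h0, hw2⟩ := hw _ (h.inv x hx u) hu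
    rw [lat_fl] at hw1
    obtain ⟨w, hw1, rfl⟩ := hw1
    rw [Set.indicator_of_mem hu]
    exact hw2.trans (ENNReal.le_tsum (f := fun w : {w // w ∈ lat x ∧ w ≠ 0} => f (scal u w))
      ⟨w, hw1, fun h1 => h0 (scal_eq_zero.2 h1)⟩)
  · rw [hsum, Finset.sum_mul]
    refine Finset.sum_le_sum fun Y hY => ?_
    obtain ⟨x, hx, rfl, F, hF, hb, h4⟩ := key Y hY
    rw [h4, ← unf_orbit h hx hF hb f hf, mul_comm, ← setLIntegral_const]
    refine lintegral_mono fun u => le_trans ?_ (hB _ (h.inv x hx u))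
    exact ENNReal.tsum_comp_le_tsum_of_injective
      (f := fun w : {w // w ∈ lat x ∧ w ≠ 0} => (⟨scal u w, ub_mem x u w.2.1,
        fun h0 => w.2.2 (scal_eq_zero.1 h0)⟩ : {w // w ∈ lat (fl x u) ∧ w ≠ 0}))
      (fun a b hab => Subtype.ext (scal_injective u (congrArg Subtype.val hab))) fun w => f w

theorem unf_vol_eq (h : Param P Δ pt vec nrm) {x : X (d + 1)} (hx : x ∈ P)
    {F F' : Set (Fin d → ℝ)} (hF : MeasurableSet F) (hb : Set.BijOn (fl x) F (orb x))
    (v : Fin d → ℝ) (hF' : MeasurableSet F') (hb' : Set.BijOn (fl (fl x v)) F' (orb x)) :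
    volume F = volume F' := by
  have := ub_count h hx
  have h1 : Set.BijOn (fl x) ((fun u => -v + u) ⁻¹' F') (orb x) := by
    have h2 : fl x = fl (fl x v) ∘ fun u => -v + u := by
      funext u
      simp only [Function.comp, fl_fl, add_neg_cancel_left]
    rw [h2]
    exact hb'.comp ((Equiv.addLeft (-v)).bijective.bijOn_preimage)
  rw [(ub_fund hF hb).measure_eq (ub_fund (measurable_const_add _ hF') h1), measure_preimage_add]

theorem unf_unique (h : Param P Δ pt vec nrm) {μ μ' : Measure (X (d + 1))}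
    (hμ : IsPacketMeasure P μ) (hμ' : IsPacketMeasure P μ') : μ = μ' := by
  obtain ⟨O, ν, vol, hO, hν, rfl⟩ := hμ
  obtain ⟨O', ν', vol', hO', hν', rfl⟩ := hμ'
  obtain rfl : O = O' := Finset.ext fun Y => (hO Y).trans (hO' Y).symm
  have key : ∀ Y ∈ O, vol Y = vol' Y ∧ ν Y = ν' Y := by
    intro Y hY
    obtain ⟨a1, a2, a3, x, hx, F, hF, hb, hv⟩ := hν Y hY
    obtain ⟨b1, b2, b3, x', hx', F', hF', hb', hv'⟩ := hν' Y hY
    obtain ⟨x0, hx0, rfl⟩ := (hO Y).1 hY
    have h1 := orb_eq_of_mem hx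
    obtain ⟨u, hu⟩ := mem_orb.1 hx
    have hP : x ∈ P := hu ▸ h.inv x0 hx0 u
    rw [← h1] at hx' hb hb' a1 a2 a3 b1 b2 b3 hv hv' ⊢
    obtain ⟨v, rfl⟩ := mem_orb.1 hx'
    refine ⟨by rw [hv, hv', unf_vol_eq h hP hF hb v hF' hb'], Measure.ext fun S hS => ?_⟩
    obtain ⟨c1, c2⟩ := unf_vol h hP hF hb
    rw [← ENNReal.mul_right_inj c1 c2, unf_nu h hP hF hb _ a2 a3 hS, unf_nu h hP hF hb _ b2 b3 hS]
  rw [Finset.sum_congr rfl fun Y hY => (key Y hY).1,
    Finset.sum_congr rfl fun Y hY => show vol Y • ν Y = vol' Y • ν' Y by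
      rw [(key Y hY).1, (key Y hY).2]]

end Vale.Agent.P007
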