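import Vale.Agent.P007.N.UnfB

/-! # P007 N: the two counting inequalities

Plan.  `n = d + 1`; `Z` from `unf_main`.
* Upper bound.  `f` = indicator of `{w | (∀ j, |w j| < 2) ∧ |∏ w j - s| < η}`, `S = thin n s η`
  (`g_isOpen_thin`, `mem_thin`).  `|∏ scal u (vec t) j| = τ := nrm t / Δ` (`prod_scal`, `abs`).  If the
  integrand is non-zero for some `u` then `|τ - |s|| < η` (`abs_abs_sub_abs_le_abs_sub`) and
  `τ < 2^n`.  With `ℓ = log (2 / τ^(1/n)) > 0` the condition gives `ex u j < ℓ` for all `j`, hence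
  `u i ∈ (-d ℓ, ℓ)`, volume `≤ (n ℓ)^d = (log (2^n/τ))^d ≤ (2n)^n √(2^n/τ)`
  (`Real.log_le_rpow_div` with exponent `1/(2n)`; `Real.volume_pi_Ioo`).  Sum over the finite set of
  such `t`, fibrewise over `nrm` (`Finset.sum_fiberwise_of_maps_to`, `Finset.card_eq_sum_ones`).
* Lower bound.  `R = e^d (Y/Δ)^(1/n) ≥ Δ`, `f` = indicator of `{‖w‖ ≤ R}`.  Every non-zero
  `w ∈ lat x`, `x ∈ P`, has `|∏ w j| ≥ 1/Δ`, so `‖w‖ ≥ s₀ := Δ^(-1/n)`, `(1/s₀)^n = Δ ≤ R`, and
  `lat_count` gives `B = C R^n = C e^(d n) Y/Δ`.  For `nrm t ≤ Y` the integral is at least the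
  volume `1` of `[-1, 0]^d` (`ex u j ≤ d` there). -/

open MeasureTheory Finset

namespace Vale.Agent.P007

section Aux

open scoped ENNReal

theorem unfC_ind {α : Type} {A : Set α} (hA : A.Finite) (c : ℝ≥0∞) :
    ∑' a, A.indicator (fun _ => c) a = (A.ncard : ℝ≥0∞) * c := by
  classical
  rw [tsum_eq_sum (s := hA.toFinset) fun a ha =>
    Set.indicator_of_notMem (fun h => ha (hA.mem_toFinset.2 h)) _,
    Finset.sum_congr rfl fun a ha => Set.indicator_of_mem (hA.mem_toFinset.1 ha) _,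
    Finset.sum_const, nsmul_eq_mul, Set.ncard_eq_toFinset_card _ hA]

theorem unfC_fib {T : Type} {nrm : T → ℕ} (hfin : ∀ m, {t | nrm t = m}.Finite) (M : Finset ℕ)
    (g : ℕ → ℝ≥0∞) :
    ∑' t, (if nrm t ∈ M then g (nrm t) else 0) =
      ∑ m ∈ M, ({t | nrm t = m}.ncard : ℝ≥0∞) * g m := by
  have e : ∀ t, (if nrm t ∈ M then g (nrm t) else 0) =
      ∑ m ∈ M, {t | nrm t = m}.indicator (fun _ => g m) t := fun t => by
    rw [← Finset.sum_ite_eq M (nrm t) g]
    refine Finset.sum_congr rfl fun m _ => ?_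
    by_cases h : nrm t = m
    · rw [if_pos h, Set.indicator_of_mem (show t ∈ {t | nrm t = m} from h)]
    · rw [if_neg h, Set.indicator_of_notMem (show t ∉ {t | nrm t = m} from h)]
  simp only [e]
  rw [Summable.tsum_finsetSum fun _ _ => ENNReal.summable]
  exact Finset.sum_congr rfl fun m _ => unfC_ind (hfin m) _

theorem unfC_root (d : ℕ) {y : ℝ} (hy : 0 ≤ y) : (y ^ (1 / (d + 1) : ℝ)) ^ (d + 1) = y := by
  have := Real.rpow_inv_natCast_pow hy (n := d + 1) (Nat.succ_ne_zero d)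
  rwa [Nat.cast_add, Nat.cast_one, ← one_div] at this

variable {d : ℕ} {P : Set (X (d + 1))} {Δ : ℝ} {T : Type} {pt : T → X (d + 1)}
  {vec : T → Fin (d + 1) → ℝ} {nrm : T → ℕ}

theorem unfC_tau (h : Param P Δ pt vec nrm) (t : T) : 0 < (nrm t : ℝ) / Δ := by
  have h1 : (1 : ℝ) ≤ nrm t := by exact_mod_cast h.pos t
  have h2 := h.one_le
  positivity

theorem unfC_prod (h : Param P Δ pt vec nrm) (t : T) (u : Fin d → ℝ) :
    |∏ j, scal u (vec t) j| = (nrm t : ℝ) / Δ := by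
  rw [prod_scal, Finset.abs_prod, Finset.prod_congr rfl fun j _ => h.abs t j, Finset.prod_const,
    Finset.card_univ, Fintype.card_fin, unfC_root d (unfC_tau h t).le]

theorem unfC_abs (h : Param P Δ pt vec nrm) (t : T) (u : Fin d → ℝ) (j : Fin (d + 1)) :
    |scal u (vec t) j| = ((nrm t : ℝ) / Δ) ^ (1 / (d + 1) : ℝ) * Real.exp (ex u j) := by
  rw [scal, abs_mul, h.abs, abs_of_pos (Real.exp_pos _)]

theorem unfC_vol (h : Param P Δ pt vec nrm) (t : T) (ht : (nrm t : ℝ) / Δ < 2 ^ (d + 1)) :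
    volume {u : Fin d → ℝ | ∀ j, |scal u (vec t) j| < 2} ≤
      ENNReal.ofReal ((2 * (d + 1 : ℝ)) ^ (d + 1) * √(2 ^ (d + 1)) * √(Δ / nrm t)) := by
  have hτ := unfC_tau h t
  set ρ : ℝ := ((nrm t : ℝ) / Δ) ^ (1 / (d + 1) : ℝ) with hρ
  have hρ0 : 0 < ρ := Real.rpow_pos_of_pos hτ _
  have hρn : ρ ^ (d + 1) = (nrm t : ℝ) / Δ := unfC_root d hτ.le
  have hρ2 : ρ < 2 := lt_of_pow_lt_pow_left₀ (d + 1) (by norm_num) (hρn ▸ ht)
  have hz : 1 < 2 / ρ := (one_lt_div hρ0).2 hρ2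
  set l : ℝ := Real.log (2 / ρ) with hl
  have hl0 : 0 < l := Real.log_pos hz
  have hsub : {u : Fin d → ℝ | ∀ j, |scal u (vec t) j| < 2} ⊆
      Set.pi Set.univ fun _ => Set.Icc (-(d * l)) l := by
    intro u hu i _
    have h1 : ∀ j, ex u j ≤ l := fun j => by
      have := hu j
      rw [unfC_abs h] at this
      rw [hl, Real.le_log_iff_exp_le (by positivity), le_div_iff₀ hρ0]
      linarith
    refine ⟨?_, by simpa using h1 i.castSucc⟩
    have h2 := sum_ex u
    rw [← Finset.add_sum_erase _ _ (Finset.mem_univ i.castSucc), ex_castSucc] at h2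
    have h3 := Finset.sum_le_card_nsmul (Finset.univ.erase i.castSucc) (ex u) l fun j _ => h1 j
    rw [Finset.card_erase_of_mem (Finset.mem_univ _), Finset.card_univ, Fintype.card_fin,
      nsmul_eq_mul, Nat.add_sub_cancel] at h3
    linarith
  refine (measure_mono hsub).trans ?_
  rw [volume_pi_pi]
  simp only [Real.volume_Icc, Finset.prod_const, Finset.card_univ, Fintype.card_fin]
  have hd : (0 : ℝ) ≤ d := Nat.cast_nonneg d
  rw [← ENNReal.ofReal_pow (by nlinarith)]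
  refine ENNReal.ofReal_le_ofReal ?_
  have hs1 : 1 ≤ √(2 / ρ) := Real.one_le_sqrt.2 hz.le
  have h4 : l ≤ 2 * √(2 / ρ) := by
    have a1 := Real.log_sqrt (x := 2 / ρ) (by positivity)
    have a2 := Real.log_le_sub_one_of_pos (x := √(2 / ρ)) (by linarith)
    linarith
  have h5 : l - -(d * l) ≤ 2 * (d + 1) * √(2 / ρ) := by nlinarith
  have h6 : (1 : ℝ) ≤ 2 * (d + 1) * √(2 / ρ) := by nlinarith
  have h7 : √(2 / ρ) ^ (d + 1) = √(2 ^ (d + 1)) * √(Δ / nrm t) := by
    rw [← Real.sqrt_mul (by positivity)]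
    symm
    rw [Real.sqrt_eq_iff_mul_self_eq (by have := h.one_le; positivity) (by positivity), ← mul_pow,
      Real.mul_self_sqrt (by positivity), div_pow, hρn, div_div_eq_mul_div, mul_div_assoc]
  calc (l - -(d * l)) ^ d ≤ (2 * (d + 1) * √(2 / ρ)) ^ d := pow_le_pow_left₀ (by nlinarith) h5 d
    _ ≤ (2 * (d + 1) * √(2 / ρ)) ^ (d + 1) := pow_le_pow_right₀ h6 (Nat.le_succ d)
    _ = _ := by rw [mul_pow, h7, mul_assoc]

theorem unfC_upper (h : Param P Δ pt vec nrm) (s η : ℝ) (t : T) :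
    ∫⁻ u, {w : Fin (d + 1) → ℝ | (∀ j, |w j| < 2) ∧ |∏ j, w j - s| < η}.indicator (1 : (Fin (d + 1) → ℝ) → ℝ≥0∞)
        (scal u (vec t)) ≤
      if nrm t ∈ (Icc 1 ⌊2 ^ (d + 1) * Δ⌋₊).filter (fun m : ℕ => abs ((m : ℝ) / Δ - |s|) < η) then
        ENNReal.ofReal ((2 * (d + 1 : ℝ)) ^ (d + 1) * √(2 ^ (d + 1)) * √(Δ / nrm t)) else 0 := by
  by_cases he : ∃ u, (∀ j, |scal u (vec t) j| < 2) ∧ |∏ j, scal u (vec t) j - s| < η
  · obtain ⟨u0, h1, h2⟩ := he
    have hΔ : 0 < Δ := by linarith [h.one_le]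
    have ht : (nrm t : ℝ) / Δ < 2 ^ (d + 1) := by
      have hρ0 : 0 < ((nrm t : ℝ) / Δ) ^ (1 / (d + 1) : ℝ) := Real.rpow_pos_of_pos (unfC_tau h t) _
      have := Finset.prod_lt_prod_of_nonempty (s := Finset.univ) (f := fun j => |scal u0 (vec t) j|)
        (g := fun _ => (2 : ℝ)) (fun j _ => by rw [unfC_abs h]; positivity) (fun j _ => h1 j)
        Finset.univ_nonempty
      rwa [← Finset.abs_prod, unfC_prod h, Finset.prod_const, Finset.card_univ,
        Fintype.card_fin] at this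
    rw [if_pos (Finset.mem_filter.2 ⟨Finset.mem_Icc.2 ⟨h.pos t,
      Nat.le_floor ((div_lt_iff₀ hΔ).1 ht).le⟩, by
        rw [← unfC_prod h t u0]
        exact (abs_abs_sub_abs_le_abs_sub _ _).trans_lt h2⟩)]
    refine le_trans ?_ (unfC_vol h t ht)
    refine le_trans (lintegral_mono fun u => ?_) (lintegral_indicator_one_le _)
    by_cases hu : (∀ j, |scal u (vec t) j| < 2) ∧ |∏ j, scal u (vec t) j - s| < η
    · rw [Set.indicator_of_mem (show scal u (vec t) ∈ {w : Fin (d + 1) → ℝ | (∀ j, |w j| < 2) ∧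
        |∏ j, w j - s| < η} from hu), Set.indicator_of_mem (show u ∈ {u : Fin d → ℝ |
        ∀ j, |scal u (vec t) j| < 2} from hu.1)]
      exact le_rfl
    · rw [Set.indicator_of_notMem (show scal u (vec t) ∉ {w : Fin (d + 1) → ℝ | (∀ j, |w j| < 2) ∧
        |∏ j, w j - s| < η} from hu)]
      exact zero_le
  · refine le_trans (le_of_eq ?_) zero_le
    rw [← lintegral_zero (μ := (volume : Measure (Fin d → ℝ)))]
    refine lintegral_congr fun u => Set.indicator_of_notMem ?_ _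
    exact fun hu => he ⟨u, hu⟩

theorem unfC_min (h : Param P Δ pt vec nrm) {x : X (d + 1)} (hx : x ∈ P) {w : Fin (d + 1) → ℝ}
    (hw : w ∈ lat x) (h0 : w ≠ 0) : (1 / Δ) ^ (1 / (d + 1) : ℝ) ≤ ‖w‖ := by
  have hΔ : 0 < Δ := by linarith [h.one_le]
  obtain ⟨t, u, -, rfl⟩ := h.surj x hx w hw h0
  refine le_of_pow_le_pow_left₀ (Nat.succ_ne_zero d) (norm_nonneg _) ?_
  rw [unfC_root d (by positivity)]
  have h1 : (1 : ℝ) ≤ nrm t := by exact_mod_cast h.pos t
  have h2 := Finset.prod_le_prod (s := Finset.univ) (f := fun j => |scal u (vec t) j|)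
    (g := fun _ => ‖scal u (vec t)‖) (fun j _ => abs_nonneg _)
    (fun j _ => norm_le_pi_norm (scal u (vec t)) j)
  rw [← Finset.abs_prod, unfC_prod h, Finset.prod_const, Finset.card_univ, Fintype.card_fin] at h2
  exact (div_le_div_of_nonneg_right h1 hΔ.le).trans h2

theorem unfC_lower (h : Param P Δ pt vec nrm) {Y : ℝ} (hY : 0 ≤ Y) (t : T) :
    (if nrm t ∈ Icc 1 ⌊Y⌋₊ then 1 else 0) ≤
      ∫⁻ u, (Metric.closedBall (0 : Fin (d + 1) → ℝ)
        (Real.exp d * (Y / Δ) ^ (1 / (d + 1) : ℝ))).indicator (1 : (Fin (d + 1) → ℝ) → ℝ≥0∞) (scal u (vec t)) := by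
  split_ifs with ht
  · have hΔ : 0 < Δ := by linarith [h.one_le]
    have h1 : (nrm t : ℝ) ≤ Y := (Nat.le_floor_iff hY).1 (Finset.mem_Icc.1 ht).2
    have h2 : ((nrm t : ℝ) / Δ) ^ (1 / (d + 1) : ℝ) ≤ (Y / Δ) ^ (1 / (d + 1) : ℝ) :=
      Real.rpow_le_rpow (unfC_tau h t).le (div_le_div_of_nonneg_right h1 hΔ.le) (by positivity)
    have hv : volume (Set.pi Set.univ fun _ : Fin d => Set.Icc (-1 : ℝ) 0) = 1 := by
      rw [volume_pi_pi]
      simp
    rw [← hv, ← lintegral_indicator_one (MeasurableSet.univ_pi fun _ => measurableSet_Icc)]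
    refine lintegral_mono fun u => ?_
    by_cases hu : u ∈ Set.pi Set.univ fun _ : Fin d => Set.Icc (-1 : ℝ) 0
    · have h3 : ∀ j, ex u j ≤ d := fun j => by
        refine Fin.lastCases ?_ (fun i => ?_) j
        · have := Finset.card_nsmul_le_sum Finset.univ u (-1) fun i _ => (hu i trivial).1
          rw [Finset.card_univ, Fintype.card_fin, nsmul_eq_mul] at this
          rw [ex_last]
          linarith
        · rw [ex_castSucc]
          exact (hu i trivial).2.trans (Nat.cast_nonneg d)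
      have h4 : scal u (vec t) ∈ Metric.closedBall (0 : Fin (d + 1) → ℝ)
          (Real.exp d * (Y / Δ) ^ (1 / (d + 1) : ℝ)) := by
        rw [mem_closedBall_zero_iff, pi_norm_le_iff_of_nonneg (by positivity)]
        intro j
        rw [Real.norm_eq_abs, unfC_abs h, mul_comm]
        exact mul_le_mul (Real.exp_le_exp.2 (h3 j)) h2 (by positivity) (by positivity)
      rw [Set.indicator_of_mem hu, Set.indicator_of_mem h4]
      exact le_rfl
    · rw [Set.indicator_of_notMem hu]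
      exact zero_le
  · exact zero_le

theorem unfC_count (x : X (d + 1)) (R : ℝ) :
    ∑' w : {w // w ∈ lat x ∧ w ≠ 0}, (Metric.closedBall (0 : Fin (d + 1) → ℝ) R).indicator
      (1 : (Fin (d + 1) → ℝ) → ℝ≥0∞) w ≤ ({w ∈ lat x | ‖w‖ ≤ R}.ncard : ℝ≥0∞) := by
  have h1 := unfC_ind (lat_finite x R) 1
  rw [mul_one] at h1
  rw [← h1]
  refine le_trans (ENNReal.tsum_le_tsum fun w => ?_)
    (ENNReal.tsum_comp_le_tsum_of_injective
      (Subtype.val_injective (p := fun w => w ∈ lat x ∧ w ≠ 0)) _)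
  by_cases hw : w.1 ∈ Metric.closedBall (0 : Fin (d + 1) → ℝ) R
  · rw [Set.indicator_of_mem hw, Set.indicator_of_mem
      (show w.1 ∈ {w ∈ lat x | ‖w‖ ≤ R} from ⟨w.2.1, mem_closedBall_zero_iff.1 hw⟩)]
    exact le_rfl
  · rw [Set.indicator_of_notMem hw]
    exact zero_le

end Aux

open Classical in
theorem unf_bounds (d : ℕ) : ∃ C : ℝ, 0 < C ∧ ∀ (P : Set (X (d + 1))) (Δ : ℝ) (T : Type)
    (pt : T → X (d + 1)) (vec : T → Fin (d + 1) → ℝ) (nrm : T → ℕ) (μ : Measure (X (d + 1))),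
    Param P Δ pt vec nrm → IsPacketMeasure P μ → ∃ Z : ℝ, 0 < Z ∧
      (∀ s η : ℝ, Z * (μ (thin (d + 1) s η)).toReal ≤
        C * ∑ m ∈ (Icc 1 ⌊2 ^ (d + 1) * Δ⌋₊).filter (fun m : ℕ => abs ((m : ℝ) / Δ - |s|) < η),
          ({t | nrm t = m}.ncard : ℝ) * √(Δ / m)) ∧
      ∀ Y : ℝ, Δ ^ (d + 2) ≤ Y →
        ∑ m ∈ Icc 1 ⌊Y⌋₊, ({t | nrm t = m}.ncard : ℝ) ≤ C * Z / Δ * Y := by
  obtain ⟨C0, hC0, hcount⟩ := lat_count (n := d + 1) (Nat.le_add_left 1 d)
  set C1 : ℝ := (2 * (d + 1 : ℝ)) ^ (d + 1) * √(2 ^ (d + 1)) with hC1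
  have hC1p : 0 < C1 := by positivity
  have hC2p : 0 < C0 * Real.exp d ^ (d + 1) := by positivity
  refine ⟨C1 + C0 * Real.exp d ^ (d + 1), by positivity, fun P Δ T pt vec nrm μ h hμ => ?_⟩
  obtain ⟨hp, -, -, Z, hZ0, hZ1, hup, hlo⟩ := unf_main h hμ
  have hΔ1 := h.one_le
  have hΔ : 0 < Δ := by linarith
  have hZ : 0 < Z.toReal := ENNReal.toReal_pos hZ0 hZ1
  refine ⟨Z.toReal, hZ, fun s η => ?_, fun Y hY => ?_⟩
  · have hU : MeasurableSet {w : Fin (d + 1) → ℝ | (∀ j, |w j| < 2) ∧ |∏ j, w j - s| < η} := by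
      have h1 : IsOpen (⋂ j, {w : Fin (d + 1) → ℝ | |w j| < 2}) :=
        isOpen_iInter_of_finite fun j => isOpen_lt (by fun_prop) continuous_const
      have h2 : IsOpen {w : Fin (d + 1) → ℝ | |∏ j, w j - s| < η} :=
        isOpen_lt (by fun_prop) continuous_const
      convert (h1.inter h2).measurableSet using 1
      ext w
      simp
    have hB : BorelSpace (X (d + 1)) := ⟨rfl⟩
    have key := hup _ (measurable_one.indicator hU) (thin (d + 1) s η)
      (g_isOpen_thin _ s η).measurableSet (fun x _ hx => by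
        obtain ⟨w, h1, h2, h3⟩ := mem_thin.1 hx
        exact ⟨w, h1, h2, by rw [Set.indicator_of_mem (show w ∈ {w : Fin (d + 1) → ℝ |
          (∀ j, |w j| < 2) ∧ |∏ j, w j - s| < η} from h3)]; exact le_rfl⟩)
    have key2 := key.trans (ENNReal.tsum_le_tsum (unfC_upper h s η))
    rw [unfC_fib h.fin _ (fun m => ENNReal.ofReal (C1 * √(Δ / m)))] at key2
    have e : ∀ M : Finset ℕ, ∑ m ∈ M, ({t | nrm t = m}.ncard : ENNReal) *
        ENNReal.ofReal (C1 * √(Δ / m)) =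
        ENNReal.ofReal (C1 * ∑ m ∈ M, ({t | nrm t = m}.ncard : ℝ) * √(Δ / m)) := fun M => by
      rw [Finset.mul_sum, ENNReal.ofReal_sum_of_nonneg fun m _ => by positivity]
      refine Finset.sum_congr rfl fun m _ => ?_
      rw [← ENNReal.ofReal_natCast, ← ENNReal.ofReal_mul (by positivity), mul_left_comm]
    rw [e] at key2
    have key3 := ENNReal.toReal_le_of_le_ofReal
      (mul_nonneg hC1p.le (Finset.sum_nonneg fun m _ => by positivity)) key2
    rw [ENNReal.toReal_mul] at key3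
    refine key3.trans (mul_le_mul_of_nonneg_right (by linarith)
      (Finset.sum_nonneg fun m _ => by positivity))
  · have hY0 : 0 < Y := lt_of_lt_of_le (by positivity) hY
    set r : ℝ := (Y / Δ) ^ (1 / (d + 1) : ℝ) with hr
    have hrn : r ^ (d + 1) = Y / Δ := unfC_root d (by positivity)
    have hr0 : 0 ≤ r := by positivity
    have hΔr : Δ ≤ r := by
      refine le_of_pow_le_pow_left₀ (Nat.succ_ne_zero d) hr0 ?_
      rw [hrn, le_div_iff₀ hΔ, ← pow_succ]
      exact hY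
    have he1 : 1 ≤ Real.exp d := Real.one_le_exp (Nat.cast_nonneg d)
    have hs0 : 0 < (1 / Δ) ^ (1 / (d + 1) : ℝ) := by positivity
    have hs1 : (1 / Δ) ^ (1 / (d + 1) : ℝ) ≤ 1 :=
      Real.rpow_le_one (by positivity) ((div_le_one hΔ).2 hΔ1) (by positivity)
    have key := hlo _ (measurable_one.indicator
      (measurableSet_closedBall (x := (0 : Fin (d + 1) → ℝ)) (ε := Real.exp d * r)))
      (ENNReal.ofReal (C0 * (Real.exp d * r) ^ (d + 1))) (fun x hx => by
        refine (unfC_count x _).trans ?_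
        rw [← ENNReal.ofReal_natCast]
        refine ENNReal.ofReal_le_ofReal (hcount x _ _ hs0 hs1 (fun w hw h0 => unfC_min h hx hw h0) ?_)
        rw [div_pow, one_pow, unfC_root d (by positivity), one_div_one_div]
        nlinarith)
    have key2 := (ENNReal.tsum_le_tsum (unfC_lower h hY0.le)).trans key
    rw [unfC_fib h.fin _ (fun _ => 1)] at key2
    have key3 := ENNReal.toReal_mono (ENNReal.mul_ne_top hZ1 ENNReal.ofReal_ne_top) key2
    rw [ENNReal.toReal_sum fun m _ => by simp, ENNReal.toReal_mul,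
      ENNReal.toReal_ofReal (by positivity), mul_pow, hrn] at key3
    simp only [mul_one, ENNReal.toReal_natCast] at key3
    refine key3.trans ?_
    have e : Z.toReal * (C0 * (Real.exp d ^ (d + 1) * (Y / Δ))) =
        C0 * Real.exp d ^ (d + 1) * Z.toReal / Δ * Y := by ring
    rw [e]
    gcongr
    linarith

end Vale.Agent.P007
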